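import Mathlib

/-!
# P335 / bipartite core: averaging a function over the classes of an equivalence relation
on a finite type (conditional expectation for the uniform measure); basic algebra
-/

namespace Vale.Agent.Lib.P335.Bip

open Finset
open scoped Classical

variable {X : Type*} [Fintype X]

/-- Average of `f` over the `r`-class of `x`. -/
noncomputable def av (r : X → X → Prop) (f : X → ℝ) : X → ℝ :=
  fun x => (∑ y ∈ univ.filter (fun y => r x y), f y) / ((univ.filter (fun y => r x y)).card : ℝ)

private theorem av_class_eq {r : X → X → Prop} (hr : Equivalence r) {x y : X} (h : r x y) :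
    univ.filter (fun z => r x z) = univ.filter (fun z => r y z) := by
  apply Finset.filter_congr
  intro z _
  exact ⟨fun hxz => hr.trans (hr.symm h) hxz, fun hyz => hr.trans h hyz⟩

private theorem av_class_card_pos {r : X → X → Prop} (hr : Equivalence r) (x : X) :
    0 < ((univ.filter (fun y => r x y)).card : ℝ) := by
  have hx : x ∈ univ.filter (fun y => r x y) :=
    Finset.mem_filter.mpr ⟨Finset.mem_univ x, hr.refl x⟩
  exact_mod_cast Finset.card_pos.mpr ⟨x, hx⟩

theorem av_congr_of_rel {r : X → X → Prop} (hr : Equivalence r) (f : X → ℝ) {x y : X}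
    (h : r x y) : av r f x = av r f y := by
  show (∑ z ∈ univ.filter (fun z => r x z), f z) / ((univ.filter (fun z => r x z)).card : ℝ)
    = (∑ z ∈ univ.filter (fun z => r y z), f z) / ((univ.filter (fun z => r y z)).card : ℝ)
  rw [av_class_eq hr h]

theorem av_add (r : X → X → Prop) (f g : X → ℝ) :
    av r (fun x => f x + g x) = fun x => av r f x + av r g x := by
  funext x
  show (∑ y ∈ univ.filter (fun y => r x y), (f y + g y))
      / ((univ.filter (fun y => r x y)).card : ℝ)
    = (∑ y ∈ univ.filter (fun y => r x y), f y) / ((univ.filter (fun y => r x y)).card : ℝ)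
      + (∑ y ∈ univ.filter (fun y => r x y), g y) / ((univ.filter (fun y => r x y)).card : ℝ)
  rw [Finset.sum_add_distrib, add_div]

theorem av_sub (r : X → X → Prop) (f g : X → ℝ) :
    av r (fun x => f x - g x) = fun x => av r f x - av r g x := by
  funext x
  show (∑ y ∈ univ.filter (fun y => r x y), (f y - g y))
      / ((univ.filter (fun y => r x y)).card : ℝ)
    = (∑ y ∈ univ.filter (fun y => r x y), f y) / ((univ.filter (fun y => r x y)).card : ℝ)
      - (∑ y ∈ univ.filter (fun y => r x y), g y) / ((univ.filter (fun y => r x y)).card : ℝ)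
  rw [Finset.sum_sub_distrib, sub_div]

theorem av_const_mul (r : X → X → Prop) (c : ℝ) (f : X → ℝ) :
    av r (fun x => c * f x) = fun x => c * av r f x := by
  funext x
  show (∑ y ∈ univ.filter (fun y => r x y), c * f y)
      / ((univ.filter (fun y => r x y)).card : ℝ)
    = c * ((∑ y ∈ univ.filter (fun y => r x y), f y)
      / ((univ.filter (fun y => r x y)).card : ℝ))
  rw [← Finset.mul_sum, mul_div_assoc]

/-- A function that is constant on classes is fixed by the average. -/
theorem av_of_invariant {r : X → X → Prop} (hr : Equivalence r) {f : X → ℝ}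
    (h : ∀ x y, r x y → f x = f y) : av r f = f := by
  funext x
  show (∑ y ∈ univ.filter (fun y => r x y), f y) / ((univ.filter (fun y => r x y)).card : ℝ)
    = f x
  have hpos := av_class_card_pos hr x
  rw [Finset.sum_congr rfl (fun y hy => (h x y (Finset.mem_filter.mp hy).2).symm),
    Finset.sum_const, nsmul_eq_mul]
  exact mul_div_cancel_left₀ _ hpos.ne'

/-- A factor that is constant on classes can be pulled out of the average. -/
theorem av_mul_invariant {r : X → X → Prop} (hr : Equivalence r) {g : X → ℝ}
    (h : ∀ x y, r x y → g x = g y) (f : X → ℝ) :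
    av r (fun x => g x * f x) = fun x => g x * av r f x := by
  have _hr := hr
  funext x
  show (∑ y ∈ univ.filter (fun y => r x y), g y * f y)
      / ((univ.filter (fun y => r x y)).card : ℝ)
    = g x * ((∑ y ∈ univ.filter (fun y => r x y), f y)
      / ((univ.filter (fun y => r x y)).card : ℝ))
  rw [Finset.sum_congr rfl (fun y hy => by rw [← h x y (Finset.mem_filter.mp hy).2]),
    ← Finset.mul_sum, mul_div_assoc]

theorem av_av {r : X → X → Prop} (hr : Equivalence r) (f : X → ℝ) :
    av r (av r f) = av r f := by
  exact av_of_invariant hr (fun x y hxy => av_congr_of_rel hr f hxy)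

private theorem av_selfadj {r : X → X → Prop} (hr : Equivalence r) (f g : X → ℝ) :
    ∑ x, f x * av r g x = ∑ x, av r f x * g x := by
  have hL : ∀ x, f x * av r g x = ∑ y, if r x y
      then f x * g y / ((univ.filter (fun z => r x z)).card : ℝ) else 0 := by
    intro x
    show f x * ((∑ y ∈ univ.filter (fun y => r x y), g y)
      / ((univ.filter (fun y => r x y)).card : ℝ)) = _
    rw [← Finset.sum_filter, Finset.sum_div, Finset.mul_sum]
    exact Finset.sum_congr rfl (fun y _ => (mul_div_assoc _ _ _).symm)
  have hR : ∀ x, av r f x * g x = ∑ y, if r x y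
      then f y * g x / ((univ.filter (fun z => r x z)).card : ℝ) else 0 := by
    intro x
    show ((∑ y ∈ univ.filter (fun y => r x y), f y)
      / ((univ.filter (fun y => r x y)).card : ℝ)) * g x = _
    rw [← Finset.sum_filter, Finset.sum_div, Finset.sum_mul]
    exact Finset.sum_congr rfl (fun y _ => (div_mul_eq_mul_div _ _ _))
  rw [Finset.sum_congr rfl (fun x _ => hL x), Finset.sum_congr rfl (fun x _ => hR x),
    Finset.sum_comm]
  refine Finset.sum_congr rfl (fun y _ => Finset.sum_congr rfl (fun x _ => ?_))
  by_cases hxy : r x y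
  · rw [if_pos hxy, if_pos (hr.symm hxy), av_class_eq hr hxy]
  · rw [if_neg hxy, if_neg (fun h => hxy (hr.symm h))]

theorem sum_av {r : X → X → Prop} (hr : Equivalence r) (f : X → ℝ) :
    ∑ x, av r f x = ∑ x, f x := by
  have h := av_selfadj hr (fun _ => (1 : ℝ)) f
  rw [av_of_invariant hr (f := fun _ => (1 : ℝ)) (fun _ _ _ => rfl)] at h
  simp only [one_mul] at h
  exact h

/-- The average is self-adjoint for the inner product `∑ x, a x * b x`. -/
theorem sum_mul_av {r : X → X → Prop} (hr : Equivalence r) (f g : X → ℝ) :
    ∑ x, f x * av r g x = ∑ x, av r f x * g x :=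
  av_selfadj hr f g

theorem sum_av_sq {r : X → X → Prop} (hr : Equivalence r) (f : X → ℝ) :
    ∑ x, av r f x ^ 2 = ∑ x, f x * av r f x := by
  have h := sum_mul_av hr f (av r f)
  rw [av_av hr f] at h
  rw [h]
  exact Finset.sum_congr rfl (fun x _ => sq _)

theorem sum_sub_av_sq {r : X → X → Prop} (hr : Equivalence r) (f : X → ℝ) :
    ∑ x, (f x - av r f x) ^ 2 = ∑ x, f x ^ 2 - ∑ x, f x * av r f x := by
  have h := sum_av_sq hr f
  have e : ∀ x, (f x - av r f x) ^ 2
      = f x ^ 2 - 2 * (f x * av r f x) + av r f x ^ 2 := fun x => by ring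
  rw [Finset.sum_congr rfl (fun x _ => e x), Finset.sum_add_distrib, Finset.sum_sub_distrib,
    ← Finset.mul_sum, h]
  ring

/-- The average as a linear map. -/
noncomputable def avL (r : X → X → Prop) : (X → ℝ) →ₗ[ℝ] (X → ℝ) where
  toFun := av r
  map_add' := by
    intro f g
    exact av_add r f g
  map_smul' := by
    intro c f
    exact av_const_mul r c f

theorem avL_apply (r : X → X → Prop) (f : X → ℝ) : avL r f = av r f := rfl

end Vale.Agent.Lib.P335.Bip
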