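import Vale.Agent.Lib.P335.Bip.Av

/-!
# P335 / bipartite core: more on class averages: Jensen, coarser relations, transport along
a bijection
-/

namespace Vale.Agent.Lib.P335.Bip

open Finset
open scoped Classical

variable {X : Type*} [Fintype X]

private theorem avMore_card_pos {r : X → X → Prop} (hr : Equivalence r) (x : X) :
    0 < ((univ.filter (fun y => r x y)).card : ℝ) := by
  have hx : x ∈ univ.filter (fun y => r x y) :=
    Finset.mem_filter.mpr ⟨Finset.mem_univ x, hr.refl x⟩
  exact_mod_cast Finset.card_pos.mpr ⟨x, hx⟩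

/-- Jensen: the square of an average is at most the average of the squares. -/
theorem av_sq_le {r : X → X → Prop} (hr : Equivalence r) (f : X → ℝ) (x : X) :
    av r f x ^ 2 ≤ av r (fun y => f y ^ 2) x := by
  show ((∑ y ∈ univ.filter (fun y => r x y), f y)
      / ((univ.filter (fun y => r x y)).card : ℝ)) ^ 2
    ≤ (∑ y ∈ univ.filter (fun y => r x y), f y ^ 2)
      / ((univ.filter (fun y => r x y)).card : ℝ)
  have hpos := avMore_card_pos hr x
  have hcs : (∑ y ∈ univ.filter (fun y => r x y), f y) ^ 2
      ≤ ((univ.filter (fun y => r x y)).card : ℝ)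
        * ∑ y ∈ univ.filter (fun y => r x y), f y ^ 2 :=
    sq_sum_le_card_mul_sum_sq
  rw [div_pow, div_le_div_iff₀ (pow_pos hpos 2) hpos]
  calc (∑ y ∈ univ.filter (fun y => r x y), f y) ^ 2
        * ((univ.filter (fun y => r x y)).card : ℝ)
      ≤ (((univ.filter (fun y => r x y)).card : ℝ)
        * ∑ y ∈ univ.filter (fun y => r x y), f y ^ 2)
        * ((univ.filter (fun y => r x y)).card : ℝ) :=
        mul_le_mul_of_nonneg_right hcs hpos.le
    _ = (∑ y ∈ univ.filter (fun y => r x y), f y ^ 2)
        * ((univ.filter (fun y => r x y)).card : ℝ) ^ 2 := by ring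

/-- If `r` is finer than `s`, averaging over `s` absorbs averaging over `r`. -/
theorem av_coarse {r s : X → X → Prop} (hr : Equivalence r) (hs : Equivalence s)
    (h : ∀ x y, r x y → s x y) (f : X → ℝ) : av s (av r f) = av s f := by
  funext x
  show (∑ y ∈ univ.filter (fun y => s x y), av r f y)
      / ((univ.filter (fun y => s x y)).card : ℝ)
    = (∑ y ∈ univ.filter (fun y => s x y), f y)
      / ((univ.filter (fun y => s x y)).card : ℝ)
  have hinv : av r (fun y => if s x y then (1 : ℝ) else 0)
      = fun y => if s x y then (1 : ℝ) else 0 := by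
    apply av_of_invariant hr
    intro y z hyz
    have hiff : s x y ↔ s x z :=
      ⟨fun hxy => hs.trans hxy (h y z hyz), fun hxz => hs.trans hxz (hs.symm (h y z hyz))⟩
    by_cases hxy : s x y
    · rw [if_pos hxy, if_pos (hiff.mp hxy)]
    · rw [if_neg hxy, if_neg (fun hxz => hxy (hiff.mpr hxz))]
  have hsum : ∑ y ∈ univ.filter (fun y => s x y), av r f y
      = ∑ y ∈ univ.filter (fun y => s x y), f y := by
    have h1 := sum_mul_av hr (fun y => if s x y then (1 : ℝ) else 0) f
    rw [hinv] at h1
    have e1 : ∀ g : X → ℝ, ∑ y, (if s x y then (1 : ℝ) else 0) * g y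
        = ∑ y ∈ univ.filter (fun y => s x y), g y := by
      intro g
      rw [Finset.sum_filter]
      refine Finset.sum_congr rfl (fun y _ => ?_)
      by_cases hxy : s x y
      · rw [if_pos hxy, if_pos hxy, one_mul]
      · rw [if_neg hxy, if_neg hxy, zero_mul]
    rw [e1 (av r f), e1 f] at h1
    exact h1
  rw [hsum]

theorem av_coarse' {r s : X → X → Prop} (hr : Equivalence r) (hs : Equivalence s)
    (h : ∀ x y, r x y → s x y) (f : X → ℝ) : av r (av s f) = av s f :=
  av_of_invariant hr (fun x y hxy => av_congr_of_rel hs f (h x y hxy))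

/-- Transport along a bijection that preserves the relation. -/
theorem av_comp_equiv {r : X → X → Prop} (σ : X ≃ X)
    (hσ : ∀ x y, r x y ↔ r (σ x) (σ y)) (f : X → ℝ) :
    av r (fun x => f (σ x)) = fun x => av r f (σ x) := by
  funext x
  show (∑ y ∈ univ.filter (fun y => r x y), f (σ y))
      / ((univ.filter (fun y => r x y)).card : ℝ)
    = (∑ y ∈ univ.filter (fun y => r (σ x) y), f y)
      / ((univ.filter (fun y => r (σ x) y)).card : ℝ)
  have hmap : univ.filter (fun y => r (σ x) y)
      = (univ.filter (fun y => r x y)).map σ.toEmbedding := by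
    ext y
    simp only [Finset.mem_filter, Finset.mem_univ, true_and, Finset.mem_map,
      Equiv.coe_toEmbedding]
    constructor
    · intro hy
      refine ⟨σ.symm y, ?_, σ.apply_symm_apply y⟩
      rw [hσ, σ.apply_symm_apply]
      exact hy
    · rintro ⟨z, hz, rfl⟩
      exact (hσ x z).mp hz
  rw [hmap, Finset.sum_map, Finset.card_map]
  rfl

end Vale.Agent.Lib.P335.Bip
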