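import Vale.Agent.Lib.P335.Bip.Av

/-!
# P335 / bipartite core: `H² ≥ H` and `ker H = range (av s)` give the Poincare inequality
`‖f - av s f‖² ≤ ⟨f, H f⟩`
-/

namespace Vale.Agent.Lib.P335.Bip

open Finset
open scoped Classical

variable {X : Type*} [Fintype X]

theorem gap_of_sq_ge (H : (X → ℝ) →ₗ[ℝ] (X → ℝ)) (s : X → X → Prop) (hs : Equivalence s)
    (hsymm : ∀ a b : X → ℝ, ∑ x, H a x * b x = ∑ x, a x * H b x)
    (hpsd : ∀ a : X → ℝ, 0 ≤ ∑ x, a x * H a x)
    (hsq : ∀ a : X → ℝ, ∑ x, a x * H a x ≤ ∑ x, H a x ^ 2)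
    (hker : ∀ a : X → ℝ, H a = 0 → av s a = a)
    (hav : ∀ a : X → ℝ, H (av s a) = 0)
    (f : X → ℝ) :
    ∑ x, (f x - av s f x) ^ 2 ≤ ∑ x, f x * H f x := by
  -- the map `H + av s` is injective, hence surjective
  have hinj : Function.Injective (H + avL s) := by
    rw [injective_iff_map_eq_zero]
    intro a ha
    have ha' : H a + av s a = 0 := ha
    have hHa : H a = -(av s a) := eq_neg_of_add_eq_zero_left ha'
    have hHH : H (H a) = 0 := by
      rw [hHa, map_neg, hav, neg_zero]
    have hzero : ∑ x, H a x * H a x = 0 := by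
      rw [hsymm a (H a), hHH]
      simp
    have hHa0 : H a = 0 := by
      funext x
      have hx := (Finset.sum_eq_zero_iff_of_nonneg
        (fun x _ => mul_self_nonneg (H a x))).mp hzero x (Finset.mem_univ x)
      exact mul_self_eq_zero.mp hx
    have h1 := hker a hHa0
    rw [hHa0, zero_add, h1] at ha'
    exact ha'
  have hsurj : Function.Surjective (H + avL s) := LinearMap.injective_iff_surjective.mp hinj
  obtain ⟨u, hu⟩ := hsurj (f - av s f)
  have hu' : H u + av s u = f - av s f := hu
  -- the average of `H u` vanishes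
  have hPH : av s (H u) = 0 := by
    have hz : ∑ x, av s (H u) x * av s (H u) x = 0 := by
      rw [← sum_mul_av hs (H u) (av s (H u)), av_av hs, hsymm u (av s (H u)), hav]
      simp
    funext x
    have hx := (Finset.sum_eq_zero_iff_of_nonneg
      (fun x _ => mul_self_nonneg (av s (H u) x))).mp hz x (Finset.mem_univ x)
    exact mul_self_eq_zero.mp hx
  -- the average of `f - av s f` vanishes
  have hPg : av s (f - av s f) = 0 := by
    have h1 : avL s (f - av s f) = avL s f - avL s (av s f) := map_sub _ _ _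
    rw [avL_apply, avL_apply, avL_apply, av_av hs, sub_self] at h1
    exact h1
  have hPu : av s u = 0 := by
    have h1 : avL s (H u + av s u) = avL s (f - av s f) := by rw [hu']
    rw [map_add, avL_apply, avL_apply, avL_apply, hPH, av_av hs, zero_add, hPg] at h1
    exact h1
  have hHu : H u = f - av s f := by
    rw [hPu, add_zero] at hu'
    exact hu'
  obtain ⟨g, hg⟩ : ∃ g : X → ℝ, g = f - av s f := ⟨_, rfl⟩
  rw [← hg] at hHu
  have hc1 : ∑ x, u x * H g x = ∑ x, g x * g x := by
    rw [← hsymm u g, hHu]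
  have hc2 : ∑ x, u x * g x ≤ ∑ x, g x * g x := by
    have h1 := hsq u
    rw [hHu] at h1
    have h2 : ∑ x, g x ^ 2 = ∑ x, g x * g x :=
      Finset.sum_congr rfl (fun x _ => sq (g x))
    rw [h2] at h1
    exact h1
  have hp := hpsd (u - g)
  have hexp : ∑ x, (u - g) x * H (u - g) x
      = ∑ x, u x * g x - ∑ x, u x * H g x - ∑ x, g x * g x + ∑ x, g x * H g x := by
    rw [map_sub, hHu, ← Finset.sum_sub_distrib, ← Finset.sum_sub_distrib,
      ← Finset.sum_add_distrib]
    refine Finset.sum_congr rfl (fun x _ => ?_)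
    simp only [Pi.sub_apply]
    ring
  have hcd : ∑ x, g x * g x ≤ ∑ x, g x * H g x := by
    rw [hexp] at hp
    linarith
  have hHf : H f = H g := by
    have h1 : H g = H f - H (av s f) := by rw [hg, map_sub]
    rw [h1, hav, sub_zero]
  have hfin : ∑ x, f x * H f x = ∑ x, g x * H g x := by
    rw [hHf]
    have hz : ∑ x, av s f x * H g x = 0 := by
      rw [← hsymm (av s f) g, hav]
      simp
    have hpt : ∀ x, f x * H g x = g x * H g x + av s f x * H g x := by
      intro x
      rw [hg]
      simp only [Pi.sub_apply]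
      ring
    rw [Finset.sum_congr rfl (fun x _ => hpt x), Finset.sum_add_distrib, hz, add_zero]
  have hgoal : ∑ x, (f x - av s f x) ^ 2 = ∑ x, g x * g x := by
    refine Finset.sum_congr rfl (fun x _ => ?_)
    rw [hg]
    simp only [Pi.sub_apply]
    ring
  rw [hgoal, hfin]
  exact hcd

end Vale.Agent.Lib.P335.Bip
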