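import Mathlib

/-!
# P335 / bipartite core: the combinatorial identity behind the finite-size criterion:
pairs of 2-subsets of `S` are equal, disjoint, or span exactly one 3-subset
-/

namespace Vale.Agent.Lib.P335.Bip

open Finset

/-- Two different 2-subsets with a common element span a 3-subset. -/
private theorem knabe_union_mem {R : Type*} [DecidableEq R] (S : Finset R) {p q : Finset R}
    (hp : p ∈ S.powersetCard 2) (hq : q ∈ S.powersetCard 2) (hne : ¬ p = q)
    (hnd : ¬ Disjoint p q) : p ∪ q ∈ S.powersetCard 3 := by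
  rw [Finset.mem_powersetCard] at hp hq ⊢
  refine ⟨Finset.union_subset hp.1 hq.1, ?_⟩
  have h1 := Finset.card_union_add_card_inter p q
  rw [hp.2, hq.2] at h1
  have h2 : 1 ≤ (p ∩ q).card := by
    rw [Finset.one_le_card]
    exact Finset.not_disjoint_iff_nonempty_inter.mp hnd
  have h3 : (p ∩ q).card ≤ 1 := by
    by_contra hcon
    push Not at hcon
    have h4 : (p ∩ q).card ≤ p.card := Finset.card_le_card Finset.inter_subset_left
    have h5 : p ∩ q = p := Finset.eq_of_subset_of_card_le Finset.inter_subset_left (by omega)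
    have h6 : p ⊆ q := by
      rw [← h5]
      exact Finset.inter_subset_right
    exact hne (Finset.eq_of_subset_of_card_le h6 (by omega))
  omega

/-- The pairs of different, non-disjoint 2-subsets of `S` with union `t` are the pairs of
different 2-subsets of `t`. -/
private theorem knabe_fiber_iff {R : Type*} [DecidableEq R] (S : Finset R) {t : Finset R}
    (ht : t ∈ S.powersetCard 3) (p q : Finset R) :
    ((((p ∈ S.powersetCard 2 ∧ q ∈ S.powersetCard 2) ∧ ¬ p = q) ∧ ¬ Disjoint p q) ∧
        p ∪ q = t) ↔
      (p ∈ t.powersetCard 2 ∧ q ∈ t.powersetCard 2) ∧ ¬ p = q := by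
  rw [Finset.mem_powersetCard] at ht
  simp only [Finset.mem_powersetCard]
  constructor
  · rintro ⟨⟨⟨⟨hp, hq⟩, hne⟩, _⟩, rfl⟩
    exact ⟨⟨⟨Finset.subset_union_left, hp.2⟩, ⟨Finset.subset_union_right, hq.2⟩⟩, hne⟩
  · rintro ⟨⟨hp, hq⟩, hne⟩
    have hsub : p ∪ q ⊆ t := Finset.union_subset hp.1 hq.1
    have hcard := Finset.card_le_card hsub
    have hnd : ¬ Disjoint p q := by
      intro hd
      have h1 := Finset.card_union_of_disjoint hd
      omega
    have hu : p ∪ q = t := by
      apply Finset.eq_of_subset_of_card_le hsub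
      have h3 : p.card < (p ∪ q).card := by
        apply Finset.card_lt_card
        rw [Finset.ssubset_iff_subset_ne]
        refine ⟨Finset.subset_union_left, fun h => hne ?_⟩
        have h4 : q ⊆ p := by
          have h5 : q ⊆ p ∪ q := Finset.subset_union_right
          rwa [← h] at h5
        exact (Finset.eq_of_subset_of_card_le h4 (by omega)).symm
      omega
    exact ⟨⟨⟨⟨⟨hp.1.trans ht.1, hp.2⟩, ⟨hq.1.trans ht.1, hq.2⟩⟩, hne⟩, hnd⟩, hu⟩

theorem knabe_sum {R : Type*} [DecidableEq R] (S : Finset R) (B : Finset R → Finset R → ℝ)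
    (hdisj : ∀ p ∈ S.powersetCard 2, ∀ q ∈ S.powersetCard 2, Disjoint p q → 0 ≤ B p q)
    (htri : ∀ t ∈ S.powersetCard 3,
      ∑ p ∈ t.powersetCard 2, B p p ≤ ∑ p ∈ t.powersetCard 2, ∑ q ∈ t.powersetCard 2, B p q) :
    ∑ p ∈ S.powersetCard 2, B p p
      ≤ ∑ p ∈ S.powersetCard 2, ∑ q ∈ S.powersetCard 2, B p q := by
  have hsplit1 := Finset.sum_filter_add_sum_filter_not
    (S.powersetCard 2 ×ˢ S.powersetCard 2) (fun x : Finset R × Finset R => x.1 = x.2)
    (fun x => B x.1 x.2)
  have hsplit2 := Finset.sum_filter_add_sum_filter_not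
    ((S.powersetCard 2 ×ˢ S.powersetCard 2).filter (fun x : Finset R × Finset R => ¬ x.1 = x.2))
    (fun x : Finset R × Finset R => Disjoint x.1 x.2) (fun x => B x.1 x.2)
  have hdiag : ∑ x ∈ (S.powersetCard 2 ×ˢ S.powersetCard 2).filter
      (fun x : Finset R × Finset R => x.1 = x.2), B x.1 x.2 =
      ∑ p ∈ S.powersetCard 2, B p p := by
    rw [Finset.sum_filter, Finset.sum_product]
    apply Finset.sum_congr rfl
    intro p hp
    rw [Finset.sum_ite_eq, if_pos hp]
  have hD : 0 ≤ ∑ x ∈ ((S.powersetCard 2 ×ˢ S.powersetCard 2).filter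
      (fun x : Finset R × Finset R => ¬ x.1 = x.2)).filter
      (fun x : Finset R × Finset R => Disjoint x.1 x.2), B x.1 x.2 := by
    apply Finset.sum_nonneg
    intro x hx
    rw [Finset.mem_filter, Finset.mem_filter, Finset.mem_product] at hx
    exact hdisj x.1 hx.1.1.1 x.2 hx.1.1.2 hx.2
  have hF : 0 ≤ ∑ x ∈ ((S.powersetCard 2 ×ˢ S.powersetCard 2).filter
      (fun x : Finset R × Finset R => ¬ x.1 = x.2)).filter
      (fun x : Finset R × Finset R => ¬ Disjoint x.1 x.2), B x.1 x.2 := by
    rw [← Finset.sum_fiberwise_of_maps_to (g := fun x : Finset R × Finset R => x.1 ∪ x.2)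
      (t := S.powersetCard 3)]
    · apply Finset.sum_nonneg
      intro t ht
      have hset : (((S.powersetCard 2 ×ˢ S.powersetCard 2).filter
          (fun x : Finset R × Finset R => ¬ x.1 = x.2)).filter
          (fun x : Finset R × Finset R => ¬ Disjoint x.1 x.2)).filter
          (fun x : Finset R × Finset R => x.1 ∪ x.2 = t) =
          (t.powersetCard 2 ×ˢ t.powersetCard 2).filter
            (fun x : Finset R × Finset R => ¬ x.1 = x.2) := by
        ext x
        simp only [Finset.mem_filter, Finset.mem_product]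
        exact knabe_fiber_iff S ht x.1 x.2
      rw [hset, Finset.sum_filter, Finset.sum_product]
      have h2 : ∀ p ∈ t.powersetCard 2,
          ∑ q ∈ t.powersetCard 2, (if ¬ p = q then B p q else 0) =
            ∑ q ∈ t.powersetCard 2, B p q - B p p := by
        intro p hp
        have h3 : ∀ q, (if ¬ p = q then B p q else 0) =
            B p q - (if p = q then B p q else 0) := by
          intro q
          by_cases h : p = q
          · rw [if_neg (not_not.mpr h), if_pos h, sub_self]
          · rw [if_pos h, if_neg h, sub_zero]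
        simp only [h3, Finset.sum_sub_distrib, Finset.sum_ite_eq, hp, if_true]
      rw [Finset.sum_congr rfl h2, Finset.sum_sub_distrib]
      have := htri t ht
      linarith
    · intro x hx
      rw [Finset.mem_filter, Finset.mem_filter, Finset.mem_product] at hx
      exact knabe_union_mem S hx.1.1.1 hx.1.1.2 hx.1.2 hx.2
  rw [← Finset.sum_product' (S.powersetCard 2) (S.powersetCard 2) B, ← hsplit1, ← hsplit2, hdiag]
  linarith

end Vale.Agent.Lib.P335.Bip
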