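import Vale.Agent.Lib.P335.Bip.Av

/-!
# P335 / bipartite core: a many-body inequality gives `⟨f, H f⟩ ≤ ‖H f‖²` for the local
operator `H f = ∑ i, (f - av (r i) f)`
-/

namespace Vale.Agent.Lib.P335.Bip

open Finset
open scoped Classical

variable {X : Type*} [Fintype X]

theorem triple_gap {ι : Type*} (I : Finset ι) (r : ι → X → X → Prop) (s : X → X → Prop)
    (hr : ∀ i ∈ I, Equivalence (r i)) (hs : Equivalence s)
    (hfine : ∀ i ∈ I, ∀ x y, r i x y → s x y)
    (hthree : ∀ g : X → ℝ, ∑ i ∈ I, ∑ x, g x * av (r i) g x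
      ≤ ((I.card : ℝ) - 1) * ∑ x, g x ^ 2 + ∑ x, g x * av s g x)
    (f : X → ℝ) :
    ∑ i ∈ I, ∑ x, (f x - av (r i) f x) ^ 2 ≤ ∑ x, (∑ i ∈ I, (f x - av (r i) f x)) ^ 2 := by
  set g : X → ℝ := fun x => f x - av s f x with hg
  have hinv : ∀ i ∈ I, av (r i) (av s f) = av s f := by
    intro i hi
    exact av_of_invariant (hr i hi) (fun x y h => av_congr_of_rel hs f (hfine i hi x y h))
  have havg : ∀ i ∈ I, ∀ x, av (r i) g x = av (r i) f x - av s f x := by
    intro i hi x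
    have h2 : av (r i) g = fun x => av (r i) f x - av (r i) (av s f) x :=
      av_sub (r i) f (av s f)
    rw [h2, hinv i hi]
  have hdiff : ∀ i ∈ I, ∀ x, f x - av (r i) f x = g x - av (r i) g x := by
    intro i hi x
    rw [havg i hi x]
    show f x - av (r i) f x = (f x - av s f x) - (av (r i) f x - av s f x)
    ring
  have hsg : ∀ x, av s g x = 0 := by
    intro x
    have h1 : av s g = fun x => av s f x - av s (av s f) x := av_sub s f (av s f)
    rw [h1, av_av hs f]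
    exact sub_self _
  set G : ℝ := ∑ x, g x ^ 2 with hG
  set h : X → ℝ := fun x => ∑ i ∈ I, (g x - av (r i) g x) with hh
  have hL : ∑ i ∈ I, ∑ x, (f x - av (r i) f x) ^ 2 =
      (I.card : ℝ) * G - ∑ i ∈ I, ∑ x, g x * av (r i) g x := by
    have h1 : ∑ i ∈ I, ∑ x, (f x - av (r i) f x) ^ 2 =
        ∑ i ∈ I, (G - ∑ x, g x * av (r i) g x) := by
      refine Finset.sum_congr rfl (fun i hi => ?_)
      rw [hG, ← sum_sub_av_sq (hr i hi) g]
      refine Finset.sum_congr rfl (fun x _ => ?_)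
      rw [hdiff i hi x]
    rw [h1, Finset.sum_sub_distrib, Finset.sum_const, nsmul_eq_mul]
  have hR : ∑ x, (∑ i ∈ I, (f x - av (r i) f x)) ^ 2 = ∑ x, h x ^ 2 := by
    refine Finset.sum_congr rfl (fun x _ => ?_)
    congr 1
    exact Finset.sum_congr rfl (fun i hi => hdiff i hi x)
  have hgh : ∑ x, g x * h x = (I.card : ℝ) * G - ∑ i ∈ I, ∑ x, g x * av (r i) g x := by
    have h1 : ∑ x, g x * h x = ∑ i ∈ I, ∑ x, (g x ^ 2 - g x * av (r i) g x) := by
      rw [Finset.sum_comm]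
      refine Finset.sum_congr rfl (fun x _ => ?_)
      show g x * (∑ i ∈ I, (g x - av (r i) g x)) = _
      rw [Finset.mul_sum]
      refine Finset.sum_congr rfl (fun i _ => ?_)
      ring
    rw [h1]
    simp only [Finset.sum_sub_distrib]
    rw [Finset.sum_const, nsmul_eq_mul]
  have h3 := hthree g
  have hzero : ∑ x, g x * av s g x = 0 := by
    refine Finset.sum_eq_zero (fun x _ => ?_)
    rw [hsg x, mul_zero]
  rw [hzero, add_zero] at h3
  have hG0 : 0 ≤ G := Finset.sum_nonneg (fun x _ => sq_nonneg _)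
  have hH0 : 0 ≤ ∑ x, h x ^ 2 := Finset.sum_nonneg (fun x _ => sq_nonneg _)
  have hCS : (∑ x, g x * h x) ^ 2 ≤ G * ∑ x, h x ^ 2 :=
    Finset.sum_mul_sq_le_sq_mul_sq univ g h
  have hGS : G ≤ ∑ x, g x * h x := by
    rw [hgh]
    linarith
  rw [hL, ← hgh, hR]
  have hS0 : 0 ≤ ∑ x, g x * h x := le_trans hG0 hGS
  rcases hS0.eq_or_lt with h0 | hpos
  · rw [← h0]
    exact hH0
  · have hmul : (∑ x, g x * h x) * (∑ x, g x * h x) ≤ (∑ x, g x * h x) * ∑ x, h x ^ 2 := by
      calc (∑ x, g x * h x) * (∑ x, g x * h x) = (∑ x, g x * h x) ^ 2 := by ring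
        _ ≤ G * ∑ x, h x ^ 2 := hCS
        _ ≤ (∑ x, g x * h x) * ∑ x, h x ^ 2 := mul_le_mul_of_nonneg_right hGS hH0
    exact le_of_mul_le_mul_left hmul hpos

end Vale.Agent.Lib.P335.Bip
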