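import Vale.Agent.Lib.P335.Bip.Av

/-!
# P335 / bipartite core: class averages of two equivalence relations with the rectangle
property commute
-/

namespace Vale.Agent.Lib.P335.Bip

open Finset
open scoped Classical

variable {X : Type*} [Fintype X]

/-- Some element of the `s`-class of `y` and the `r`-class of `z` (if there is one). -/
private noncomputable def rectW (r s : X → X → Prop) (y z : X) : X :=
  if hh : ∃ w, s y w ∧ r z w then hh.choose else y

private lemma rectW_spec {r s : X → X → Prop}
    (h : ∀ x y z, r x y → s x z → ∃! w, s y w ∧ r z w) {x y z : X} (hxy : r x y)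
    (hxz : s x z) : s y (rectW r s y z) ∧ r z (rectW r s y z) := by
  have hh : ∃ w, s y w ∧ r z w := (h x y z hxy hxz).exists
  unfold rectW
  rw [dif_pos hh]
  exact hh.choose_spec

private lemma rectW_unique {r s : X → X → Prop}
    (h : ∀ x y z, r x y → s x z → ∃! w, s y w ∧ r z w) {x y z : X} (hxy : r x y)
    (hxz : s x z) {w : X} (hw : s y w ∧ r z w) : rectW r s y z = w :=
  (h x y z hxy hxz).unique (rectW_spec h hxy hxz) hw

/-- For `y` in the `r`-class of `x`, the map `z ↦ rectW r s y z` is a bijection from the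
`s`-class of `x` onto the `s`-class of `y`. -/
private lemma sum_class_eq {r s : X → X → Prop} (hr : Equivalence r)
    (h : ∀ x y z, r x y → s x z → ∃! w, s y w ∧ r z w) {x y : X} (hxy : r x y)
    (g : X → ℝ) :
    ∑ w ∈ univ.filter (fun w => s y w), g w =
      ∑ z ∈ univ.filter (fun z => s x z), g (rectW r s y z) := by
  symm
  apply Finset.sum_nbij' (fun z => rectW r s y z) (fun w => rectW r s x w)
  · intro z hz
    rw [mem_filter] at hz ⊢
    exact ⟨mem_univ _, (rectW_spec h hxy hz.2).1⟩
  · intro w hw
    rw [mem_filter] at hw ⊢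
    exact ⟨mem_univ _, (rectW_spec h (hr.symm hxy) hw.2).1⟩
  · intro z hz
    rw [mem_filter] at hz
    have h1 := rectW_spec h hxy hz.2
    exact rectW_unique h (hr.symm hxy) h1.1 ⟨hz.2, hr.symm h1.2⟩
  · intro w hw
    rw [mem_filter] at hw
    have h1 := rectW_spec h (hr.symm hxy) hw.2
    exact rectW_unique h hxy h1.1 ⟨hw.2, hr.symm h1.2⟩
  · intro z _
    rfl

private lemma card_class_eq {r s : X → X → Prop} (hr : Equivalence r)
    (h : ∀ x y z, r x y → s x z → ∃! w, s y w ∧ r z w) {x y : X} (hxy : r x y) :
    ((univ.filter (fun w => s y w)).card : ℝ) = ((univ.filter (fun z => s x z)).card : ℝ) := by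
  have e := sum_class_eq hr h hxy (fun _ => (1 : ℝ))
  simpa using e

/-- Rectangle property: for `y` in the `r`-class and `z` in the `s`-class of `x` there is exactly
one `w` in the `s`-class of `y` and the `r`-class of `z`.  Then the two averages commute. -/
theorem av_comm_of_rect {r s : X → X → Prop} (hr : Equivalence r) (hs : Equivalence s)
    (h : ∀ x y z, r x y → s x z → ∃! w, s y w ∧ r z w) (f : X → ℝ) :
    av r (av s f) = av s (av r f) := by
  have h' : ∀ x z y, s x z → r x y → ∃! w, r z w ∧ s y w := by
    intro x z y hxz hxy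
    obtain ⟨w, hw, huniq⟩ := h x y z hxy hxz
    exact ⟨w, ⟨hw.2, hw.1⟩, fun w' hw' => huniq w' ⟨hw'.2, hw'.1⟩⟩
  funext x
  have hL : ∀ y ∈ univ.filter (fun y => r x y), av s f y =
      (∑ z ∈ univ.filter (fun z => s x z), f (rectW r s y z)) /
        ((univ.filter (fun z => s x z)).card : ℝ) := by
    intro y hy
    rw [mem_filter] at hy
    show (∑ w ∈ univ.filter (fun w => s y w), f w) / ((univ.filter (fun w => s y w)).card : ℝ)
      = _
    rw [sum_class_eq hr h hy.2 f, card_class_eq hr h hy.2]
  have hR : ∀ z ∈ univ.filter (fun z => s x z), av r f z =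
      (∑ y ∈ univ.filter (fun y => r x y), f (rectW r s y z)) /
        ((univ.filter (fun y => r x y)).card : ℝ) := by
    intro z hz
    rw [mem_filter] at hz
    show (∑ w ∈ univ.filter (fun w => r z w), f w) / ((univ.filter (fun w => r z w)).card : ℝ)
      = _
    rw [sum_class_eq hs h' hz.2 f, card_class_eq hs h' hz.2]
    congr 1
    apply Finset.sum_congr rfl
    intro y hy
    rw [mem_filter] at hy
    have hsp := rectW_spec h' hz.2 hy.2
    rw [rectW_unique h hy.2 hz.2 ⟨hsp.2, hsp.1⟩]
  show (∑ y ∈ univ.filter (fun y => r x y), av s f y) /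
      ((univ.filter (fun y => r x y)).card : ℝ) =
    (∑ z ∈ univ.filter (fun z => s x z), av r f z) / ((univ.filter (fun z => s x z)).card : ℝ)
  rw [Finset.sum_congr rfl hL, Finset.sum_congr rfl hR, ← Finset.sum_div, ← Finset.sum_div,
    Finset.sum_comm, div_div, div_div, mul_comm]

end Vale.Agent.Lib.P335.Bip
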