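import Mathlib

/-!
# P335 / bipartite core: the two-element subsets of a three-element set
-/

namespace Vale.Agent.Lib.P335.Bip.Three

open Finset

/-- The two-element subsets of a three-element set `t` are the sets `t.erase u`, `u ∈ t`. -/
theorem sum_powersetCard_two {α : Type*} [DecidableEq α] (t : Finset α) (ht : t.card = 3)
    (F : Finset α → ℝ) : ∑ p ∈ t.powersetCard 2, F p = ∑ u ∈ t, F (t.erase u) := by
  symm
  refine Finset.sum_bij (fun u _ => t.erase u) ?_ ?_ ?_ ?_
  · intro u hu
    rw [Finset.mem_powersetCard]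
    refine ⟨Finset.erase_subset u t, ?_⟩
    rw [Finset.card_erase_of_mem hu, ht]
  · intro u hu v hv huv
    by_contra hne
    have h1 : v ∈ t.erase u := Finset.mem_erase.mpr ⟨fun h => hne h.symm, hv⟩
    have h2 : v ∈ t.erase v := by
      have h3 : t.erase u = t.erase v := huv
      rw [h3] at h1
      exact h1
    exact (Finset.notMem_erase v t) h2
  · intro p hp
    rw [Finset.mem_powersetCard] at hp
    obtain ⟨hpt, hpc⟩ := hp
    have hcard : (t \ p).card = 1 := by
      rw [Finset.card_sdiff_of_subset hpt, ht, hpc]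
    obtain ⟨u, hu⟩ := Finset.card_eq_one.mp hcard
    have hut : u ∈ t \ p := by
      rw [hu]
      exact Finset.mem_singleton_self u
    refine ⟨u, (Finset.mem_sdiff.mp hut).1, ?_⟩
    ext a
    rw [Finset.mem_erase]
    constructor
    · rintro ⟨hau, hat⟩
      by_contra hap
      have h1 : a ∈ t \ p := Finset.mem_sdiff.mpr ⟨hat, hap⟩
      rw [hu, Finset.mem_singleton] at h1
      exact hau h1
    · intro hap
      refine ⟨?_, hpt hap⟩
      intro hau
      rw [hau] at hap
      exact (Finset.mem_sdiff.mp hut).2 hap
  · intro u hu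
    rfl

end Vale.Agent.Lib.P335.Bip.Three
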