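import Mathlib

/-!
# P335 / bipartite core: averaging over the classes of an equivalence relation

Abstract layer.  `X` is a finite type, `r : X → X → Prop` a relation (an equivalence in all
the main statements), `rcls r x` the class of `x` and `ravg r f` the function whose value at
`x` is the average of `f` over the class of `x`.  The inner product is `∑ x, a x * b x`.
-/

namespace Vale.Agent.Lib.P335.Bip

open Finset
open scoped Classical

variable {X : Type*} [Fintype X]

/-- The class of `x` for the relation `r`. -/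
noncomputable def rcls (r : X → X → Prop) (x : X) : Finset X :=
  univ.filter (fun y => r x y)

/-- Average of `f` over the `r`-class of `x`. -/
noncomputable def ravg (r : X → X → Prop) (f : X → ℝ) : X → ℝ :=
  fun x => (∑ y ∈ rcls r x, f y) / ((rcls r x).card : ℝ)

theorem mem_rcls {r : X → X → Prop} {x y : X} : y ∈ rcls r x ↔ r x y := by
  simp [rcls]

theorem rcls_eq_of_rel {r : X → X → Prop} (hr : Equivalence r) {x y : X} (h : r x y) :
    rcls r y = rcls r x := by
  ext z
  rw [mem_rcls, mem_rcls]
  exact ⟨fun hz => hr.trans h hz, fun hz => hr.trans (hr.symm h) hz⟩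

theorem self_mem_rcls {r : X → X → Prop} (hr : Equivalence r) (x : X) : x ∈ rcls r x :=
  mem_rcls.2 (hr.refl x)

theorem rcls_card_pos {r : X → X → Prop} (hr : Equivalence r) (x : X) :
    0 < (rcls r x).card :=
  Finset.card_pos.2 ⟨x, self_mem_rcls hr x⟩

theorem rcls_card_ne_zero {r : X → X → Prop} (hr : Equivalence r) (x : X) :
    ((rcls r x).card : ℝ) ≠ 0 := by
  have := rcls_card_pos hr x
  positivity

/-- The average is constant on classes. -/
theorem ravg_congr {r : X → X → Prop} (hr : Equivalence r) (f : X → ℝ) {x y : X}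
    (h : r x y) : ravg r f y = ravg r f x := by
  unfold ravg
  rw [rcls_eq_of_rel hr h]

theorem ravg_invariant {r : X → X → Prop} (hr : Equivalence r) (f : X → ℝ) :
    ∀ x y, r x y → ravg r f x = ravg r f y :=
  fun _ _ h => (ravg_congr hr f h).symm

/-! ### Linearity -/

theorem ravg_add (r : X → X → Prop) (f g : X → ℝ) :
    ravg r (f + g) = ravg r f + ravg r g := by
  funext x
  simp only [ravg, Pi.add_apply, Finset.sum_add_distrib, add_div]

theorem ravg_smul (r : X → X → Prop) (c : ℝ) (f : X → ℝ) :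
    ravg r (c • f) = c • ravg r f := by
  funext x
  simp only [ravg, Pi.smul_apply, smul_eq_mul, ← Finset.mul_sum, mul_div_assoc]

theorem ravg_const_mul (r : X → X → Prop) (c : ℝ) (f : X → ℝ) :
    ravg r (fun x => c * f x) = fun x => c * ravg r f x :=
  ravg_smul r c f

theorem ravg_zero (r : X → X → Prop) : ravg r (0 : X → ℝ) = 0 := by
  funext x
  simp [ravg]

theorem ravg_neg (r : X → X → Prop) (f : X → ℝ) : ravg r (-f) = -ravg r f := by
  funext x
  simp only [ravg, Pi.neg_apply, Finset.sum_neg_distrib, neg_div]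

theorem ravg_sub (r : X → X → Prop) (f g : X → ℝ) :
    ravg r (f - g) = ravg r f - ravg r g := by
  funext x
  simp only [ravg, Pi.sub_apply, Finset.sum_sub_distrib, sub_div]

/-- The averaging operator as a linear map. -/
noncomputable def ravgLin (r : X → X → Prop) : (X → ℝ) →ₗ[ℝ] (X → ℝ) where
  toFun := ravg r
  map_add' := ravg_add r
  map_smul' := fun c f => by simpa using ravg_smul r c f

@[simp] theorem ravgLin_apply (r : X → X → Prop) (f : X → ℝ) : ravgLin r f = ravg r f := rfl

theorem ravg_finset_sum (r : X → X → Prop) {ι : Type*} (s : Finset ι) (F : ι → X → ℝ) :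
    ravg r (∑ i ∈ s, F i) = ∑ i ∈ s, ravg r (F i) := by
  have := map_sum (ravgLin r) F s
  simp only [ravgLin_apply] at this
  exact this

/-! ### Invariant functions -/

/-- A function that is constant on classes is fixed by the average. -/
theorem ravg_of_invariant {r : X → X → Prop} (hr : Equivalence r) {g : X → ℝ}
    (hg : ∀ x y, r x y → g x = g y) : ravg r g = g := by
  funext x
  unfold ravg
  have h1 : ∑ y ∈ rcls r x, g y = ((rcls r x).card : ℝ) * g x := by
    rw [Finset.sum_congr rfl (fun y hy => (hg x y (mem_rcls.1 hy)).symm)]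
    simp
  rw [h1, mul_div_cancel_left₀ _ (rcls_card_ne_zero hr x)]

/-- A class-invariant factor can be pulled out of the average. -/
theorem ravg_mul_of_invariant {r : X → X → Prop} (_hr : Equivalence r) {g : X → ℝ}
    (hg : ∀ x y, r x y → g x = g y) (f : X → ℝ) :
    ravg r (fun x => g x * f x) = fun x => g x * ravg r f x := by
  funext x
  unfold ravg
  have h1 : ∑ y ∈ rcls r x, g y * f y = ∑ y ∈ rcls r x, g x * f y :=
    Finset.sum_congr rfl (fun y hy => by rw [hg x y (mem_rcls.1 hy)])
  rw [h1, ← Finset.mul_sum, mul_div_assoc]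

theorem ravg_idem {r : X → X → Prop} (hr : Equivalence r) (f : X → ℝ) :
    ravg r (ravg r f) = ravg r f :=
  ravg_of_invariant hr (ravg_invariant hr f)

theorem ravg_eq_self_iff {r : X → X → Prop} (hr : Equivalence r) (f : X → ℝ) :
    ravg r f = f ↔ ∀ x y, r x y → f x = f y := by
  constructor
  · intro h x y hxy
    rw [← h]
    exact ravg_invariant hr f x y hxy
  · exact fun h => ravg_of_invariant hr h

/-! ### Symmetry and preservation of sums -/

theorem ravg_symm {r : X → X → Prop} (hr : Equivalence r) (f g : X → ℝ) :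
    ∑ x, ravg r f x * g x = ∑ x, f x * ravg r g x := by
  have key : ∀ (f g : X → ℝ), ∑ x, ravg r f x * g x
      = ∑ x, ∑ y, if r x y then f y * g x / ((rcls r x).card : ℝ) else 0 := by
    intro f g
    refine Finset.sum_congr rfl (fun x _ => ?_)
    unfold ravg
    rw [← Finset.sum_filter, div_mul_eq_mul_div, Finset.sum_mul, Finset.sum_div]
    rfl
  have key2 : ∑ x, f x * ravg r g x = ∑ x, ravg r g x * f x :=
    Finset.sum_congr rfl (fun x _ => mul_comm _ _)
  rw [key, key2, key, Finset.sum_comm]
  refine Finset.sum_congr rfl (fun y _ => Finset.sum_congr rfl (fun x _ => ?_))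
  by_cases h : r x y
  · have h' : r y x := hr.symm h
    rw [if_pos h, if_pos h', rcls_eq_of_rel hr h, mul_comm]
  · have h' : ¬ r y x := fun h' => h (hr.symm h')
    rw [if_neg h, if_neg h']

theorem sum_ravg {r : X → X → Prop} (hr : Equivalence r) (f : X → ℝ) :
    ∑ x, ravg r f x = ∑ x, f x := by
  have h1 : ravg r (fun _ => (1 : ℝ)) = fun _ => (1 : ℝ) :=
    ravg_of_invariant hr (fun _ _ _ => rfl)
  have := ravg_symm hr f (fun _ => (1 : ℝ))
  rw [h1] at this
  simpa using this

/-- Averaging preserves sums over a class-invariant set. -/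
theorem sum_filter_ravg {r : X → X → Prop} (hr : Equivalence r) (P : X → Prop)
    (hP : ∀ x y, r x y → (P x ↔ P y)) (f : X → ℝ) :
    ∑ x ∈ univ.filter P, ravg r f x = ∑ x ∈ univ.filter P, f x := by
  have h1 : ravg r (fun x => if P x then (1 : ℝ) else 0) = fun x => if P x then (1 : ℝ) else 0 :=
    ravg_of_invariant hr (fun x y h => by simp only [hP x y h])
  have := ravg_symm hr f (fun x => if P x then (1 : ℝ) else 0)
  rw [h1] at this
  simpa [Finset.sum_filter] using this

/-- Averaging preserves sums over a class. -/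
theorem sum_rcls_ravg {r s : X → X → Prop} (hr : Equivalence r) (hs : Equivalence s)
    (h : ∀ x y, r x y → s x y) (f : X → ℝ) (x : X) :
    ∑ y ∈ rcls s x, ravg r f y = ∑ y ∈ rcls s x, f y := by
  have := sum_filter_ravg hr (fun y => s x y)
    (fun y z hyz => ⟨fun hy => hs.trans hy (h y z hyz), fun hz => hs.trans hz (hs.symm (h y z hyz))⟩) f
  exact this

/-! ### Towers -/

theorem ravg_ravg_of_le {r s : X → X → Prop} (hr : Equivalence r) (hs : Equivalence s)
    (h : ∀ x y, r x y → s x y) (f : X → ℝ) : ravg r (ravg s f) = ravg s f :=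
  ravg_of_invariant hr (fun x y hxy => ravg_invariant hs f x y (h x y hxy))

theorem ravg_ravg_of_le' {r s : X → X → Prop} (hr : Equivalence r) (hs : Equivalence s)
    (h : ∀ x y, r x y → s x y) (f : X → ℝ) : ravg s (ravg r f) = ravg s f := by
  funext x
  have h1 := sum_rcls_ravg hr hs h f x
  show (∑ y ∈ rcls s x, ravg r f y) / ((rcls s x).card : ℝ) = _
  rw [h1]
  rfl

/-! ### Jensen and norms -/

theorem ravg_sq_le {r : X → X → Prop} (hr : Equivalence r) (f : X → ℝ) (x : X) :
    (ravg r f x) ^ 2 ≤ ravg r (fun y => f y ^ 2) x := by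
  unfold ravg
  have hc : (0 : ℝ) < ((rcls r x).card : ℝ) := by exact_mod_cast rcls_card_pos hr x
  have h1 := sq_sum_le_card_mul_sum_sq (s := rcls r x) (f := f)
  rw [div_pow, div_le_div_iff₀ (by positivity) hc]
  nlinarith [h1]

theorem sum_mul_ravg_self {r : X → X → Prop} (hr : Equivalence r) (f : X → ℝ) :
    ∑ x, f x * ravg r f x = ∑ x, (ravg r f x) ^ 2 := by
  have h := ravg_symm hr f (ravg r f)
  rw [ravg_idem hr f] at h
  rw [← h]
  exact Finset.sum_congr rfl (fun x _ => by ring)

theorem sum_mul_sub_ravg {r : X → X → Prop} (hr : Equivalence r) (f : X → ℝ) :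
    ∑ x, f x * (f x - ravg r f x) = ∑ x, (f x - ravg r f x) ^ 2 := by
  have h := sum_mul_ravg_self hr f
  have e1 : ∑ x, f x * (f x - ravg r f x) = ∑ x, f x ^ 2 - ∑ x, f x * ravg r f x := by
    rw [← Finset.sum_sub_distrib]
    exact Finset.sum_congr rfl (fun x _ => by ring)
  have e2 : ∑ x, (f x - ravg r f x) ^ 2
      = ∑ x, f x ^ 2 - 2 * ∑ x, f x * ravg r f x + ∑ x, (ravg r f x) ^ 2 := by
    rw [Finset.mul_sum, ← Finset.sum_sub_distrib, ← Finset.sum_add_distrib]
    exact Finset.sum_congr rfl (fun x _ => by ring)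
  rw [e1, e2, ← h]
  ring

theorem sum_ravg_sq_le {r : X → X → Prop} (hr : Equivalence r) (f : X → ℝ) :
    ∑ x, (ravg r f x) ^ 2 ≤ ∑ x, f x ^ 2 := by
  have h1 := sum_mul_sub_ravg hr f
  have h2 := sum_mul_ravg_self hr f
  have h3 : 0 ≤ ∑ x, (f x - ravg r f x) ^ 2 := Finset.sum_nonneg (fun x _ => sq_nonneg _)
  have e1 : ∑ x, f x * (f x - ravg r f x) = ∑ x, f x ^ 2 - ∑ x, f x * ravg r f x := by
    rw [← Finset.sum_sub_distrib]
    exact Finset.sum_congr rfl (fun x _ => by ring)
  linarith

/-- If `f` is fixed by no strict amount: the defect vanishes exactly for invariant `f`. -/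
theorem invariant_of_sum_sq_sub_ravg_eq_zero {r : X → X → Prop} (hr : Equivalence r)
    (f : X → ℝ) (h : ∑ x, (f x - ravg r f x) ^ 2 = 0) : ∀ x y, r x y → f x = f y := by
  have h0 : ∀ x ∈ (univ : Finset X), (f x - ravg r f x) ^ 2 = 0 :=
    (Finset.sum_eq_zero_iff_of_nonneg (fun x _ => sq_nonneg _)).1 h
  have h1 : ravg r f = f := by
    funext x
    have := h0 x (mem_univ x)
    have h2 : f x - ravg r f x = 0 := by simpa using this
    linarith
  exact (ravg_eq_self_iff hr f).1 h1

/-! ### Transport along a bijection -/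

theorem ravg_comp_of_bijective (r : X → X → Prop) (τ : X → X) (hτ : Function.Bijective τ)
    (h : ∀ x y, r x y ↔ r (τ x) (τ y)) (f : X → ℝ) (x : X) :
    ravg r (fun y => f (τ y)) x = ravg r f (τ x) := by
  have hsum : ∀ g : X → ℝ, ∑ y ∈ rcls r x, g (τ y) = ∑ w ∈ rcls r (τ x), g w := by
    intro g
    refine Finset.sum_bij (fun y _ => τ y) ?_ ?_ ?_ ?_
    · intro y hy
      exact mem_rcls.2 ((h x y).1 (mem_rcls.1 hy))
    · intro a _ b _ hab
      exact hτ.1 hab
    · intro w hw
      obtain ⟨y, rfl⟩ := hτ.2 w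
      exact ⟨y, mem_rcls.2 ((h x y).2 (mem_rcls.1 hw)), rfl⟩
    · intro y _
      rfl
  have hcard : ((rcls r x).card : ℝ) = ((rcls r (τ x)).card : ℝ) := by
    have := hsum (fun _ => (1 : ℝ))
    simpa using this
  unfold ravg
  rw [hsum f, hcard]

theorem ravg_comp_of_involutive (r : X → X → Prop) (τ : X → X) (hτ : Function.Involutive τ)
    (h : ∀ x y, r x y → r (τ x) (τ y)) (f : X → ℝ) (x : X) :
    ravg r (fun y => f (τ y)) x = ravg r f (τ x) := by
  refine ravg_comp_of_bijective r τ hτ.bijective (fun a b => ⟨h a b, fun hab => ?_⟩) f x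
  have := h _ _ hab
  rwa [hτ a, hτ b] at this

/-! ### The rectangle lemma -/

omit [Fintype X] in
/-- Under the rectangle property two points related by both relations coincide. -/
theorem rectangle_diag {r s : X → X → Prop} (hr : Equivalence r)
    (hs : Equivalence s) (h : ∀ x y z, r x y → s x z → ∃! w, s y w ∧ r z w)
    {a b : X} (hab : r a b) (hab' : s a b) : a = b := by
  obtain ⟨v, _, hv⟩ := h a b a hab (hs.refl a)
  have h1 : b = v := hv b ⟨hs.refl b, hab⟩
  have h2 : a = v := hv a ⟨hs.symm hab', hr.refl a⟩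
  rw [h1, h2]

/-- Rectangle property: the average over `s` of an `r`-invariant function is `r`-invariant. -/
theorem ravg_invariant_of_rectangle {r s : X → X → Prop} (hr : Equivalence r)
    (hs : Equivalence s) (h : ∀ x y z, r x y → s x z → ∃! w, s y w ∧ r z w)
    {g : X → ℝ} (hg : ∀ x y, r x y → g x = g y) :
    ∀ x y, r x y → ravg s g x = ravg s g y := by
  intro x y hxy
  have hsum : ∀ k : X → ℝ, (∀ a b, r a b → k a = k b) →
      ∑ z ∈ rcls s x, k z = ∑ w ∈ rcls s y, k w := by
    intro k hk
    refine Finset.sum_bij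
      (fun z hz => Classical.choose (h x y z hxy (mem_rcls.1 hz)).exists) ?_ ?_ ?_ ?_
    · intro z hz
      exact mem_rcls.2 (Classical.choose_spec (h x y z hxy (mem_rcls.1 hz)).exists).1
    · intro z1 hz1 z2 hz2 he
      have e1 := (Classical.choose_spec (h x y z1 hxy (mem_rcls.1 hz1)).exists).2
      have e2 := (Classical.choose_spec (h x y z2 hxy (mem_rcls.1 hz2)).exists).2
      rw [he] at e1
      have h12 : r z1 z2 := hr.trans e1 (hr.symm e2)
      have h12' : s z1 z2 := hs.trans (hs.symm (mem_rcls.1 hz1)) (mem_rcls.1 hz2)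
      exact rectangle_diag hr hs h h12 h12'
    · intro w hw
      obtain ⟨z, ⟨hz1, hz2⟩, _⟩ := h y x w (hr.symm hxy) (mem_rcls.1 hw)
      refine ⟨z, mem_rcls.2 hz1, ?_⟩
      have hu := (h x y z hxy hz1)
      have hc := Classical.choose_spec hu.exists
      exact hu.unique hc ⟨mem_rcls.1 hw, hr.symm hz2⟩
    · intro z hz
      exact hk _ _ (Classical.choose_spec (h x y z hxy (mem_rcls.1 hz)).exists).2
  have hcard : ((rcls s x).card : ℝ) = ((rcls s y).card : ℝ) := by
    have := hsum (fun _ => (1 : ℝ)) (fun _ _ _ => rfl)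
    simpa using this
  unfold ravg
  rw [hsum g hg, hcard]

/-- RECTANGLE LEMMA: two equivalences with the rectangle property have commuting averages. -/
theorem ravg_comm_of_rectangle {r s : X → X → Prop} (hr : Equivalence r) (hs : Equivalence s)
    (h : ∀ x y z, r x y → s x z → ∃! w, s y w ∧ r z w) (f : X → ℝ) :
    ravg r (ravg s f) = ravg s (ravg r f) := by
  have h' : ∀ x z y, s x z → r x y → ∃! w, r z w ∧ s y w := by
    intro x z y hxz hxy
    obtain ⟨w, hw, hu⟩ := h x y z hxy hxz
    exact ⟨w, ⟨hw.2, hw.1⟩, fun v hv => hu v ⟨hv.2, hv.1⟩⟩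
  -- both composites are invariant under both relations
  have i1 : ∀ x y, r x y → ravg r (ravg s f) x = ravg r (ravg s f) y := ravg_invariant hr _
  have i2 : ∀ x y, s x y → ravg r (ravg s f) x = ravg r (ravg s f) y :=
    ravg_invariant_of_rectangle hs hr h' (ravg_invariant hs f)
  have i3 : ∀ x y, s x y → ravg s (ravg r f) x = ravg s (ravg r f) y := ravg_invariant hs _
  have i4 : ∀ x y, r x y → ravg s (ravg r f) x = ravg s (ravg r f) y :=
    ravg_invariant_of_rectangle hr hs h (ravg_invariant hr f)
  set u : X → ℝ := fun x => ravg r (ravg s f) x - ravg s (ravg r f) x with hu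
  have ur : ravg r u = u :=
    ravg_of_invariant hr (fun x y hxy => by simp only [hu, i1 x y hxy, i4 x y hxy])
  have us : ravg s u = u :=
    ravg_of_invariant hs (fun x y hxy => by simp only [hu, i2 x y hxy, i3 x y hxy])
  have e1 : ∑ x, u x * ravg r (ravg s f) x = ∑ x, u x * f x := by
    rw [← ravg_symm hr u (ravg s f), ur, ← ravg_symm hs u f, us]
  have e2 : ∑ x, u x * ravg s (ravg r f) x = ∑ x, u x * f x := by
    rw [← ravg_symm hs u (ravg r f), us, ← ravg_symm hr u f, ur]
  have e3 : ∑ x, u x * u x = 0 := by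
    have : ∑ x, u x * u x
        = ∑ x, u x * ravg r (ravg s f) x - ∑ x, u x * ravg s (ravg r f) x := by
      rw [← Finset.sum_sub_distrib]
      exact Finset.sum_congr rfl (fun x _ => by simp only [hu]; ring)
    rw [this, e1, e2, sub_self]
  have e4 : ∀ x ∈ (univ : Finset X), u x * u x = 0 :=
    (Finset.sum_eq_zero_iff_of_nonneg (fun x _ => mul_self_nonneg _)).1 e3
  funext x
  have := e4 x (mem_univ x)
  have h0 : u x = 0 := by simpa using this
  simp only [hu] at h0
  linarith

/-- Commuting averages: the complementary projections have nonnegative inner product. -/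
theorem sum_sub_ravg_mul_sub_ravg_nonneg {r s : X → X → Prop} (hr : Equivalence r)
    (hs : Equivalence s) (hc : ∀ f : X → ℝ, ravg r (ravg s f) = ravg s (ravg r f))
    (f : X → ℝ) : 0 ≤ ∑ x, (f x - ravg r f x) * (f x - ravg s f x) := by
  set b : X → ℝ := f - ravg s f with hb
  set c : X → ℝ := b - ravg r b with hcdef
  -- `ravg s b = 0` and `ravg r c = 0`
  have sb : ravg s b = 0 := by
    rw [hb, ravg_sub, ravg_idem hs, sub_self]
  have rc : ravg r c = 0 := by
    rw [hcdef, ravg_sub, ravg_idem hr, sub_self]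
  -- `∑ ravg s f * b = 0`
  have z1 : ∑ x, ravg s f x * b x = 0 := by
    rw [ravg_symm hs f b, sb]
    simp
  -- `∑ ravg r (ravg s f) * b = 0`
  have z2 : ∑ x, ravg r (ravg s f) x * b x = 0 := by
    rw [hc f, ravg_symm hs (ravg r f) b, sb]
    simp
  -- `∑ c * ravg r b = 0`
  have z3 : ∑ x, c x * ravg r b x = 0 := by
    rw [← ravg_symm hr c b, rc]
    simp
  have rb : ravg r b = ravg r f - ravg r (ravg s f) := by
    rw [hb, ravg_sub]
  have key : ∑ x, (f x - ravg r f x) * (f x - ravg s f x) = ∑ x, c x ^ 2 := by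
    have e1 : ∑ x, c x ^ 2 = ∑ x, c x * b x - ∑ x, c x * ravg r b x := by
      rw [← Finset.sum_sub_distrib]
      exact Finset.sum_congr rfl (fun x _ => by simp only [hcdef, Pi.sub_apply]; ring)
    have e2 : ∑ x, c x * b x
        = ∑ x, (f x - ravg r f x) * (f x - ravg s f x)
          - ∑ x, ravg s f x * b x + ∑ x, ravg r (ravg s f) x * b x := by
      rw [← Finset.sum_sub_distrib, ← Finset.sum_add_distrib]
      refine Finset.sum_congr rfl (fun x _ => ?_)
      have rbx : ravg r b x = ravg r f x - ravg r (ravg s f) x := congrFun rb x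
      have cx : c x = b x - ravg r b x := rfl
      have bx : b x = f x - ravg s f x := rfl
      rw [cx, rbx, bx]
      ring
    rw [e1, e2, z1, z2, z3]
    ring
  rw [key]
  exact Finset.sum_nonneg (fun x _ => sq_nonneg _)

end Vale.Agent.Lib.P335.Bip
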