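import Vale.Agent.Lib.P335.Bip.RelBasic

/-!
# P335 / bipartite core: any two matrices in the same block class are joined by switches
inside the block (Ryser's interchange theorem, block form)
-/

namespace Vale.Agent.Lib.P335.Bip

open Finset
open scoped Classical

variable {R C : Type*} [Fintype R] [Fintype C]

omit [Fintype R] [Fintype C] in
/-- The first switched row after a switch. -/
private theorem connect_row_first (M : R → C → Bool) (i i' : R) (x y : C) (c : C) :
    switchMat M i i' x y i c = if c = x then false else if c = y then true else M i c := by
  unfold switchMat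
  by_cases hx : c = x
  · simp [hx]
  · by_cases hy : c = y
    · simp [hy]
    · simp [hx, hy]

omit [Fintype R] [Fintype C] in
/-- The second switched row after a switch. -/
private theorem connect_row_second (M : R → C → Bool) {i i' : R} (hne : i ≠ i') (x y : C)
    (c : C) :
    switchMat M i i' x y i' c = if c = x then true else if c = y then false else M i' c := by
  unfold switchMat
  have hne' : ¬ i' = i := fun h => hne h.symm
  by_cases hx : c = x
  · simp [hx, hne']
  · by_cases hy : c = y
    · simp [hy, hne']
    · simp [hx, hy]

set_option linter.unusedSectionVars false in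
/-- A switch step can be undone by a switch step. -/
theorem switchStep_symm {S : Finset R} {T : Finset C} {M M' : R → C → Bool}
    (h : SwitchStep S T M M') : SwitchStep S T M' M := by
  obtain ⟨i, hi, i', hi', x, hx, y, hy, hne, hxy, h1, h2, h3, h4, rfl⟩ := h
  have hxy' : ¬ y = x := fun h => hxy h.symm
  have hne' : ¬ i' = i := fun h => hne h.symm
  refine ⟨i', hi', i, hi, x, hx, y, hy, hne.symm, hxy, ?_, ?_, ?_, ?_, ?_⟩
  · rw [connect_row_second M hne x y x, if_pos rfl]
  · rw [connect_row_first M i i' x y x, if_pos rfl]
  · rw [connect_row_second M hne x y y, if_neg hxy', if_pos rfl]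
  · rw [connect_row_first M i i' x y y, if_neg hxy', if_pos rfl]
  · funext a b
    by_cases ha : a = i
    · rw [ha, connect_row_second (switchMat M i i' x y) hne.symm x y b]
      by_cases hb : b = x
      · rw [if_pos hb, hb, h1]
      · by_cases hb' : b = y
        · rw [if_neg hb, if_pos hb', hb', h3]
        · rw [if_neg hb, if_neg hb', connect_row_first M i i' x y b, if_neg hb, if_neg hb']
    · by_cases ha' : a = i'
      · rw [ha', connect_row_first (switchMat M i i' x y) i' i x y b]
        by_cases hb : b = x
        · rw [if_pos hb, hb, h2]
        · by_cases hb' : b = y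
          · rw [if_neg hb, if_pos hb', hb', h4]
          · rw [if_neg hb, if_neg hb', connect_row_second M hne x y b, if_neg hb, if_neg hb']
      · unfold switchMat
        simp [ha, ha']

/-- A switch step stays in the block class. -/
theorem switchStep_rel {S : Finset R} {T : Finset C} {M M' : R → C → Bool}
    (h : SwitchStep S T M M') : Rel S T M M' := by
  obtain ⟨p, hp, hrel⟩ := switchStep_rel_pair h
  exact rel_mono (Finset.mem_powersetCard.mp hp).1 (Finset.Subset.refl T) hrel

omit [Fintype R] [Fintype C] in
/-- Switch steps in a smaller set of rows are switch steps in a larger one. -/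
private theorem connect_step_mono {S0 S : Finset R} {T : Finset C} (hS : S0 ⊆ S)
    {M N : R → C → Bool} (h : SwitchStep S0 T M N) : SwitchStep S T M N := by
  obtain ⟨i, hi, i', hi', x, hx, y, hy, hrest⟩ := h
  exact ⟨i, hS hi, i', hS hi', x, hx, y, hy, hrest⟩

/-- The reflexive transitive closure of a symmetric relation is symmetric. -/
private theorem connect_rtg_symm {α : Type*} {r : α → α → Prop} (hr : ∀ a b, r a b → r b a)
    {a b : α} (h : Relation.ReflTransGen r a b) : Relation.ReflTransGen r b a := by
  induction h with
  | refl => exact Relation.ReflTransGen.refl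
  | tail _ hbc ih => exact Relation.ReflTransGen.head (hr _ _ hbc) ih

/-- Strict decrease of the size of a filtered set. -/
private theorem connect_card_lt {α : Type*} (s : Finset α) (P P' : α → Prop)
    [DecidablePred P] [DecidablePred P'] (x : α) (hxs : x ∈ s) (hx : P x) (h : ∀ c ∈ s, P' c → c ≠ x ∧ P c) :
    (s.filter P').card + 1 ≤ (s.filter P).card := by
  have hsub : s.filter P' ⊆ (s.filter P).erase x := by
    intro c hc
    have hc' := Finset.mem_filter.mp hc
    exact Finset.mem_erase.mpr ⟨(h c hc'.1 hc'.2).1,
      Finset.mem_filter.mpr ⟨hc'.1, (h c hc'.1 hc'.2).2⟩⟩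
  have hxm : x ∈ s.filter P := Finset.mem_filter.mpr ⟨hxs, hx⟩
  have h1 := Finset.card_le_card hsub
  rw [Finset.card_erase_of_mem hxm] at h1
  have h2 := Finset.card_pos.mpr ⟨x, hxm⟩
  omega

/-- Two rows with the same number of ones which differ: a column with a one only in the first
and a column with a one only in the second. -/
private theorem connect_exists_xy {S : Finset R} {T : Finset C} {M M' : R → C → Bool}
    (hrel : Rel S T M M') (i : R) (hrow : M i ≠ M' i) :
    ∃ x y, M i x = true ∧ M' i x = false ∧ M i y = false ∧ M' i y = true := by
  have hcard : (univ.filter (fun c => M' i c = true)).card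
      = (univ.filter (fun c => M i c = true)).card := hrel.2.1 i
  have hsd := Finset.card_sdiff_comm hcard
  obtain ⟨c, hc⟩ : ∃ c, M i c ≠ M' i c := by
    by_contra hcon
    apply hrow
    funext c
    by_contra hne
    exact hcon ⟨c, hne⟩
  have hboth : (univ.filter (fun c => M' i c = true) \ univ.filter (fun c => M i c = true)).Nonempty
      ∧ (univ.filter (fun c => M i c = true) \ univ.filter (fun c => M' i c = true)).Nonempty := by
    by_cases hm : M i c = true
    · have h2 : (univ.filter (fun c => M i c = true)
          \ univ.filter (fun c => M' i c = true)).Nonempty := by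
        refine ⟨c, Finset.mem_sdiff.mpr ⟨Finset.mem_filter.mpr ⟨Finset.mem_univ c, hm⟩, ?_⟩⟩
        intro hc'
        exact hc (hm.trans (Finset.mem_filter.mp hc').2.symm)
      exact ⟨Finset.card_pos.mp (hsd ▸ Finset.card_pos.mpr h2), h2⟩
    · have hm' : M' i c = true := by
        by_contra hm'
        apply hc
        rw [Bool.not_eq_true] at hm hm'
        rw [hm, hm']
      have h1 : (univ.filter (fun c => M' i c = true)
          \ univ.filter (fun c => M i c = true)).Nonempty := by
        refine ⟨c, Finset.mem_sdiff.mpr ⟨Finset.mem_filter.mpr ⟨Finset.mem_univ c, hm'⟩, ?_⟩⟩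
        intro hc'
        exact hm (Finset.mem_filter.mp hc').2
      exact ⟨h1, Finset.card_pos.mp (hsd.symm ▸ Finset.card_pos.mpr h1)⟩
  obtain ⟨⟨y, hy⟩, ⟨x, hx⟩⟩ := hboth
  rw [Finset.mem_sdiff, Finset.mem_filter, Finset.mem_filter] at hx hy
  refine ⟨x, y, hx.1.2, ?_, ?_, hy.1.2⟩
  · have h := hx.2
    rw [← Bool.not_eq_true]
    exact fun h' => h ⟨Finset.mem_univ x, h'⟩
  · have h := hy.2
    rw [← Bool.not_eq_true]
    exact fun h' => h ⟨Finset.mem_univ y, h'⟩

/-- Matrices in the same class have the same column counts inside the row set of the block. -/
private theorem connect_colS {S : Finset R} {T : Finset C} {M M' : R → C → Bool}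
    (h : Rel S T M M') (c : C) :
    (S.filter (fun a => M' a c = true)).card = (S.filter (fun a => M a c = true)).card := by
  have hcol : (univ.filter (fun a => M' a c = true)).card
      = (univ.filter (fun a => M a c = true)).card := h.2.2 c
  rw [Finset.card_filter, Finset.card_filter] at hcol
  rw [Finset.card_filter, Finset.card_filter]
  have h1 := Finset.sum_add_sum_compl S (fun a => if M' a c = true then (1 : ℕ) else 0)
  have h2 := Finset.sum_add_sum_compl S (fun a => if M a c = true then (1 : ℕ) else 0)
  have h3 : ∑ a ∈ Sᶜ, (if M' a c = true then (1 : ℕ) else 0)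
      = ∑ a ∈ Sᶜ, (if M a c = true then (1 : ℕ) else 0) := by
    refine Finset.sum_congr rfl (fun a ha => ?_)
    rw [h.1 a c (fun hc => (Finset.mem_compl.mp ha) hc.1)]
  omega

/-- Aligning one row: after switch steps on both sides the row `i` agrees. -/
private theorem connect_align (S : Finset R) (T : Finset C) (i : R) (hi : i ∈ S) :
    ∀ k : ℕ, ∀ M M' : R → C → Bool, Rel S T M M' →
      (univ.filter (fun c => M i c ≠ M' i c)).card ≤ k →
      ∃ N N' : R → C → Bool, Relation.ReflTransGen (SwitchStep S T) M N ∧
        Relation.ReflTransGen (SwitchStep S T) M' N' ∧ Rel S T N N' ∧ N i = N' i := by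
  intro k
  induction k with
  | zero =>
    intro M M' hrel hk
    refine ⟨M, M', Relation.ReflTransGen.refl, Relation.ReflTransGen.refl, hrel, ?_⟩
    funext c
    by_contra hne
    have hmem : c ∈ univ.filter (fun c => M i c ≠ M' i c) :=
      Finset.mem_filter.mpr ⟨Finset.mem_univ c, hne⟩
    have hpos := Finset.card_pos.mpr ⟨c, hmem⟩
    omega
  | succ k ih =>
    intro M M' hrel hk
    by_cases hrow : M i = M' i
    · exact ⟨M, M', Relation.ReflTransGen.refl, Relation.ReflTransGen.refl, hrel, hrow⟩
    · obtain ⟨x, y, hx1, hx2, hy1, hy2⟩ := connect_exists_xy hrel i hrow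
      have hxT : x ∈ T := by
        by_contra hx
        have h := hrel.1 i x (fun hc => hx hc.2)
        rw [hx1, hx2] at h
        exact Bool.false_ne_true h
      have hyT : y ∈ T := by
        by_contra hy
        have h := hrel.1 i y (fun hc => hy hc.2)
        rw [hy1, hy2] at h
        exact Bool.false_ne_true h.symm
      have hxy : x ≠ y := by
        intro h
        rw [h, hy1] at hx1
        exact Bool.false_ne_true hx1
      have hxy' : ¬ y = x := fun h => hxy h.symm
      have hxD : M i x ≠ M' i x := by
        rw [hx1, hx2]
        exact fun h => Bool.false_ne_true h.symm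
      by_cases hc1 : ∃ i' ∈ S, i' ≠ i ∧ M i' x = false ∧ M i' y = true
      · obtain ⟨i', hi', hne, ha, hb⟩ := hc1
        have hstep : SwitchStep S T M (switchMat M i i' x y) :=
          ⟨i, hi, i', hi', x, hxT, y, hyT, hne.symm, hxy, hx1, ha, hy1, hb, rfl⟩
        have hrel1 : Rel S T (switchMat M i i' x y) M' :=
          (rel_equivalence S T).trans ((rel_equivalence S T).symm (switchStep_rel hstep)) hrel
        have hlt := connect_card_lt (univ : Finset C) (fun c => M i c ≠ M' i c)
          (fun c => switchMat M i i' x y i c ≠ M' i c) x (Finset.mem_univ x) hxD (by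
            intro c _ hc
            rw [connect_row_first M i i' x y c] at hc
            by_cases hcx : c = x
            · rw [if_pos hcx, hcx, hx2] at hc
              exact absurd rfl hc
            · by_cases hcy : c = y
              · rw [if_neg hcx, if_pos hcy, hcy, hy2] at hc
                exact absurd rfl hc
              · rw [if_neg hcx, if_neg hcy] at hc
                exact ⟨hcx, hc⟩)
        have hcard : (univ.filter (fun c => switchMat M i i' x y i c ≠ M' i c)).card ≤ k := by
          omega
        obtain ⟨N, N', hN, hN', hNN, hrowN⟩ := ih _ _ hrel1 hcard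
        exact ⟨N, N', Relation.ReflTransGen.head hstep hN, hN', hNN, hrowN⟩
      · by_cases hc2 : ∃ i' ∈ S, i' ≠ i ∧ M' i' x = true ∧ M' i' y = false
        · obtain ⟨i', hi', hne, ha, hb⟩ := hc2
          have hstep : SwitchStep S T M' (switchMat M' i' i x y) :=
            ⟨i', hi', i, hi, x, hxT, y, hyT, hne, hxy, ha, hx2, hb, hy2, rfl⟩
          have hrel1 : Rel S T M (switchMat M' i' i x y) :=
            (rel_equivalence S T).trans hrel (switchStep_rel hstep)
          have hlt := connect_card_lt (univ : Finset C) (fun c => M i c ≠ M' i c)
            (fun c => M i c ≠ switchMat M' i' i x y i c) x (Finset.mem_univ x) hxD (by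
              intro c _ hc
              rw [connect_row_second M' hne x y c] at hc
              by_cases hcx : c = x
              · rw [if_pos hcx, hcx, hx1] at hc
                exact absurd rfl hc
              · by_cases hcy : c = y
                · rw [if_neg hcx, if_pos hcy, hcy, hy1] at hc
                  exact absurd rfl hc
                · rw [if_neg hcx, if_neg hcy] at hc
                  exact ⟨hcx, hc⟩)
          have hcard : (univ.filter (fun c => M i c ≠ switchMat M' i' i x y i c)).card ≤ k := by
            omega
          obtain ⟨N, N', hN, hN', hNN, hrowN⟩ := ih _ _ hrel1 hcard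
          exact ⟨N, N', hN, Relation.ReflTransGen.head hstep hN', hNN, hrowN⟩
        · exfalso
          have hM : ∀ a ∈ S, a ≠ i → M a y = true → M a x = true := by
            intro a ha hai hay
            by_contra hax
            rw [Bool.not_eq_true] at hax
            exact hc1 ⟨a, ha, hai, hax, hay⟩
          have hM' : ∀ a ∈ S, a ≠ i → M' a x = true → M' a y = true := by
            intro a ha hai hax
            by_contra hay
            rw [Bool.not_eq_true] at hay
            exact hc2 ⟨a, ha, hai, hax, hay⟩
          have h1 := connect_card_lt S (fun a => M a x = true) (fun a => M a y = true) i hi hx1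
            (by
              intro a ha hay
              have hai : a ≠ i := by
                intro h
                rw [h, hy1] at hay
                exact Bool.false_ne_true hay
              exact ⟨hai, hM a ha hai hay⟩)
          have h2 := connect_card_lt S (fun a => M' a y = true) (fun a => M' a x = true) i hi hy2
            (by
              intro a ha hax
              have hai : a ≠ i := by
                intro h
                rw [h, hx2] at hax
                exact Bool.false_ne_true hax
              exact ⟨hai, hM' a ha hai hax⟩)
          have e1 := connect_colS hrel x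
          have e2 := connect_colS hrel y
          omega

/-- I2: matrices in the same class of the block `S × T` are joined by switch steps in `S × T`. -/
theorem switch_connected (S : Finset R) (T : Finset C) (M M' : R → C → Bool)
    (h : Rel S T M M') : Relation.ReflTransGen (SwitchStep S T) M M' := by
  induction S using Finset.induction_on generalizing M M' with
  | empty =>
    have hMM : M' = M := by
      funext a b
      exact h.1 a b (fun hc => absurd hc.1 (Finset.notMem_empty a))
    rw [hMM]
  | insert i S0 hi ih =>
    obtain ⟨N, N', hN, hN', hNN, hrow⟩ :=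
      connect_align (insert i S0) T i (Finset.mem_insert_self i S0) _ M M' h le_rfl
    have hrel0 : Rel S0 T N N' := by
      refine ⟨fun a b hab => ?_, hNN.2.1, hNN.2.2⟩
      by_cases ha : a = i
      · rw [ha, hrow]
      · exact hNN.1 a b
          (fun hc => hab ⟨(Finset.mem_insert.mp hc.1).resolve_left ha, hc.2⟩)
    have hmid : Relation.ReflTransGen (SwitchStep (insert i S0) T) N N' :=
      Relation.ReflTransGen.mono
        (fun _ _ hs => connect_step_mono (Finset.subset_insert i S0) hs) _ _ (ih N N' hrel0)
    have hback : Relation.ReflTransGen (SwitchStep (insert i S0) T) N' M' :=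
      connect_rtg_symm (fun _ _ hs => switchStep_symm hs) hN'
    exact (hN.trans hmid).trans hback

end Vale.Agent.Lib.P335.Bip
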