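import Mathlib

/-!
# P335 / bipartite core: 0/1 matrices with prescribed margins, block classes and block averages

Definitions only.  `R` = rows, `C` = columns, a matrix is `M : R → C → Bool`.
For a block `S × T` the relation `Rel S T M M'` says that `M'` agrees with `M` outside the block
and has the same row sums and the same column sums; `avg S T f` averages `f` over the class.
-/

namespace Vale.Agent.Lib.P335.Bip

open Finset
open scoped Classical

variable {R C : Type*} [Fintype R] [Fintype C]

/-- Number of ones in row `i`. -/
noncomputable def rowSum (M : R → C → Bool) (i : R) : ℕ :=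
  (univ.filter (fun j => M i j = true)).card

/-- Number of ones in column `j`. -/
noncomputable def colSum (M : R → C → Bool) (j : C) : ℕ :=
  (univ.filter (fun i => M i j = true)).card

/-- `M'` agrees with `M` outside the block `S × T` and has the same row and column sums. -/
def Rel (S : Finset R) (T : Finset C) (M M' : R → C → Bool) : Prop :=
  (∀ i j, ¬ (i ∈ S ∧ j ∈ T) → M' i j = M i j) ∧
    (∀ i, rowSum M' i = rowSum M i) ∧ (∀ j, colSum M' j = colSum M j)

/-- The class of `M` for the block `S × T`. -/
noncomputable def cls (S : Finset R) (T : Finset C) (M : R → C → Bool) :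
    Finset (R → C → Bool) :=
  univ.filter (fun M' => Rel S T M M')

/-- Average of `f` over the class of `M` for the block `S × T`. -/
noncomputable def avg (S : Finset R) (T : Finset C) (f : (R → C → Bool) → ℝ) :
    (R → C → Bool) → ℝ :=
  fun M => (∑ M' ∈ cls S T M, f M') / ((cls S T M).card : ℝ)

/-- The matrix obtained from `M` by the switch on rows `i, i'` and columns `x, y`
(entries `(i,x), (i',y)` become `false`, entries `(i,y), (i',x)` become `true`). -/
noncomputable def switchMat (M : R → C → Bool) (i i' : R) (x y : C) : R → C → Bool :=
  fun a b =>
    if a = i ∧ b = x then false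
    else if a = i ∧ b = y then true
    else if a = i' ∧ b = x then true
    else if a = i' ∧ b = y then false
    else M a b

/-- `M'` is obtained from `M` by one switch on two rows of `S` and two columns of `T`. -/
def SwitchStep (S : Finset R) (T : Finset C) (M M' : R → C → Bool) : Prop :=
  ∃ i ∈ S, ∃ i' ∈ S, ∃ x ∈ T, ∃ y ∈ T, i ≠ i' ∧ x ≠ y ∧
    M i x = true ∧ M i' x = false ∧ M i y = false ∧ M i' y = true ∧
    M' = switchMat M i i' x y

end Vale.Agent.Lib.P335.Bip
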