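import Mathlib

/-!
# P335 / bipartite core: a four-type coupling between the `s`-subsets of `F` and the
`(s+1)`-subsets of `F ∪ {x, y}` (pure finite-set double counting)
-/

namespace Vale.Agent.Lib.P335.Bip

open Finset

/-- Splitting a sum over a family of sets by the two membership bits of `x` and `y`. -/
private lemma JCoupling_split {α : Type*} [DecidableEq α] (B : Finset (Finset α)) (x y : α)
    (h : Finset α → ℝ) :
    ∑ J' ∈ B, h J' = ∑ J' ∈ B.filter (fun J' => x ∈ J' ∧ y ∈ J'), h J'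
      + ∑ J' ∈ B.filter (fun J' => x ∈ J' ∧ y ∉ J'), h J'
      + ∑ J' ∈ B.filter (fun J' => y ∈ J' ∧ x ∉ J'), h J'
      + ∑ J' ∈ B.filter (fun J' => x ∉ J' ∧ y ∉ J'), h J' := by
  have e3 : B.filter (fun J' => y ∈ J' ∧ x ∉ J') = B.filter (fun J' => x ∉ J' ∧ y ∈ J') :=
    Finset.filter_congr (fun _ _ => and_comm)
  rw [e3, ← Finset.sum_filter_add_sum_filter_not B (fun J' => x ∈ J') h,
    ← Finset.sum_filter_add_sum_filter_not (B.filter (fun J' => x ∈ J')) (fun J' => y ∈ J') h,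
    ← Finset.sum_filter_add_sum_filter_not (B.filter (fun J' => x ∉ J')) (fun J' => y ∈ J') h,
    Finset.filter_filter, Finset.filter_filter, Finset.filter_filter, Finset.filter_filter]
  ring

/-- The sets of the family containing `w` but not `v` are the sets `insert w J`. -/
private lemma JCoupling_one {α : Type*} [DecidableEq α] (F : Finset α) (w v : α) (hw : w ∉ F)
    (hv : v ∉ F) (hwv : w ≠ v) (U : Finset α) (hU : ∀ a, a ∈ U ↔ a = w ∨ a = v ∨ a ∈ F)
    (s : ℕ) (h : Finset α → ℝ) :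
    ∑ J' ∈ (U.powersetCard (s + 1)).filter (fun J' => w ∈ J' ∧ v ∉ J'), h J'
      = ∑ J ∈ F.powersetCard s, h (insert w J) := by
  refine Finset.sum_nbij' (fun J' => J'.erase w) (fun J => insert w J) ?_ ?_ ?_ ?_ ?_
  · intro J' hJ'
    rw [mem_filter, mem_powersetCard] at hJ'
    obtain ⟨⟨hsub, hcard⟩, hwJ, hvJ⟩ := hJ'
    rw [mem_powersetCard]
    refine ⟨?_, ?_⟩
    · intro a ha
      rw [mem_erase] at ha
      rcases (hU a).mp (hsub ha.2) with h1 | h1 | h1
      · exact absurd h1 ha.1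
      · exact absurd (h1 ▸ ha.2) hvJ
      · exact h1
    · rw [card_erase_of_mem hwJ, hcard]
      rfl
  · intro J hJ
    rw [mem_powersetCard] at hJ
    have hwJ : w ∉ J := fun hh => hw (hJ.1 hh)
    rw [mem_filter, mem_powersetCard]
    refine ⟨⟨?_, ?_⟩, mem_insert_self w J, ?_⟩
    · intro a ha
      rw [mem_insert] at ha
      rcases ha with ha | ha
      · exact (hU a).mpr (Or.inl ha)
      · exact (hU a).mpr (Or.inr (Or.inr (hJ.1 ha)))
    · rw [card_insert_of_notMem hwJ, hJ.2]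
    · intro hvJ
      rw [mem_insert] at hvJ
      rcases hvJ with h1 | h1
      · exact hwv h1.symm
      · exact hv (hJ.1 h1)
  · intro J' hJ'
    rw [mem_filter] at hJ'
    exact insert_erase hJ'.2.1
  · intro J hJ
    rw [mem_powersetCard] at hJ
    exact erase_insert (fun hh => hw (hJ.1 hh))
  · intro J' hJ'
    rw [mem_filter] at hJ'
    rw [insert_erase hJ'.2.1]

/-- The sets of the family containing neither `x` nor `y` are the `(s+1)`-subsets of `F`. -/
private lemma JCoupling_none {α : Type*} [DecidableEq α] (F : Finset α) (x y : α) (hx : x ∉ F)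
    (hy : y ∉ F) (s : ℕ) :
    ((insert x (insert y F)).powersetCard (s + 1)).filter (fun J' => x ∉ J' ∧ y ∉ J')
      = F.powersetCard (s + 1) := by
  ext J'
  rw [mem_filter, mem_powersetCard, mem_powersetCard]
  constructor
  · rintro ⟨⟨hsub, hcard⟩, hxJ, hyJ⟩
    refine ⟨fun a ha => ?_, hcard⟩
    have h1 := hsub ha
    rw [mem_insert, mem_insert] at h1
    rcases h1 with h1 | h1 | h1
    · exact absurd (h1 ▸ ha) hxJ
    · exact absurd (h1 ▸ ha) hyJ
    · exact h1
  · rintro ⟨hsub, hcard⟩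
    exact ⟨⟨fun a ha => mem_insert_of_mem (mem_insert_of_mem (hsub ha)), hcard⟩,
      fun hh => hx (hsub hh), fun hh => hy (hsub hh)⟩

/-- Double counting for the sets containing both `x` and `y`. -/
private lemma JCoupling_both {α : Type*} [DecidableEq α] (F : Finset α) (x y : α) (hx : x ∉ F)
    (hy : y ∉ F) (hxy : x ≠ y) (s : ℕ) (h : Finset α → ℝ) :
    ∑ J ∈ F.powersetCard s, ∑ z ∈ J, h (insert x (insert y (J.erase z)))
      = ((F.card : ℝ) - s + 1) * ∑ J' ∈ ((insert x (insert y F)).powersetCard (s + 1)).filter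
          (fun J' => x ∈ J' ∧ y ∈ J'), h J' := by
  have hcard : ∀ J' ∈ ((insert x (insert y F)).powersetCard (s + 1)).filter
      (fun J' => x ∈ J' ∧ y ∈ J'), ((F \ J').card : ℝ) = (F.card : ℝ) - s + 1 := by
    intro J' hJ'
    rw [mem_filter, mem_powersetCard] at hJ'
    obtain ⟨⟨hsub, hc⟩, hxJ, hyJ⟩ := hJ'
    have e1 : insert x (insert y F) \ J' = F \ J' := by
      ext a
      simp only [mem_sdiff, mem_insert]
      constructor
      · rintro ⟨h1 | h1 | h1, h2⟩
        · exact absurd (h1 ▸ hxJ) h2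
        · exact absurd (h1 ▸ hyJ) h2
        · exact ⟨h1, h2⟩
      · rintro ⟨h1, h2⟩
        exact ⟨Or.inr (Or.inr h1), h2⟩
    have hxy' : x ∉ insert y F := by
      rw [mem_insert]
      rintro (h1 | h1)
      · exact hxy h1
      · exact hx h1
    have e2 := card_sdiff_add_card_eq_card hsub
    rw [e1, hc, card_insert_of_notMem hxy', card_insert_of_notMem hy] at e2
    have e3 : ((F \ J').card : ℝ) + ((s : ℝ) + 1) = (F.card : ℝ) + 1 + 1 := by exact_mod_cast e2
    linarith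
  have hR : ((F.card : ℝ) - s + 1) * ∑ J' ∈ ((insert x (insert y F)).powersetCard (s + 1)).filter
          (fun J' => x ∈ J' ∧ y ∈ J'), h J'
      = ∑ J' ∈ ((insert x (insert y F)).powersetCard (s + 1)).filter
          (fun J' => x ∈ J' ∧ y ∈ J'), ∑ _z ∈ F \ J', h J' := by
    rw [Finset.mul_sum]
    refine Finset.sum_congr rfl (fun J' hJ' => ?_)
    rw [Finset.sum_const, nsmul_eq_mul, hcard J' hJ']
  rw [hR, Finset.sum_sigma', Finset.sum_sigma']
  refine Finset.sum_nbij'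
    (fun p : (_ : Finset α) × α => (⟨insert x (insert y (p.1.erase p.2)), p.2⟩ : (_ : Finset α) × α))
    (fun q : (_ : Finset α) × α => (⟨insert q.2 ((q.1.erase x).erase y), q.2⟩ : (_ : Finset α) × α))
    ?_ ?_ ?_ ?_ ?_
  · rintro ⟨J, z⟩ hp
    rw [mem_sigma] at hp ⊢
    obtain ⟨hJ, hz⟩ := hp
    dsimp only at hJ hz ⊢
    rw [mem_powersetCard] at hJ
    obtain ⟨hJF, hJc⟩ := hJ
    have hzF : z ∈ F := hJF hz
    have hyE : y ∉ J.erase z := fun h1 => hy (hJF (mem_of_mem_erase h1))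
    have hxE : x ∉ insert y (J.erase z) := by
      rw [mem_insert]
      rintro (h1 | h1)
      · exact hxy h1
      · exact hx (hJF (mem_of_mem_erase h1))
    refine ⟨?_, ?_⟩
    · rw [mem_filter, mem_powersetCard]
      refine ⟨⟨?_, ?_⟩, mem_insert_self _ _, mem_insert_of_mem (mem_insert_self _ _)⟩
      · exact insert_subset_insert x (insert_subset_insert y ((erase_subset z J).trans hJF))
      · rw [card_insert_of_notMem hxE, card_insert_of_notMem hyE, card_erase_of_mem hz, hJc]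
        have hspos : 0 < s := by
          rw [← hJc]
          exact card_pos.mpr ⟨z, hz⟩
        omega
    · rw [mem_sdiff]
      refine ⟨hzF, ?_⟩
      rw [mem_insert, mem_insert]
      rintro (h1 | h1 | h1)
      · exact hx (h1 ▸ hzF)
      · exact hy (h1 ▸ hzF)
      · exact notMem_erase z J h1
  · rintro ⟨J', z⟩ hq
    rw [mem_sigma] at hq ⊢
    obtain ⟨hJ', hz⟩ := hq
    dsimp only at hJ' hz ⊢
    rw [mem_filter, mem_powersetCard] at hJ'
    obtain ⟨⟨hsub, hc⟩, hxJ, hyJ⟩ := hJ'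
    rw [mem_sdiff] at hz
    obtain ⟨hzF, hzJ⟩ := hz
    have hyE : y ∈ J'.erase x := mem_erase.mpr ⟨hxy.symm, hyJ⟩
    have hzK : z ∉ (J'.erase x).erase y :=
      fun h1 => hzJ (mem_of_mem_erase (mem_of_mem_erase h1))
    refine ⟨?_, mem_insert_self _ _⟩
    rw [mem_powersetCard]
    refine ⟨?_, ?_⟩
    · intro a ha
      rw [mem_insert] at ha
      rcases ha with ha | ha
      · exact ha ▸ hzF
      · rw [mem_erase, mem_erase] at ha
        have h1 := hsub ha.2.2
        rw [mem_insert, mem_insert] at h1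
        rcases h1 with h1 | h1 | h1
        · exact absurd h1 ha.2.1
        · exact absurd h1 ha.1
        · exact h1
    · have h0 : 0 < (J'.erase x).card := card_pos.mpr ⟨y, hyE⟩
      rw [card_erase_of_mem hxJ, hc] at h0
      rw [card_insert_of_notMem hzK, card_erase_of_mem hyE, card_erase_of_mem hxJ, hc]
      omega
  · rintro ⟨J, z⟩ hp
    rw [mem_sigma] at hp
    obtain ⟨hJ, hz⟩ := hp
    dsimp only at hJ hz ⊢
    rw [mem_powersetCard] at hJ
    obtain ⟨hJF, hJc⟩ := hJ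
    have hyE : y ∉ J.erase z := fun h1 => hy (hJF (mem_of_mem_erase h1))
    have hxE : x ∉ insert y (J.erase z) := by
      rw [mem_insert]
      rintro (h1 | h1)
      · exact hxy h1
      · exact hx (hJF (mem_of_mem_erase h1))
    rw [erase_insert hxE, erase_insert hyE, insert_erase hz]
  · rintro ⟨J', z⟩ hq
    rw [mem_sigma] at hq
    obtain ⟨hJ', hz⟩ := hq
    dsimp only at hJ' hz ⊢
    rw [mem_filter, mem_powersetCard] at hJ'
    obtain ⟨⟨hsub, hc⟩, hxJ, hyJ⟩ := hJ'
    rw [mem_sdiff] at hz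
    obtain ⟨hzF, hzJ⟩ := hz
    have hyE : y ∈ J'.erase x := mem_erase.mpr ⟨hxy.symm, hyJ⟩
    have hzK : z ∉ (J'.erase x).erase y :=
      fun h1 => hzJ (mem_of_mem_erase (mem_of_mem_erase h1))
    rw [erase_insert hzK, insert_erase hyE, insert_erase hxJ]
  · rintro ⟨J, z⟩ _
    rfl

/-- Double counting for the sets containing neither `x` nor `y`. -/
private lemma JCoupling_neither {α : Type*} [DecidableEq α] (F : Finset α) (s : ℕ)
    (h : Finset α → ℝ) :
    ∑ J ∈ F.powersetCard s, ∑ z ∈ F \ J, h (insert z J)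
      = ((s : ℝ) + 1) * ∑ J' ∈ F.powersetCard (s + 1), h J' := by
  have hR : ((s : ℝ) + 1) * ∑ J' ∈ F.powersetCard (s + 1), h J'
      = ∑ J' ∈ F.powersetCard (s + 1), ∑ _z ∈ J', h J' := by
    rw [Finset.mul_sum]
    refine Finset.sum_congr rfl (fun J' hJ' => ?_)
    rw [mem_powersetCard] at hJ'
    rw [Finset.sum_const, nsmul_eq_mul, hJ'.2]
    push_cast
    ring
  rw [hR, Finset.sum_sigma', Finset.sum_sigma']
  refine Finset.sum_nbij'
    (fun p : (_ : Finset α) × α => (⟨insert p.2 p.1, p.2⟩ : (_ : Finset α) × α))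
    (fun q : (_ : Finset α) × α => (⟨q.1.erase q.2, q.2⟩ : (_ : Finset α) × α)) ?_ ?_ ?_ ?_ ?_
  · rintro ⟨J, z⟩ hp
    rw [mem_sigma] at hp ⊢
    obtain ⟨hJ, hz⟩ := hp
    dsimp only at hJ hz ⊢
    rw [mem_powersetCard] at hJ
    rw [mem_sdiff] at hz
    refine ⟨?_, mem_insert_self z J⟩
    rw [mem_powersetCard]
    exact ⟨insert_subset hz.1 hJ.1, by rw [card_insert_of_notMem hz.2, hJ.2]⟩
  · rintro ⟨J', z⟩ hq
    rw [mem_sigma] at hq ⊢
    obtain ⟨hJ', hz⟩ := hq
    dsimp only at hJ' hz ⊢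
    rw [mem_powersetCard] at hJ'
    refine ⟨?_, ?_⟩
    · rw [mem_powersetCard]
      refine ⟨(erase_subset z J').trans hJ'.1, ?_⟩
      rw [card_erase_of_mem hz, hJ'.2]
      rfl
    · rw [mem_sdiff]
      exact ⟨hJ'.1 hz, notMem_erase z J'⟩
  · rintro ⟨J, z⟩ hp
    rw [mem_sigma] at hp
    obtain ⟨hJ, hz⟩ := hp
    dsimp only at hJ hz ⊢
    rw [mem_sdiff] at hz
    rw [erase_insert hz.2]
  · rintro ⟨J', z⟩ hq
    rw [mem_sigma] at hq
    obtain ⟨hJ', hz⟩ := hq
    dsimp only at hJ' hz ⊢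
    rw [insert_erase hz]
  · rintro ⟨J, z⟩ _
    rfl

/-- The sum over the `(s+1)`-subsets of `F ∪ {x, y}` as a weighted sum over the `s`-subsets
of `F`. -/
private lemma JCoupling_star {α : Type*} [DecidableEq α] (F : Finset α) (x y : α) (hx : x ∉ F)
    (hy : y ∉ F) (hxy : x ≠ y) (s : ℕ) (hs : s ≤ F.card) (h : Finset α → ℝ) :
    ∑ J' ∈ (insert x (insert y F)).powersetCard (s + 1), h J'
      = ∑ J ∈ F.powersetCard s, (h (insert x J) + h (insert y J)
          + ((F.card : ℝ) - s + 1)⁻¹ * ∑ z ∈ J, h (insert x (insert y (J.erase z)))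
          + ((s : ℝ) + 1)⁻¹ * ∑ z ∈ F \ J, h (insert z J)) := by
  have hsr : (s : ℝ) ≤ F.card := by exact_mod_cast hs
  have hc1 : (0 : ℝ) < (F.card : ℝ) - s + 1 := by linarith
  have hc2 : (0 : ℝ) < (s : ℝ) + 1 := by positivity
  have hU1 : ∀ a, a ∈ insert x (insert y F) ↔ a = x ∨ a = y ∨ a ∈ F := by
    intro a
    rw [mem_insert, mem_insert]
  have hU2 : ∀ a, a ∈ insert x (insert y F) ↔ a = y ∨ a = x ∨ a ∈ F := by
    intro a
    rw [mem_insert, mem_insert]
    tauto
  rw [JCoupling_split _ x y h,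
    JCoupling_one F x y hx hy hxy (insert x (insert y F)) hU1 s h,
    JCoupling_one F y x hy hx hxy.symm (insert x (insert y F)) hU2 s h,
    JCoupling_none F x y hx hy s,
    Finset.sum_add_distrib, Finset.sum_add_distrib, Finset.sum_add_distrib,
    ← Finset.mul_sum, ← Finset.mul_sum,
    JCoupling_both F x y hx hy hxy s h, JCoupling_neither F s h,
    inv_mul_cancel_left₀ hc1.ne', inv_mul_cancel_left₀ hc2.ne']
  ring

/-- If `g'` differs from `g` by at most `L` along the four kinds of pairs `(J, J')`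
(`J' = J + x`, `J' = J + y`, `J' = J - z + x + y` with `z ∈ J`, `J' = J + z` with `z ∈ F \ J`),
then the averages of `g'` over the `(s+1)`-subsets of `F ∪ {x, y}` and of `g` over the
`s`-subsets of `F` differ by at most `L`. -/
theorem J_coupling {α : Type*} [DecidableEq α] (F : Finset α) (x y : α) (hx : x ∉ F)
    (hy : y ∉ F) (hxy : x ≠ y) (s : ℕ) (hs : s ≤ F.card) (g g' : Finset α → ℝ) (L : ℝ)
    (h1 : ∀ J ∈ F.powersetCard s, |g' (insert x J) - g J| ≤ L)
    (h2 : ∀ J ∈ F.powersetCard s, |g' (insert y J) - g J| ≤ L)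
    (h3 : ∀ J ∈ F.powersetCard s, ∀ z ∈ J,
      |g' (insert x (insert y (J.erase z))) - g J| ≤ L)
    (h4 : ∀ J ∈ F.powersetCard s, ∀ z ∈ F \ J, |g' (insert z J) - g J| ≤ L) :
    |(∑ J' ∈ (insert x (insert y F)).powersetCard (s + 1), g' J')
          / (((insert x (insert y F)).powersetCard (s + 1)).card : ℝ)
        - (∑ J ∈ F.powersetCard s, g J) / ((F.powersetCard s).card : ℝ)| ≤ L := by
  have hsr : (s : ℝ) ≤ F.card := by exact_mod_cast hs
  obtain ⟨c1, hc1⟩ : ∃ c1 : ℝ, c1 = (F.card : ℝ) - s + 1 := ⟨_, rfl⟩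
  obtain ⟨c2, hc2⟩ : ∃ c2 : ℝ, c2 = (s : ℝ) + 1 := ⟨_, rfl⟩
  have hc1pos : 0 < c1 := by
    rw [hc1]
    linarith
  have hc2pos : 0 < c2 := by
    rw [hc2]
    positivity
  obtain ⟨ω, hω⟩ : ∃ ω : ℝ, ω = 2 + c1⁻¹ * s + c2⁻¹ * ((F.card : ℝ) - s) := ⟨_, rfl⟩
  have hωpos : 0 < ω := by
    rw [hω]
    have e1 : 0 ≤ c1⁻¹ * (s : ℝ) := mul_nonneg (inv_nonneg.mpr hc1pos.le) (Nat.cast_nonneg s)
    have e2 : 0 ≤ c2⁻¹ * ((F.card : ℝ) - s) :=
      mul_nonneg (inv_nonneg.mpr hc2pos.le) (by linarith)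
    linarith
  have hJcard : ∀ J ∈ F.powersetCard s, (J.card : ℝ) = s := by
    intro J hJ
    rw [(mem_powersetCard.mp hJ).2]
  have hFJcard : ∀ J ∈ F.powersetCard s, ((F \ J).card : ℝ) = (F.card : ℝ) - s := by
    intro J hJ
    have e := card_sdiff_add_card_eq_card (mem_powersetCard.mp hJ).1
    rw [(mem_powersetCard.mp hJ).2] at e
    have e' : ((F \ J).card : ℝ) + s = F.card := by exact_mod_cast e
    linarith
  have hA : (F.powersetCard s).Nonempty := powersetCard_nonempty.mpr hs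
  have hApos : (0 : ℝ) < ((F.powersetCard s).card : ℝ) := by exact_mod_cast hA.card_pos
  have hstar := JCoupling_star F x y hx hy hxy s hs g'
  have hstar1 := JCoupling_star F x y hx hy hxy s hs (fun _ => (1 : ℝ))
  rw [← hc1, ← hc2] at hstar hstar1
  obtain ⟨a, ha⟩ : ∃ a : ℝ, a = ((F.powersetCard s).card : ℝ) := ⟨_, rfl⟩
  obtain ⟨b, hb⟩ : ∃ b : ℝ,
      b = (((insert x (insert y F)).powersetCard (s + 1)).card : ℝ) := ⟨_, rfl⟩
  rw [← ha] at hApos
  have hB : b = ω * a := by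
    have e1 : ∑ _J' ∈ (insert x (insert y F)).powersetCard (s + 1), (1 : ℝ) = b := by
      rw [hb, Finset.sum_const, nsmul_eq_mul, mul_one]
    have e2 : ∀ J ∈ F.powersetCard s, ((1 : ℝ) + 1 + c1⁻¹ * ∑ _z ∈ J, (1 : ℝ)
        + c2⁻¹ * ∑ _z ∈ F \ J, (1 : ℝ)) = ω := by
      intro J hJ
      rw [Finset.sum_const, Finset.sum_const, nsmul_eq_mul, nsmul_eq_mul, mul_one, mul_one,
        hJcard J hJ, hFJcard J hJ, hω]
      ring
    rw [← e1, hstar1, Finset.sum_congr rfl e2, Finset.sum_const, nsmul_eq_mul, ha]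
    ring
  have hbpos : 0 < b := by
    rw [hB]
    exact mul_pos hωpos hApos
  obtain ⟨T, hT⟩ : ∃ T : Finset α → ℝ, T = fun J => (g' (insert x J) - g J)
      + (g' (insert y J) - g J)
      + c1⁻¹ * ∑ z ∈ J, (g' (insert x (insert y (J.erase z))) - g J)
      + c2⁻¹ * ∑ z ∈ F \ J, (g' (insert z J) - g J) := ⟨_, rfl⟩
  have hdiff : (∑ J' ∈ (insert x (insert y F)).powersetCard (s + 1), g' J')
      - ω * ∑ J ∈ F.powersetCard s, g J = ∑ J ∈ F.powersetCard s, T J := by
    rw [hstar, Finset.mul_sum, ← Finset.sum_sub_distrib]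
    refine Finset.sum_congr rfl (fun J hJ => ?_)
    rw [hT]
    simp only
    rw [Finset.sum_sub_distrib, Finset.sum_sub_distrib, Finset.sum_const, Finset.sum_const,
      nsmul_eq_mul, nsmul_eq_mul, hJcard J hJ, hFJcard J hJ, hω]
    ring
  have hTbound : ∀ J ∈ F.powersetCard s, |T J| ≤ ω * L := by
    intro J hJ
    rw [hT]
    simp only
    have b1 := h1 J hJ
    have b2 := h2 J hJ
    have b3 : |∑ z ∈ J, (g' (insert x (insert y (J.erase z))) - g J)| ≤ s * L := by
      calc |∑ z ∈ J, (g' (insert x (insert y (J.erase z))) - g J)|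
          ≤ ∑ z ∈ J, |g' (insert x (insert y (J.erase z))) - g J| :=
            Finset.abs_sum_le_sum_abs _ _
        _ ≤ ∑ _z ∈ J, L := Finset.sum_le_sum (fun z hz => h3 J hJ z hz)
        _ = s * L := by rw [Finset.sum_const, nsmul_eq_mul, hJcard J hJ]
    have b4 : |∑ z ∈ F \ J, (g' (insert z J) - g J)| ≤ ((F.card : ℝ) - s) * L := by
      calc |∑ z ∈ F \ J, (g' (insert z J) - g J)|
          ≤ ∑ z ∈ F \ J, |g' (insert z J) - g J| := Finset.abs_sum_le_sum_abs _ _
        _ ≤ ∑ _z ∈ F \ J, L := Finset.sum_le_sum (fun z hz => h4 J hJ z hz)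
        _ = ((F.card : ℝ) - s) * L := by rw [Finset.sum_const, nsmul_eq_mul, hFJcard J hJ]
    have b3' : |c1⁻¹ * ∑ z ∈ J, (g' (insert x (insert y (J.erase z))) - g J)|
        ≤ c1⁻¹ * (s * L) := by
      rw [abs_mul, abs_of_pos (inv_pos.mpr hc1pos)]
      exact mul_le_mul_of_nonneg_left b3 (inv_pos.mpr hc1pos).le
    have b4' : |c2⁻¹ * ∑ z ∈ F \ J, (g' (insert z J) - g J)|
        ≤ c2⁻¹ * (((F.card : ℝ) - s) * L) := by
      rw [abs_mul, abs_of_pos (inv_pos.mpr hc2pos)]
      exact mul_le_mul_of_nonneg_left b4 (inv_pos.mpr hc2pos).le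
    have t1 := abs_add_le ((g' (insert x J) - g J) + (g' (insert y J) - g J)
      + c1⁻¹ * ∑ z ∈ J, (g' (insert x (insert y (J.erase z))) - g J))
      (c2⁻¹ * ∑ z ∈ F \ J, (g' (insert z J) - g J))
    have t2 := abs_add_le ((g' (insert x J) - g J) + (g' (insert y J) - g J))
      (c1⁻¹ * ∑ z ∈ J, (g' (insert x (insert y (J.erase z))) - g J))
    have t3 := abs_add_le (g' (insert x J) - g J) (g' (insert y J) - g J)
    have e : ω * L = L + L + c1⁻¹ * (s * L) + c2⁻¹ * (((F.card : ℝ) - s) * L) := by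
      rw [hω]
      ring
    rw [e]
    linarith
  have hsum : |∑ J ∈ F.powersetCard s, T J| ≤ a * (ω * L) := by
    calc |∑ J ∈ F.powersetCard s, T J| ≤ ∑ J ∈ F.powersetCard s, |T J| :=
          Finset.abs_sum_le_sum_abs _ _
      _ ≤ ∑ _J ∈ F.powersetCard s, ω * L := Finset.sum_le_sum hTbound
      _ = a * (ω * L) := by rw [Finset.sum_const, nsmul_eq_mul, ha]
  rw [← hb, ← ha]
  have key : (∑ J' ∈ (insert x (insert y F)).powersetCard (s + 1), g' J') / b
      - (∑ J ∈ F.powersetCard s, g J) / a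
      = ((∑ J' ∈ (insert x (insert y F)).powersetCard (s + 1), g' J')
          - ω * ∑ J ∈ F.powersetCard s, g J) / b := by
    rw [hB]
    field_simp
  rw [key, hdiff, abs_div, abs_of_pos hbpos, div_le_iff₀ hbpos]
  calc |∑ J ∈ F.powersetCard s, T J| ≤ a * (ω * L) := hsum
    _ = L * b := by
        rw [hB]
        ring

end Vale.Agent.Lib.P335.Bip
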