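import Vale.Agent.Lib.P335.Bip.Defs

/-!
# P335 / bipartite core: transposing matrices exchanges the roles of rows and columns
-/

namespace Vale.Agent.Lib.P335.Bip

open Finset
open scoped Classical

variable {R C : Type*} [Fintype R] [Fintype C]

/-- The transpose of a matrix. -/
def tr (M : R → C → Bool) : C → R → Bool := fun j i => M i j

theorem rel_tr (S : Finset R) (T : Finset C) (M M' : R → C → Bool) :
    Rel T S (tr M) (tr M') ↔ Rel S T M M' := by
  unfold Rel
  constructor
  · rintro ⟨h1, h2, h3⟩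
    exact ⟨fun i j hij => h1 j i (fun h => hij ⟨h.2, h.1⟩), fun i => h3 i, fun j => h2 j⟩
  · rintro ⟨h1, h2, h3⟩
    exact ⟨fun j i hji => h1 i j (fun h => hji ⟨h.2, h.1⟩), fun j => h3 j, fun i => h2 i⟩

private theorem transpose_mem_cls (S : Finset R) (T : Finset C) (M : R → C → Bool)
    (N : C → R → Bool) : N ∈ cls T S (tr M) ↔ tr N ∈ cls S T M := by
  unfold cls
  rw [Finset.mem_filter, Finset.mem_filter]
  constructor
  · rintro ⟨_, h⟩
    exact ⟨Finset.mem_univ _, (rel_tr S T M (tr N)).mp h⟩
  · rintro ⟨_, h⟩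
    exact ⟨Finset.mem_univ _, (rel_tr S T M (tr N)).mpr h⟩

private theorem transpose_mem_cls' (S : Finset R) (T : Finset C) (M : R → C → Bool)
    (N : R → C → Bool) : N ∈ cls S T M ↔ tr N ∈ cls T S (tr M) :=
  (transpose_mem_cls S T M (tr N)).symm

theorem avg_tr (S : Finset R) (T : Finset C) (f : (R → C → Bool) → ℝ) (M : R → C → Bool) :
    avg T S (fun N : C → R → Bool => f (tr N)) (tr M) = avg S T f M := by
  unfold avg
  have hsum : ∑ M' ∈ cls T S (tr M), f (tr M') = ∑ M' ∈ cls S T M, f M' :=
    Finset.sum_nbij' (fun N : C → R → Bool => tr N) (fun N : R → C → Bool => tr N)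
      (fun N hN => (transpose_mem_cls S T M N).mp hN)
      (fun N hN => (transpose_mem_cls' S T M N).mp hN)
      (fun _ _ => rfl) (fun _ _ => rfl) (fun _ _ => rfl)
  have hcard : (cls T S (tr M)).card = (cls S T M).card :=
    Finset.card_nbij' (fun N : C → R → Bool => tr N) (fun N : R → C → Bool => tr N)
      (fun N hN => (transpose_mem_cls S T M N).mp hN)
      (fun N hN => (transpose_mem_cls' S T M N).mp hN)
      (fun _ _ => rfl) (fun _ _ => rfl)
  rw [hsum, hcard]

/-- Sums over all matrices are invariant under transposition. -/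
theorem sum_tr (F : (R → C → Bool) → ℝ) :
    ∑ N : C → R → Bool, F (tr N) = ∑ M : R → C → Bool, F M :=
  Fintype.sum_equiv
    ⟨fun N : C → R → Bool => tr N, fun N : R → C → Bool => tr N, fun _ => rfl, fun _ => rfl⟩
    _ _ (fun _ => rfl)

end Vale.Agent.Lib.P335.Bip
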