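import Vale.Agent.Lib.P335.Bip.RelBasic
import Vale.Agent.Lib.P335.Bip.AvMore
import Vale.Agent.Lib.P335.Bip.Rect
import Vale.Agent.Lib.P335.Bip.TripleGap
import Vale.Agent.Lib.P335.Bip.Gap
import Vale.Agent.Lib.P335.Bip.Knabe
import Vale.Agent.Lib.P335.Bip.Transpose

/-!
# P335 / bipartite core: the pair Poincare inequality (finite-size criterion) and its
consequences, from the three-row inequality and switch connectivity (taken as hypotheses here)
-/

namespace Vale.Agent.Lib.P335.Bip

open Finset
open scoped Classical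

/-- The three-row inequality, as a hypothesis on the pair of index types. -/
def ThreeRowHyp (R C : Type*) [Fintype R] [Fintype C] : Prop :=
  ∀ (t : Finset R), t.card = 3 → ∀ (T : Finset C) (f : (R → C → Bool) → ℝ),
    ∑ p ∈ t.powersetCard 2, ∑ M, f M * avg p T f M
      ≤ 2 * ∑ M, f M ^ 2 + ∑ M, f M * avg t T f M

/-- Switch connectivity of block classes, as a hypothesis on the pair of index types. -/
def ConnHyp (R C : Type*) [Fintype R] [Fintype C] : Prop :=
  ∀ (S : Finset R) (T : Finset C) (M M' : R → C → Bool),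
    Rel S T M M' → Relation.ReflTransGen (SwitchStep S T) M M'

/-- Sum of all products of a finite family of functions: the square of the sum. -/
private theorem pairPoincare_sq_sum {X : Type*} [Fintype X] {ι : Type*} (I : Finset ι)
    (P : ι → X → ℝ) :
    ∑ p ∈ I, ∑ q ∈ I, ∑ x, P p x * P q x = ∑ x, (∑ p ∈ I, P p x) ^ 2 := by
  have h1 : ∀ x, (∑ p ∈ I, P p x) ^ 2 = ∑ p ∈ I, ∑ q ∈ I, P p x * P q x := by
    intro x
    rw [sq, Finset.sum_mul_sum]
  calc ∑ p ∈ I, ∑ q ∈ I, ∑ x, P p x * P q x
      = ∑ p ∈ I, ∑ x, ∑ q ∈ I, P p x * P q x :=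
        Finset.sum_congr rfl (fun p _ => Finset.sum_comm)
    _ = ∑ x, ∑ p ∈ I, ∑ q ∈ I, P p x * P q x := Finset.sum_comm
    _ = ∑ x, (∑ p ∈ I, P p x) ^ 2 := Finset.sum_congr rfl (fun x _ => (h1 x).symm)

/-- For two commuting class averages the complementary projections have a nonnegative
cross term. -/
private theorem pairPoincare_cross {X : Type*} [Fintype X] {r s : X → X → Prop}
    (hr : Equivalence r) (hs : Equivalence s)
    (hcomm : ∀ f : X → ℝ, av r (av s f) = av s (av r f)) (a : X → ℝ) :
    0 ≤ ∑ x, (a x - av r a x) * (a x - av s a x) := by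
  have hEsb : av s (fun x => a x - av s a x) = fun _ => 0 := by
    rw [av_sub s a (av s a), av_av hs a]
    funext x
    exact sub_self _
  have hz : ∀ g : X → ℝ, ∑ x, av s g x * (a x - av s a x) = 0 := by
    intro g
    rw [← sum_mul_av hs g (fun x => a x - av s a x), hEsb]
    simp
  have hErb : av r (fun x => a x - av s a x) = fun x => av r a x - av s (av r a) x := by
    rw [av_sub r a (av s a), hcomm a]
  have key : ∑ x, (a x - av r a x) * (a x - av s a x)
      = ∑ x, ((a x - av s a x) - av r (fun y => a y - av s a y) x) ^ 2 := by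
    rw [sum_sub_av_sq hr (fun x => a x - av s a x), hErb]
    have e1 : ∑ x, (a x - av s a x) ^ 2
        = ∑ x, a x * (a x - av s a x) - ∑ x, av s a x * (a x - av s a x) := by
      rw [← Finset.sum_sub_distrib]
      exact Finset.sum_congr rfl (fun x _ => by ring)
    have e2 : ∑ x, (a x - av s a x) * (av r a x - av s (av r a) x)
        = ∑ x, av r a x * (a x - av s a x) - ∑ x, av s (av r a) x * (a x - av s a x) := by
      rw [← Finset.sum_sub_distrib]
      exact Finset.sum_congr rfl (fun x _ => by ring)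
    have e3 : ∑ x, (a x - av r a x) * (a x - av s a x)
        = ∑ x, a x * (a x - av s a x) - ∑ x, av r a x * (a x - av s a x) := by
      rw [← Finset.sum_sub_distrib]
      exact Finset.sum_congr rfl (fun x _ => by ring)
    rw [e1, e2, e3, hz a, hz (av r a)]
    ring
  rw [key]
  exact Finset.sum_nonneg (fun x _ => sq_nonneg _)

variable {R C : Type*} [Fintype R] [Fintype C]

/-- I3 (from I1 and I2). -/
theorem pair_poincare_of (h3 : ThreeRowHyp R C) (hc : ConnHyp R C)
    (S : Finset R) (T : Finset C) (f : (R → C → Bool) → ℝ) :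
    ∑ M, (f M - avg S T f M) ^ 2
      ≤ ∑ p ∈ S.powersetCard 2, ∑ M, (f M - avg p T f M) ^ 2 := by
  -- the local operator
  let H : ((R → C → Bool) → ℝ) →ₗ[ℝ] ((R → C → Bool) → ℝ) :=
    ∑ p ∈ S.powersetCard 2, (LinearMap.id - avL (Rel p T))
  have hH : ∀ (a : (R → C → Bool) → ℝ) (M : R → C → Bool),
      H a M = ∑ p ∈ S.powersetCard 2, (a M - av (Rel p T) a M) := by
    intro a M
    simp only [H, LinearMap.sum_apply, Finset.sum_apply, LinearMap.sub_apply,
      LinearMap.id_apply, avL_apply, Pi.sub_apply]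
  have hE : ∀ p : Finset R, Equivalence (Rel p T) := fun p => rel_equivalence p T
  have K1 : ∀ a : (R → C → Bool) → ℝ, ∑ M, a M * H a M
      = ∑ p ∈ S.powersetCard 2, ∑ M, (a M - av (Rel p T) a M) ^ 2 := by
    intro a
    calc ∑ M, a M * H a M
        = ∑ M, ∑ p ∈ S.powersetCard 2, a M * (a M - av (Rel p T) a M) := by
          refine Finset.sum_congr rfl (fun M _ => ?_)
          rw [hH, Finset.mul_sum]
      _ = ∑ p ∈ S.powersetCard 2, ∑ M, a M * (a M - av (Rel p T) a M) := Finset.sum_comm
      _ = ∑ p ∈ S.powersetCard 2, ∑ M, (a M - av (Rel p T) a M) ^ 2 := by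
          refine Finset.sum_congr rfl (fun p _ => ?_)
          rw [sum_sub_av_sq (hE p) a, ← Finset.sum_sub_distrib]
          exact Finset.sum_congr rfl (fun M _ => by ring)
  have hsymm : ∀ a b : (R → C → Bool) → ℝ, ∑ M, H a M * b M = ∑ M, a M * H b M := by
    intro a b
    calc ∑ M, H a M * b M
        = ∑ M, ∑ p ∈ S.powersetCard 2, (a M * b M - av (Rel p T) a M * b M) := by
          refine Finset.sum_congr rfl (fun M _ => ?_)
          rw [hH, Finset.sum_mul]
          exact Finset.sum_congr rfl (fun p _ => by ring)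
      _ = ∑ p ∈ S.powersetCard 2, ∑ M, (a M * b M - av (Rel p T) a M * b M) := Finset.sum_comm
      _ = ∑ p ∈ S.powersetCard 2, ∑ M, (a M * b M - a M * av (Rel p T) b M) := by
          refine Finset.sum_congr rfl (fun p _ => ?_)
          rw [Finset.sum_sub_distrib, Finset.sum_sub_distrib, sum_mul_av (hE p) a b]
      _ = ∑ M, ∑ p ∈ S.powersetCard 2, (a M * b M - a M * av (Rel p T) b M) := Finset.sum_comm
      _ = ∑ M, a M * H b M := by
          refine Finset.sum_congr rfl (fun M _ => ?_)
          rw [hH, Finset.mul_sum]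
          exact Finset.sum_congr rfl (fun p _ => by ring)
  have hpsd : ∀ a : (R → C → Bool) → ℝ, 0 ≤ ∑ M, a M * H a M := by
    intro a
    rw [K1]
    exact Finset.sum_nonneg (fun p _ => Finset.sum_nonneg (fun M _ => sq_nonneg _))
  have hav : ∀ a : (R → C → Bool) → ℝ, H (av (Rel S T) a) = 0 := by
    intro a
    funext M
    rw [hH]
    apply Finset.sum_eq_zero
    intro p hp
    have hpS : p ⊆ S := (Finset.mem_powersetCard.mp hp).1
    rw [av_coarse' (hE p) (rel_equivalence S T)
      (fun x y h => rel_mono hpS (Finset.Subset.refl T) h) a]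
    exact sub_self _
  have hker : ∀ a : (R → C → Bool) → ℝ, H a = 0 → av (Rel S T) a = a := by
    intro a ha
    have h0 : ∑ p ∈ S.powersetCard 2, ∑ M, (a M - av (Rel p T) a M) ^ 2 = 0 := by
      rw [← K1, ha]
      simp
    have h1 : ∀ p ∈ S.powersetCard 2, ∀ M, av (Rel p T) a M = a M := by
      intro p hp M
      have h2 := (Finset.sum_eq_zero_iff_of_nonneg
        (fun p _ => Finset.sum_nonneg (fun M _ => sq_nonneg (a M - av (Rel p T) a M)))).mp
        h0 p hp
      have h4 := (Finset.sum_eq_zero_iff_of_nonneg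
        (fun M _ => sq_nonneg (a M - av (Rel p T) a M))).mp h2 M (Finset.mem_univ M)
      have h5 : a M - av (Rel p T) a M = 0 := by
        rcases sq_eq_zero_iff.mp h4 with h6
        exact h6
      linarith
    have hstep : ∀ M M', SwitchStep S T M M' → a M = a M' := by
      intro M M' hs
      obtain ⟨p, hp, hrel⟩ := switchStep_rel_pair hs
      rw [← h1 p hp M, ← h1 p hp M']
      exact av_congr_of_rel (hE p) a hrel
    have hinv : ∀ M M', Rel S T M M' → a M = a M' := by
      intro M M' hrel
      have hpath := hc S T M M' hrel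
      clear hrel
      induction hpath with
      | refl => rfl
      | tail _ hlast ih => exact ih.trans (hstep _ _ hlast)
    exact av_of_invariant (rel_equivalence S T) hinv
  have hsq : ∀ a : (R → C → Bool) → ℝ, ∑ M, a M * H a M ≤ ∑ M, H a M ^ 2 := by
    intro a
    have hdisj : ∀ p ∈ S.powersetCard 2, ∀ q ∈ S.powersetCard 2, Disjoint p q →
        0 ≤ ∑ M, (a M - av (Rel p T) a M) * (a M - av (Rel q T) a M) := by
      intro p _ q _ hpq
      exact pairPoincare_cross (hE p) (hE q)
        (fun g => av_comm_of_rect (hE p) (hE q) (rel_rect p q hpq T) g) a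
    have htri : ∀ t ∈ S.powersetCard 3,
        ∑ p ∈ t.powersetCard 2, ∑ M, (a M - av (Rel p T) a M) * (a M - av (Rel p T) a M)
          ≤ ∑ p ∈ t.powersetCard 2, ∑ q ∈ t.powersetCard 2,
              ∑ M, (a M - av (Rel p T) a M) * (a M - av (Rel q T) a M) := by
      intro t ht
      have htc : t.card = 3 := (Finset.mem_powersetCard.mp ht).2
      have h32 : Nat.choose 3 2 = 3 := by decide
      have hcard : ((t.powersetCard 2).card : ℝ) - 1 = 2 := by
        rw [Finset.card_powersetCard, htc, h32]
        norm_num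
      have htg := triple_gap (t.powersetCard 2) (fun p => Rel p T) (Rel t T)
        (fun p _ => hE p) (rel_equivalence t T)
        (fun p hp x y h => rel_mono (Finset.mem_powersetCard.mp hp).1 (Finset.Subset.refl T) h)
        (fun g => by
          rw [hcard]
          exact h3 t htc T g)
        a
      rw [pairPoincare_sq_sum (t.powersetCard 2) (fun p M => a M - av (Rel p T) a M)]
      refine le_trans (le_of_eq ?_) htg
      exact Finset.sum_congr rfl (fun p _ => Finset.sum_congr rfl (fun M _ => (sq _).symm))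
    have hk := knabe_sum S
      (fun p q => ∑ M, (a M - av (Rel p T) a M) * (a M - av (Rel q T) a M)) hdisj htri
    have e1 : ∑ p ∈ S.powersetCard 2,
        ∑ M, (a M - av (Rel p T) a M) * (a M - av (Rel p T) a M) = ∑ M, a M * H a M := by
      rw [K1]
      exact Finset.sum_congr rfl (fun p _ => Finset.sum_congr rfl (fun M _ => (sq _).symm))
    have e2 : ∑ p ∈ S.powersetCard 2, ∑ q ∈ S.powersetCard 2,
        ∑ M, (a M - av (Rel p T) a M) * (a M - av (Rel q T) a M) = ∑ M, H a M ^ 2 := by
      rw [pairPoincare_sq_sum (S.powersetCard 2) (fun p M => a M - av (Rel p T) a M)]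
      exact Finset.sum_congr rfl (fun M _ => by rw [hH])
    rw [← e1, ← e2]
    exact hk
  have main := gap_of_sq_ge H (Rel S T) (rel_equivalence S T) hsymm hpsd hsq hker hav f
  rw [K1 f] at main
  exact main

/-- I4 (I3 for the transposed matrices). -/
theorem pair_poincare_col_of (h3 : ThreeRowHyp C R) (hc : ConnHyp C R)
    (S : Finset R) (T : Finset C) (f : (R → C → Bool) → ℝ) :
    ∑ M, (f M - avg S T f M) ^ 2
      ≤ ∑ q ∈ T.powersetCard 2, ∑ M, (f M - avg S q f M) ^ 2 := by
  have key := pair_poincare_of h3 hc T S (fun N : C → R → Bool => f (tr N))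
  have e1 : ∑ N : C → R → Bool,
      (f (tr N) - avg T S (fun N : C → R → Bool => f (tr N)) N) ^ 2
      = ∑ M : R → C → Bool, (f M - avg S T f M) ^ 2 := by
    rw [← sum_tr (fun M : R → C → Bool => (f M - avg S T f M) ^ 2)]
    refine Finset.sum_congr rfl (fun N _ => ?_)
    have h := avg_tr S T f (tr N)
    change avg T S (fun N : C → R → Bool => f (tr N)) N = avg S T f (tr N) at h
    rw [h]
  have e2 : ∀ q : Finset C, ∑ N : C → R → Bool,
      (f (tr N) - avg q S (fun N : C → R → Bool => f (tr N)) N) ^ 2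
      = ∑ M : R → C → Bool, (f M - avg S q f M) ^ 2 := by
    intro q
    rw [← sum_tr (fun M : R → C → Bool => (f M - avg S q f M) ^ 2)]
    refine Finset.sum_congr rfl (fun N _ => ?_)
    have h := avg_tr S q f (tr N)
    change avg q S (fun N : C → R → Bool => f (tr N)) N = avg S q f (tr N) at h
    rw [h]
  rw [e1] at key
  refine le_trans key (le_of_eq ?_)
  exact Finset.sum_congr rfl (fun q _ => e2 q)

/-- I5. -/
theorem switch_poincare_of (h3 : ThreeRowHyp R C) (hc : ConnHyp R C)
    (h3' : ThreeRowHyp C R) (hc' : ConnHyp C R)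
    (S : Finset R) (T : Finset C) (f : (R → C → Bool) → ℝ) :
    ∑ M, (f M - avg S T f M) ^ 2
      ≤ ∑ p ∈ S.powersetCard 2, ∑ q ∈ T.powersetCard 2, ∑ M, (f M - avg p q f M) ^ 2 := by
  refine (pair_poincare_of h3 hc S T f).trans ?_
  exact Finset.sum_le_sum (fun p _ => pair_poincare_col_of h3' hc' p T f)

end Vale.Agent.Lib.P335.Bip
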