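import Vale.Agent.Lib.P335.Bip.ThreeRow
import Vale.Agent.Lib.P335.Bip.Connect
import Vale.Agent.Lib.P335.Bip.PairPoincare

/-!
# P335 / bipartite core: the unconditional statements I1 -- I5

The switch graph on the 0/1 matrices with prescribed row and column sums (any margins) has
Poincare constant 2: `switch_poincare`.
-/

namespace Vale.Agent.Lib.P335.Bip

open Finset
open scoped Classical

variable {R C : Type*} [Fintype R] [Fintype C]

/-- I1: the three-row inequality. -/
theorem three_row (t : Finset R) (ht : t.card = 3) (T : Finset C)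
    (f : (R → C → Bool) → ℝ) :
    ∑ p ∈ t.powersetCard 2, ∑ M, f M * avg p T f M
      ≤ 2 * ∑ M, f M ^ 2 + ∑ M, f M * avg t T f M :=
  Three.three_row_of_connected t ht T (fun M M' h => switch_connected t T M M' h) f

theorem threeRowHyp (R C : Type*) [Fintype R] [Fintype C] : ThreeRowHyp R C :=
  fun t ht T f => three_row t ht T f

theorem connHyp (R C : Type*) [Fintype R] [Fintype C] : ConnHyp R C :=
  fun S T M M' h => switch_connected S T M M' h

/-- I3: the pair Poincare inequality for rows. -/
theorem pair_poincare (S : Finset R) (T : Finset C) (f : (R → C → Bool) → ℝ) :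
    ∑ M, (f M - avg S T f M) ^ 2
      ≤ ∑ p ∈ S.powersetCard 2, ∑ M, (f M - avg p T f M) ^ 2 :=
  pair_poincare_of (threeRowHyp R C) (connHyp R C) S T f

/-- I4: the pair Poincare inequality for columns. -/
theorem pair_poincare_col (S : Finset R) (T : Finset C) (f : (R → C → Bool) → ℝ) :
    ∑ M, (f M - avg S T f M) ^ 2
      ≤ ∑ q ∈ T.powersetCard 2, ∑ M, (f M - avg S q f M) ^ 2 :=
  pair_poincare_col_of (threeRowHyp C R) (connHyp C R) S T f

/-- I5 (THEOREM S): the variance inside a block class is at most the sum over all row pairs and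
column pairs of the variances inside the two-by-two block classes. -/
theorem switch_poincare (S : Finset R) (T : Finset C) (f : (R → C → Bool) → ℝ) :
    ∑ M, (f M - avg S T f M) ^ 2
      ≤ ∑ p ∈ S.powersetCard 2, ∑ q ∈ T.powersetCard 2, ∑ M, (f M - avg p q f M) ^ 2 :=
  switch_poincare_of (threeRowHyp R C) (connHyp R C) (threeRowHyp C R) (connHyp C R) S T f

end Vale.Agent.Lib.P335.Bip
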