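import Vale.Agent.Lib.P335.Bip.RelBasic
import Vale.Agent.Lib.P335.Bip.Averaging

/-!
# P335 / bipartite core: basic facts on `Rel`, `cls`, `avg`

`Rel S T` is an equivalence, monotone in the block (`rel_equivalence`, `rel_mono` from the
file `RelBasic`), and `avg S T f = ravg (Rel S T) f = av (Rel S T) f` by definition, so every
fact of the abstract averaging files specializes.
-/

namespace Vale.Agent.Lib.P335.Bip

open Finset
open scoped Classical

variable {R C : Type*} [Fintype R] [Fintype C]

/-! ### `Rel` is an equivalence -/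

theorem rel_refl (S : Finset R) (T : Finset C) (M : R → C → Bool) : Rel S T M M :=
  ⟨fun _ _ _ => rfl, fun _ => rfl, fun _ => rfl⟩

theorem rel_symm {S : Finset R} {T : Finset C} {M M' : R → C → Bool} (h : Rel S T M M') :
    Rel S T M' M :=
  ⟨fun i j hij => (h.1 i j hij).symm, fun i => (h.2.1 i).symm, fun j => (h.2.2 j).symm⟩

theorem rel_trans {S : Finset R} {T : Finset C} {M M' M'' : R → C → Bool}
    (h : Rel S T M M') (h' : Rel S T M' M'') : Rel S T M M'' :=
  ⟨fun i j hij => (h'.1 i j hij).trans (h.1 i j hij),
    fun i => (h'.2.1 i).trans (h.2.1 i), fun j => (h'.2.2 j).trans (h.2.2 j)⟩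

/-! ### Classes -/

theorem cls_eq_rcls (S : Finset R) (T : Finset C) (M : R → C → Bool) :
    cls S T M = rcls (Rel S T) M := rfl

theorem mem_cls {S : Finset R} {T : Finset C} {M M' : R → C → Bool} :
    M' ∈ cls S T M ↔ Rel S T M M' := by
  simp [cls]

theorem self_mem_cls (S : Finset R) (T : Finset C) (M : R → C → Bool) : M ∈ cls S T M :=
  mem_cls.2 (rel_refl S T M)

theorem cls_eq_of_rel {S : Finset R} {T : Finset C} {M M' : R → C → Bool}
    (h : Rel S T M M') : cls S T M' = cls S T M :=
  rcls_eq_of_rel (rel_equivalence S T) h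

theorem cls_card_pos (S : Finset R) (T : Finset C) (M : R → C → Bool) :
    0 < (cls S T M).card :=
  rcls_card_pos (rel_equivalence S T) M

theorem cls_card_ne_zero (S : Finset R) (T : Finset C) (M : R → C → Bool) :
    ((cls S T M).card : ℝ) ≠ 0 :=
  rcls_card_ne_zero (rel_equivalence S T) M

/-! ### Averages -/

theorem avg_eq_ravg (S : Finset R) (T : Finset C) (f : (R → C → Bool) → ℝ) :
    avg S T f = ravg (Rel S T) f := rfl

/-- The two abstract class averages are the same function. -/
theorem ravg_eq_av {X : Type*} [Fintype X] (r : X → X → Prop) (f : X → ℝ) :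
    ravg r f = av r f := rfl

/-- The average is constant on classes. -/
theorem avg_congr_of_rel {S : Finset R} {T : Finset C} {M M' : R → C → Bool}
    (h : Rel S T M M') (f : (R → C → Bool) → ℝ) : avg S T f M' = avg S T f M :=
  ravg_congr (rel_equivalence S T) f h

theorem avg_add (S : Finset R) (T : Finset C) (f g : (R → C → Bool) → ℝ) :
    avg S T (f + g) = avg S T f + avg S T g := ravg_add _ f g

theorem avg_sub (S : Finset R) (T : Finset C) (f g : (R → C → Bool) → ℝ) :
    avg S T (f - g) = avg S T f - avg S T g := ravg_sub _ f g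

theorem avg_neg (S : Finset R) (T : Finset C) (f : (R → C → Bool) → ℝ) :
    avg S T (-f) = -avg S T f := ravg_neg _ f

theorem avg_zero (S : Finset R) (T : Finset C) :
    avg S T (0 : (R → C → Bool) → ℝ) = 0 := ravg_zero _

theorem avg_smul (S : Finset R) (T : Finset C) (c : ℝ) (f : (R → C → Bool) → ℝ) :
    avg S T (c • f) = c • avg S T f := ravg_smul _ c f

theorem avg_const_mul (S : Finset R) (T : Finset C) (c : ℝ) (f : (R → C → Bool) → ℝ) :
    avg S T (fun M => c * f M) = fun M => c * avg S T f M := ravg_const_mul _ c f

theorem avg_finset_sum (S : Finset R) (T : Finset C) {ι : Type*} (s : Finset ι)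
    (F : ι → (R → C → Bool) → ℝ) : avg S T (∑ i ∈ s, F i) = ∑ i ∈ s, avg S T (F i) :=
  ravg_finset_sum _ s F

/-- The block average as a linear map. -/
noncomputable def avgLin (S : Finset R) (T : Finset C) :
    ((R → C → Bool) → ℝ) →ₗ[ℝ] ((R → C → Bool) → ℝ) :=
  ravgLin (Rel S T)

@[simp] theorem avgLin_apply (S : Finset R) (T : Finset C) (f : (R → C → Bool) → ℝ) :
    avgLin S T f = avg S T f := rfl

/-- A function constant on classes is fixed by the average. -/
theorem avg_of_invariant (S : Finset R) (T : Finset C) {g : (R → C → Bool) → ℝ}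
    (hg : ∀ M M', Rel S T M M' → g M = g M') : avg S T g = g :=
  ravg_of_invariant (rel_equivalence S T) hg

/-- A class-invariant factor can be pulled out of the average. -/
theorem avg_mul_of_invariant (S : Finset R) (T : Finset C) {g : (R → C → Bool) → ℝ}
    (hg : ∀ M M', Rel S T M M' → g M = g M') (f : (R → C → Bool) → ℝ) :
    avg S T (fun M => g M * f M) = fun M => g M * avg S T f M :=
  ravg_mul_of_invariant (rel_equivalence S T) hg f

theorem avg_invariant (S : Finset R) (T : Finset C) (f : (R → C → Bool) → ℝ) :
    ∀ M M', Rel S T M M' → avg S T f M = avg S T f M' :=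
  ravg_invariant (rel_equivalence S T) f

theorem avg_idem (S : Finset R) (T : Finset C) (f : (R → C → Bool) → ℝ) :
    avg S T (avg S T f) = avg S T f :=
  ravg_idem (rel_equivalence S T) f

theorem avg_eq_self_iff (S : Finset R) (T : Finset C) (f : (R → C → Bool) → ℝ) :
    avg S T f = f ↔ ∀ M M', Rel S T M M' → f M = f M' :=
  ravg_eq_self_iff (rel_equivalence S T) f

/-- Symmetry of the average for the inner product `∑ M, a M * b M`. -/
theorem avg_symm (S : Finset R) (T : Finset C) (f g : (R → C → Bool) → ℝ) :
    ∑ M, avg S T f M * g M = ∑ M, f M * avg S T g M :=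
  ravg_symm (rel_equivalence S T) f g

theorem sum_avg (S : Finset R) (T : Finset C) (f : (R → C → Bool) → ℝ) :
    ∑ M, avg S T f M = ∑ M, f M :=
  sum_ravg (rel_equivalence S T) f

/-- Averaging preserves sums over a class-invariant set. -/
theorem sum_filter_avg (S : Finset R) (T : Finset C) (P : (R → C → Bool) → Prop)
    (hP : ∀ M M', Rel S T M M' → (P M ↔ P M')) (f : (R → C → Bool) → ℝ) :
    ∑ M ∈ univ.filter P, avg S T f M = ∑ M ∈ univ.filter P, f M :=
  sum_filter_ravg (rel_equivalence S T) P hP f

/-- Jensen. -/
theorem avg_sq_le (S : Finset R) (T : Finset C) (f : (R → C → Bool) → ℝ)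
    (M : R → C → Bool) : (avg S T f M) ^ 2 ≤ avg S T (fun N => f N ^ 2) M :=
  ravg_sq_le (rel_equivalence S T) f M

/-- Tower: a smaller block average is absorbed by a larger one (small outside). -/
theorem avg_avg_of_subset {S S' : Finset R} {T T' : Finset C} (hS : S ⊆ S') (hT : T ⊆ T')
    (f : (R → C → Bool) → ℝ) : avg S T (avg S' T' f) = avg S' T' f :=
  ravg_ravg_of_le (rel_equivalence S T) (rel_equivalence S' T')
    (fun _ _ h => rel_mono hS hT h) f

/-- Tower: a smaller block average is absorbed by a larger one (small inside). -/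
theorem avg_avg_of_subset' {S S' : Finset R} {T T' : Finset C} (hS : S ⊆ S') (hT : T ⊆ T')
    (f : (R → C → Bool) → ℝ) : avg S' T' (avg S T f) = avg S' T' f :=
  ravg_ravg_of_le' (rel_equivalence S T) (rel_equivalence S' T')
    (fun _ _ h => rel_mono hS hT h) f

theorem sum_mul_avg_self (S : Finset R) (T : Finset C) (f : (R → C → Bool) → ℝ) :
    ∑ M, f M * avg S T f M = ∑ M, (avg S T f M) ^ 2 :=
  sum_mul_ravg_self (rel_equivalence S T) f

theorem sum_mul_sub_avg (S : Finset R) (T : Finset C) (f : (R → C → Bool) → ℝ) :
    ∑ M, f M * (f M - avg S T f M) = ∑ M, (f M - avg S T f M) ^ 2 :=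
  sum_mul_sub_ravg (rel_equivalence S T) f

theorem sum_avg_sq_le (S : Finset R) (T : Finset C) (f : (R → C → Bool) → ℝ) :
    ∑ M, (avg S T f M) ^ 2 ≤ ∑ M, f M ^ 2 :=
  sum_ravg_sq_le (rel_equivalence S T) f

/-- Transport along an involution that preserves the relation. -/
theorem avg_comp_of_involutive (S : Finset R) (T : Finset C)
    (τ : (R → C → Bool) → (R → C → Bool)) (hτ : Function.Involutive τ)
    (h : ∀ M M', Rel S T M M' → Rel S T (τ M) (τ M')) (f : (R → C → Bool) → ℝ)
    (M : R → C → Bool) : avg S T (fun N => f (τ N)) M = avg S T f (τ M) :=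
  ravg_comp_of_involutive (Rel S T) τ hτ h f M

/-- Transport along a bijection that preserves and reflects the relation. -/
theorem avg_comp_of_bijective (S : Finset R) (T : Finset C)
    (τ : (R → C → Bool) → (R → C → Bool)) (hτ : Function.Bijective τ)
    (h : ∀ M M', Rel S T M M' ↔ Rel S T (τ M) (τ M')) (f : (R → C → Bool) → ℝ)
    (M : R → C → Bool) : avg S T (fun N => f (τ N)) M = avg S T f (τ M) :=
  ravg_comp_of_bijective (Rel S T) τ hτ h f M

/-! ### K1: disjoint row blocks commute -/

omit [Fintype R] in
/-- Row sums only depend on the row. -/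
theorem rowSum_congr {M M' : R → C → Bool} {i : R} (h : ∀ j, M i j = M' i j) :
    rowSum M i = rowSum M' i := by
  unfold rowSum
  congr 1
  ext j
  simp [h j]

omit [Fintype C] in
/-- Column sums split along a set of rows. -/
theorem colSum_split (p : Finset R) (M : R → C → Bool) (j : C) :
    colSum M j = (p.filter (fun i => M i j = true)).card
      + (pᶜ.filter (fun i => M i j = true)).card := by
  unfold colSum
  rw [← Finset.card_union_of_disjoint]
  · congr 1
    ext i
    simp only [mem_filter, mem_univ, true_and, mem_union, mem_compl]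
    tauto
  · rw [Finset.disjoint_left]
    intro i hi hi'
    simp only [mem_filter, mem_compl] at hi hi'
    exact hi'.1 hi.1

/-- The rectangle property for two disjoint row blocks. -/
theorem rel_rectangle_of_disjoint (p q : Finset R) (hpq : Disjoint p q) (T : Finset C)
    (x y z : R → C → Bool) (hxy : Rel p T x y) (hxz : Rel q T x z) :
    ∃! w, Rel q T y w ∧ Rel p T z w := by
  have hnq : ∀ i, i ∈ p → i ∉ q := fun i hi => Finset.disjoint_left.1 hpq hi
  -- `y = x` on rows outside `p`, `z = x` on rows of `p`
  have hyx : ∀ i, i ∉ p → ∀ j, y i j = x i j := fun i hi j => hxy.1 i j (fun hh => hi hh.1)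
  have hzx : ∀ i, i ∈ p → ∀ j, z i j = x i j :=
    fun i hi j => hxz.1 i j (fun hh => hnq i hi hh.1)
  -- the four restricted column counts
  have hA : ∀ j, (pᶜ.filter (fun i => y i j = true)).card
      = (pᶜ.filter (fun i => x i j = true)).card := by
    intro j
    congr 1
    refine Finset.filter_congr (fun i hi => ?_)
    rw [hyx i (Finset.mem_compl.1 hi) j]
  have hB : ∀ j, (p.filter (fun i => z i j = true)).card
      = (p.filter (fun i => x i j = true)).card := by
    intro j
    congr 1
    refine Finset.filter_congr (fun i hi => ?_)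
    rw [hzx i hi j]
  have hC : ∀ j, (p.filter (fun i => y i j = true)).card
      + (pᶜ.filter (fun i => y i j = true)).card
      = (p.filter (fun i => x i j = true)).card + (pᶜ.filter (fun i => x i j = true)).card := by
    intro j
    rw [← colSum_split p y j, ← colSum_split p x j]
    exact hxy.2.2 j
  have hD : ∀ j, (p.filter (fun i => z i j = true)).card
      + (pᶜ.filter (fun i => z i j = true)).card
      = (p.filter (fun i => x i j = true)).card + (pᶜ.filter (fun i => x i j = true)).card := by
    intro j
    rw [← colSum_split p z j, ← colSum_split p x j]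
    exact hxz.2.2 j
  set w : R → C → Bool := fun i j => if i ∈ p then y i j else z i j with hw
  have hwp : ∀ j, (p.filter (fun i => w i j = true)).card
      = (p.filter (fun i => y i j = true)).card := by
    intro j
    congr 1
    refine Finset.filter_congr (fun i hi => ?_)
    simp only [hw, if_pos hi]
  have hwc : ∀ j, (pᶜ.filter (fun i => w i j = true)).card
      = (pᶜ.filter (fun i => z i j = true)).card := by
    intro j
    congr 1
    refine Finset.filter_congr (fun i hi => ?_)
    simp only [hw, if_neg (Finset.mem_compl.1 hi)]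
  refine ⟨w, ⟨⟨?_, ?_, ?_⟩, ⟨?_, ?_, ?_⟩⟩, ?_⟩
  · -- `w = y` outside `q × T`
    intro i j hij
    by_cases hi : i ∈ p
    · simp only [hw, if_pos hi]
    · simp only [hw, if_neg hi]
      rw [hxz.1 i j hij, hyx i hi j]
  · intro i
    by_cases hi : i ∈ p
    · exact rowSum_congr (fun j => by simp only [hw, if_pos hi])
    · have h1 : rowSum w i = rowSum z i :=
        rowSum_congr (fun j => by simp only [hw, if_neg hi])
      rw [h1, hxz.2.1 i, hxy.2.1 i]
  · intro j
    rw [colSum_split p w j, colSum_split p y j, hwp j, hwc j]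
    have := hA j
    have := hB j
    have := hC j
    have := hD j
    omega
  · -- `w = z` outside `p × T`
    intro i j hij
    by_cases hi : i ∈ p
    · simp only [hw, if_pos hi]
      rw [hxy.1 i j hij, hzx i hi j]
    · simp only [hw, if_neg hi]
  · intro i
    by_cases hi : i ∈ p
    · have h1 : rowSum w i = rowSum y i :=
        rowSum_congr (fun j => by simp only [hw, if_pos hi])
      rw [h1, hxy.2.1 i, hxz.2.1 i]
    · exact rowSum_congr (fun j => by simp only [hw, if_neg hi])
  · intro j
    rw [colSum_split p w j, colSum_split p z j, hwp j, hwc j]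
    have := hA j
    have := hB j
    have := hC j
    have := hD j
    omega
  · -- uniqueness
    rintro w' ⟨h1, h2⟩
    funext i j
    by_cases hi : i ∈ p
    · simp only [hw, if_pos hi]
      exact h1.1 i j (fun hh => hnq i hi hh.1)
    · simp only [hw, if_neg hi]
      exact h2.1 i j (fun hh => hi hh.1)

/-- K1: averages over disjoint row blocks (same columns) commute. -/
theorem avg_comm_of_disjoint (p q : Finset R) (hpq : Disjoint p q) (T : Finset C)
    (f : (R → C → Bool) → ℝ) : avg p T (avg q T f) = avg q T (avg p T f) :=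
  ravg_comm_of_rectangle (rel_equivalence p T) (rel_equivalence q T)
    (rel_rectangle_of_disjoint p q hpq T) f

/-- K1 consequence: for disjoint row blocks the complementary projections have a
nonnegative inner product. -/
theorem sum_sub_avg_mul_sub_avg_nonneg (p q : Finset R) (hpq : Disjoint p q) (T : Finset C)
    (f : (R → C → Bool) → ℝ) :
    0 ≤ ∑ M, (f M - avg p T f M) * (f M - avg q T f M) :=
  sum_sub_ravg_mul_sub_ravg_nonneg (rel_equivalence p T) (rel_equivalence q T)
    (fun g => avg_comm_of_disjoint p q hpq T g) f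

end Vale.Agent.Lib.P335.Bip
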