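import Vale.Agent.Lib.P335.Bip.Defs
import Vale.Agent.Lib.P335.Bip.Av

/-!
# P335 / bipartite core: basic facts on the block relation `Rel S T`
-/

namespace Vale.Agent.Lib.P335.Bip

open Finset
open scoped Classical

variable {R C : Type*} [Fintype R] [Fintype C]

theorem rel_equivalence (S : Finset R) (T : Finset C) : Equivalence (Rel S T) := by
  refine ⟨fun M => ⟨fun _ _ _ => rfl, fun _ => rfl, fun _ => rfl⟩, ?_, ?_⟩
  · intro M M' h
    exact ⟨fun i j hij => (h.1 i j hij).symm, fun i => (h.2.1 i).symm, fun j => (h.2.2 j).symm⟩
  · intro M M' M'' h1 h2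
    exact ⟨fun i j hij => (h2.1 i j hij).trans (h1.1 i j hij),
      fun i => (h2.2.1 i).trans (h1.2.1 i), fun j => (h2.2.2 j).trans (h1.2.2 j)⟩

theorem rel_mono {S S' : Finset R} {T T' : Finset C} (hS : S ⊆ S') (hT : T ⊆ T')
    {M M' : R → C → Bool} (h : Rel S T M M') : Rel S' T' M M' :=
  ⟨fun i j hij => h.1 i j (fun hc => hij ⟨hS hc.1, hT hc.2⟩), h.2.1, h.2.2⟩

/-- The block average is the class average of the block relation. -/
theorem avg_eq_av (S : Finset R) (T : Finset C) (f : (R → C → Bool) → ℝ) :
    avg S T f = av (Rel S T) f := rfl

/-- Counting the true values of a Boolean function is invariant under a bijection. -/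
private lemma relBasic_card_filter_equiv {α : Type*} [Fintype α] (e : α ≃ α) (f : α → Bool) :
    (univ.filter (fun a => f (e a) = true)).card = (univ.filter (fun a => f a = true)).card := by
  refine Finset.card_bij (fun a _ => e a) ?_ ?_ ?_
  · intro a ha
    simpa using ha
  · intro a _ b _ h
    exact e.injective h
  · intro b hb
    refine ⟨e.symm b, ?_, ?_⟩
    · simpa using hb
    · simp

omit [Fintype R] [Fintype C] in
/-- On the two switched rows the switch permutes the two columns. -/
private lemma relBasic_switch_row {M : R → C → Bool} {i i' : R} {x y : C} (hi : i ≠ i')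
    (hx : x ≠ y) (h1 : M i x = true) (h2 : M i' x = false) (h3 : M i y = false)
    (h4 : M i' y = true) (a : R) (b : C) :
    switchMat M i i' x y a b = if a = i ∨ a = i' then M a (Equiv.swap x y b) else M a b := by
  unfold switchMat
  by_cases ha : a = i
  · subst ha
    by_cases hb : b = x
    · subst hb
      simp [h3]
    · by_cases hb' : b = y
      · subst hb'
        simp [hb, h1]
      · simp [hb, hb', Equiv.swap_apply_of_ne_of_ne hb hb']
  · by_cases ha' : a = i'
    · subst ha'
      by_cases hb : b = x
      · subst hb
        simp [ha, h4]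
      · by_cases hb' : b = y
        · subst hb'
          simp [ha, hb, h2]
        · simp [ha, hb, hb', Equiv.swap_apply_of_ne_of_ne hb hb']
    · simp [ha, ha']

omit [Fintype R] [Fintype C] in
/-- On the two switched columns the switch permutes the two rows. -/
private lemma relBasic_switch_col {M : R → C → Bool} {i i' : R} {x y : C} (hi : i ≠ i')
    (hx : x ≠ y) (h1 : M i x = true) (h2 : M i' x = false) (h3 : M i y = false)
    (h4 : M i' y = true) (a : R) (b : C) :
    switchMat M i i' x y a b = if b = x ∨ b = y then M (Equiv.swap i i' a) b else M a b := by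
  unfold switchMat
  by_cases hb : b = x
  · subst hb
    by_cases ha : a = i
    · subst ha
      simp [h2]
    · by_cases ha' : a = i'
      · subst ha'
        simp [ha, h1]
      · simp [ha, ha', Equiv.swap_apply_of_ne_of_ne ha ha']
  · by_cases hb' : b = y
    · subst hb'
      by_cases ha : a = i
      · subst ha
        simp [hb, h4]
      · by_cases ha' : a = i'
        · subst ha'
          simp [ha, hb, h3]
        · simp [ha, ha', hb, Equiv.swap_apply_of_ne_of_ne ha ha']
    · simp [hb, hb']

/-- A switch on rows `i, i'` and columns `x, y` stays in the class of the block `{i, i'} × {x, y}`. -/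
theorem rel_switchMat {M : R → C → Bool} {i i' : R} {x y : C} (hi : i ≠ i') (hx : x ≠ y)
    (h1 : M i x = true) (h2 : M i' x = false) (h3 : M i y = false) (h4 : M i' y = true) :
    Rel {i, i'} {x, y} M (switchMat M i i' x y) := by
  refine ⟨?_, ?_, ?_⟩
  · intro a b hab
    rw [relBasic_switch_row hi hx h1 h2 h3 h4 a b]
    by_cases ha : a = i ∨ a = i'
    · rw [if_pos ha]
      have hb : ¬ (b = x ∨ b = y) := by
        intro hb
        apply hab
        simp only [Finset.mem_insert, Finset.mem_singleton]
        exact ⟨ha, hb⟩
      push Not at hb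
      rw [Equiv.swap_apply_of_ne_of_ne hb.1 hb.2]
    · rw [if_neg ha]
  · intro a
    unfold rowSum
    by_cases ha : a = i ∨ a = i'
    · have hrow : ∀ b, switchMat M i i' x y a b = M a (Equiv.swap x y b) := by
        intro b
        rw [relBasic_switch_row hi hx h1 h2 h3 h4 a b, if_pos ha]
      simp only [hrow]
      exact relBasic_card_filter_equiv (Equiv.swap x y) (fun b => M a b)
    · have hrow : ∀ b, switchMat M i i' x y a b = M a b := by
        intro b
        rw [relBasic_switch_row hi hx h1 h2 h3 h4 a b, if_neg ha]
      simp only [hrow]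
  · intro b
    unfold colSum
    by_cases hb : b = x ∨ b = y
    · have hcol : ∀ a, switchMat M i i' x y a b = M (Equiv.swap i i' a) b := by
        intro a
        rw [relBasic_switch_col hi hx h1 h2 h3 h4 a b, if_pos hb]
      simp only [hcol]
      exact relBasic_card_filter_equiv (Equiv.swap i i') (fun a => M a b)
    · have hcol : ∀ a, switchMat M i i' x y a b = M a b := by
        intro a
        rw [relBasic_switch_col hi hx h1 h2 h3 h4 a b, if_neg hb]
      simp only [hcol]

/-- A switch step inside `S × T` stays in the class of a row pair of `S`. -/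
theorem switchStep_rel_pair {S : Finset R} {T : Finset C} {M M' : R → C → Bool}
    (h : SwitchStep S T M M') : ∃ p ∈ S.powersetCard 2, Rel p T M M' := by
  obtain ⟨i, hi, i', hi', x, hx, y, hy, hne, hxy, h1, h2, h3, h4, rfl⟩ := h
  refine ⟨{i, i'}, ?_, ?_⟩
  · rw [Finset.mem_powersetCard]
    refine ⟨?_, Finset.card_pair hne⟩
    intro a ha
    rw [Finset.mem_insert, Finset.mem_singleton] at ha
    rcases ha with rfl | rfl
    · exact hi
    · exact hi'
  · refine rel_mono (Finset.Subset.refl _) ?_ (rel_switchMat hne hxy h1 h2 h3 h4)
    intro b hb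
    rw [Finset.mem_insert, Finset.mem_singleton] at hb
    rcases hb with rfl | rfl
    · exact hx
    · exact hy

/-- One half of the rectangle property: replacing the `q`-rows of `y` by those of `z`. -/
private lemma relBasic_rect_aux (p q : Finset R) (hpq : Disjoint p q) (T : Finset C)
    (x y z : R → C → Bool) (hxy : Rel p T x y) (hxz : Rel q T x z) :
    Rel q T y (fun a b => if a ∈ q then z a b else y a b) := by
  have hyx : ∀ a, a ∈ q → ∀ b, y a b = x a b := fun a ha b =>
    hxy.1 a b (fun hc => (Finset.disjoint_left.mp hpq hc.1) ha)
  refine ⟨?_, ?_, ?_⟩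
  · intro a b hab
    by_cases ha : a ∈ q
    · simp only [ha, if_true]
      rw [hxz.1 a b hab, hyx a ha b]
    · simp only [ha, if_false]
  · intro a
    by_cases ha : a ∈ q
    · have h1 : rowSum (fun a b => if a ∈ q then z a b else y a b) a = rowSum z a := by
        unfold rowSum
        simp only [ha, if_true]
      have h2 : rowSum y a = rowSum x a := hxy.2.1 a
      rw [h1, h2]
      exact hxz.2.1 a
    · unfold rowSum
      simp only [ha, if_false]
  · intro j
    have hterm : ∀ a : R,
        (if (if a ∈ q then z a j else y a j) = true then 1 else 0)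
            + (if x a j = true then 1 else 0)
          = (if z a j = true then 1 else 0) + (if y a j = true then (1 : ℕ) else 0) := by
      intro a
      by_cases ha : a ∈ q
      · simp only [ha, if_true]
        rw [hyx a ha j]
      · simp only [ha, if_false]
        rw [hxz.1 a j (fun hc => ha hc.1)]
        exact Nat.add_comm _ _
    have hcard : ∀ M : R → C → Bool,
        colSum M j = ∑ a : R, if M a j = true then 1 else 0 := by
      intro M
      unfold colSum
      rw [Finset.card_filter]
    have hz : (∑ a : R, if z a j = true then 1 else 0)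
        = ∑ a : R, if x a j = true then (1 : ℕ) else 0 := by
      rw [← hcard, ← hcard]
      exact hxz.2.2 j
    have hsum : (∑ a : R, if (if a ∈ q then z a j else y a j) = true then 1 else 0)
          + (∑ a : R, if x a j = true then 1 else 0)
        = (∑ a : R, if z a j = true then 1 else 0)
          + ∑ a : R, if y a j = true then (1 : ℕ) else 0 := by
      rw [← Finset.sum_add_distrib, ← Finset.sum_add_distrib]
      exact Finset.sum_congr rfl (fun a _ => hterm a)
    rw [hcard, hcard]
    show (∑ a : R, if (if a ∈ q then z a j else y a j) = true then 1 else 0)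
      = ∑ a : R, if y a j = true then (1 : ℕ) else 0
    omega

/-- Rectangle property for disjoint row sets: combine the `p`-rows of `y` with the `q`-rows of `z`. -/
theorem rel_rect (p q : Finset R) (hpq : Disjoint p q) (T : Finset C) :
    ∀ x y z : R → C → Bool, Rel p T x y → Rel q T x z → ∃! w, Rel q T y w ∧ Rel p T z w := by
  intro x y z hxy hxz
  have hw1 := relBasic_rect_aux p q hpq T x y z hxy hxz
  have hw2 := relBasic_rect_aux q p hpq.symm T x z y hxz hxy
  have heq : (fun a b => if a ∈ p then y a b else z a b)
      = (fun a b => if a ∈ q then z a b else y a b) := by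
    funext a b
    by_cases hp : a ∈ p
    · have hq : a ∉ q := fun hc => (Finset.disjoint_left.mp hpq hp) hc
      simp only [hp, hq, if_true, if_false]
    · by_cases hq : a ∈ q
      · simp only [hp, hq, if_true, if_false]
      · simp only [hp, hq, if_false]
        rw [hxz.1 a b (fun hc => hq hc.1), hxy.1 a b (fun hc => hp hc.1)]
  rw [heq] at hw2
  refine ⟨fun a b => if a ∈ q then z a b else y a b, ⟨hw1, hw2⟩, ?_⟩
  rintro w' ⟨h1', h2'⟩
  funext a b
  by_cases hq : a ∈ q
  · have hp : a ∉ p := fun hc => (Finset.disjoint_left.mp hpq hc) hq
    simp only [hq, if_true]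
    exact h2'.1 a b (fun hc => hp hc.1)
  · simp only [hq, if_false]
    exact h1'.1 a b (fun hc => hq hc.1)

end Vale.Agent.Lib.P335.Bip
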