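import Mathlib

/-!
# P335 / bipartite core: a Rayleigh-quotient bound from an eigenvalue bound on an invariant
subspace (functions on a finite type, inner product `∑ x, a x * b x`)
-/

namespace Vale.Agent.Lib.P335.Bip

open Finset

/-- A symmetric operator on a finite-dimensional real inner product space all of whose
eigenvalues are at most `β` satisfies `⟨f, S f⟩ ≤ β ⟨f, f⟩` (expansion in an orthonormal
basis of eigenvectors). -/
private lemma spectral_aux {V : Type*} [NormedAddCommGroup V] [InnerProductSpace ℝ V]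
    [FiniteDimensional ℝ V] (S : V →ₗ[ℝ] V) (hS : S.IsSymmetric) (β : ℝ)
    (heig : ∀ (v : V) (lam : ℝ), v ≠ 0 → S v = lam • v → lam ≤ β) (f : V) :
    inner ℝ f (S f) ≤ β * inner ℝ f f := by
  set b := hS.eigenvectorBasis rfl with hb
  have hSb : ∀ i, S (b i) = hS.eigenvalues rfl i • b i := by
    intro i
    exact hS.apply_eigenvectorBasis rfl i
  have hlam : ∀ i, hS.eigenvalues rfl i ≤ β := fun i =>
    heig (b i) _ (b.orthonormal.ne_zero i) (hSb i)
  have h1 : inner ℝ f (S f) = ∑ i, hS.eigenvalues rfl i * (inner ℝ (b i) f) ^ 2 := by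
    rw [← b.sum_inner_mul_inner f (S f)]
    apply Finset.sum_congr rfl
    intro i _
    have h3 : inner ℝ (b i) (S f) = hS.eigenvalues rfl i * inner ℝ (b i) f := by
      rw [← hS (b i) f, hSb i, real_inner_smul_left]
    rw [h3, real_inner_comm (b i) f]
    ring
  have h2 : inner ℝ f f = ∑ i, (inner ℝ (b i) f) ^ 2 := by
    rw [← b.sum_inner_mul_inner f f]
    apply Finset.sum_congr rfl
    intro i _
    rw [real_inner_comm (b i) f]
    ring
  rw [h1, h2, Finset.mul_sum]
  apply Finset.sum_le_sum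
  intro i _
  exact mul_le_mul_of_nonneg_right (hlam i) (sq_nonneg _)

/-- Let `K` be a symmetric operator on `X → ℝ` and let the kernel of `E` be `K`-invariant.
If every eigenvalue of `K` with a nonzero eigenvector in the kernel of `E` is at most `β`,
then `⟨f, K f⟩ ≤ β ⟨f, f⟩` for every `f` in the kernel of `E`. -/
theorem spectral_bound {X : Type*} [Fintype X]
    (K E : (X → ℝ) →ₗ[ℝ] (X → ℝ)) (β : ℝ)
    (hsymm : ∀ a b : X → ℝ, ∑ x, K a x * b x = ∑ x, a x * K b x)
    (hinv : ∀ f : X → ℝ, E f = 0 → E (K f) = 0)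
    (heig : ∀ (φ : X → ℝ) (lam : ℝ), φ ≠ 0 → E φ = 0 → K φ = lam • φ → lam ≤ β) :
    ∀ f : X → ℝ, E f = 0 → ∑ x, f x * K f x ≤ β * ∑ x, f x ^ 2 := by
  classical
  intro f hf
  let e : (X → ℝ) ≃ₗ[ℝ] EuclideanSpace ℝ X := (WithLp.linearEquiv 2 ℝ (X → ℝ)).symm
  let T : EuclideanSpace ℝ X →ₗ[ℝ] EuclideanSpace ℝ X :=
    e.toLinearMap ∘ₗ K ∘ₗ e.symm.toLinearMap
  have hTe : ∀ a : X → ℝ, T (e a) = e (K a) := by
    intro a
    simp only [T, LinearMap.comp_apply, LinearEquiv.coe_coe, LinearEquiv.symm_apply_apply]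
  have hinner : ∀ a b : X → ℝ, inner ℝ (e a) (e b) = ∑ x, a x * b x := by
    intro a b
    rw [PiLp.inner_apply]
    apply Finset.sum_congr rfl
    intro x _
    simp [e, mul_comm]
  have hT : T.IsSymmetric := by
    intro u v
    obtain ⟨a, rfl⟩ := e.surjective u
    obtain ⟨b, rfl⟩ := e.surjective v
    rw [hTe, hTe, hinner, hinner]
    exact hsymm a b
  let W : Submodule ℝ (EuclideanSpace ℝ X) := LinearMap.ker (E ∘ₗ e.symm.toLinearMap)
  have hmemW : ∀ a : X → ℝ, e a ∈ W ↔ E a = 0 := by
    intro a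
    simp only [W, LinearMap.mem_ker, LinearMap.comp_apply, LinearEquiv.coe_coe,
      LinearEquiv.symm_apply_apply]
  have hW : ∀ v ∈ W, T v ∈ W := by
    intro v hv
    obtain ⟨a, rfl⟩ := e.surjective v
    rw [hTe, hmemW]
    exact hinv a ((hmemW a).mp hv)
  have hS : (T.restrict hW).IsSymmetric := hT.restrict_invariant hW
  have hfW : e f ∈ W := (hmemW f).mpr hf
  have key := spectral_aux (T.restrict hW) hS β ?_ ⟨e f, hfW⟩
  · rw [Submodule.coe_inner, Submodule.coe_inner] at key
    rw [LinearMap.coe_restrict_apply] at key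
    simp only [] at key
    rw [hTe, hinner, hinner] at key
    calc ∑ x, f x * K f x ≤ β * ∑ x, f x * f x := key
      _ = β * ∑ x, f x ^ 2 := by simp only [sq]
  · intro v lam hv hvl
    obtain ⟨a, ha⟩ := e.surjective (v : EuclideanSpace ℝ X)
    apply heig a lam
    · rintro rfl
      apply hv
      apply Subtype.ext
      rw [← ha]
      simp
    · rw [← hmemW, ha]
      exact v.2
    · have h1 : T (v : EuclideanSpace ℝ X) = lam • (v : EuclideanSpace ℝ X) := by
        have h2 := congrArg Subtype.val hvl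
        simpa using h2
      rw [← ha, hTe] at h1
      apply e.injective
      rw [map_smul]
      exact h1

end Vale.Agent.Lib.P335.Bip
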