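import Vale.Agent.Lib.P335.Bip.RelAvg

/-!
# P335 / bipartite core: basic facts on block classes and block averages

Pointwise forms of the facts of `RelAvg`, in the shape used by the three-row files.
-/

namespace Vale.Agent.Lib.P335.Bip.Three

open Finset
open scoped Classical

variable {R C : Type*} [Fintype R] [Fintype C]

theorem rel_refl (S : Finset R) (T : Finset C) (M : R → C → Bool) : Rel S T M M :=
  Bip.rel_refl S T M

theorem rel_symm {S : Finset R} {T : Finset C} {M M' : R → C → Bool} (h : Rel S T M M') :
    Rel S T M' M :=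
  Bip.rel_symm h

theorem rel_trans {S : Finset R} {T : Finset C} {M M' M'' : R → C → Bool}
    (h : Rel S T M M') (h' : Rel S T M' M'') : Rel S T M M'' :=
  Bip.rel_trans h h'

theorem rel_mono {S S' : Finset R} {T T' : Finset C} (hS : S ⊆ S') (hT : T ⊆ T')
    {M M' : R → C → Bool} (h : Rel S T M M') : Rel S' T' M M' :=
  Bip.rel_mono hS hT h

theorem mem_cls {S : Finset R} {T : Finset C} {M M' : R → C → Bool} :
    M' ∈ cls S T M ↔ Rel S T M M' :=
  Bip.mem_cls

theorem cls_eq_of_rel {S : Finset R} {T : Finset C} {M M' : R → C → Bool}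
    (h : Rel S T M M') : cls S T M' = cls S T M :=
  Bip.cls_eq_of_rel h

theorem card_cls_pos (S : Finset R) (T : Finset C) (M : R → C → Bool) :
    0 < (cls S T M).card :=
  Bip.cls_card_pos S T M

/-- The average is constant on classes. -/
theorem avg_eq_of_rel {S : Finset R} {T : Finset C} {M M' : R → C → Bool}
    (f : (R → C → Bool) → ℝ) (h : Rel S T M M') : avg S T f M' = avg S T f M :=
  Bip.avg_congr_of_rel h f

theorem avg_add (S : Finset R) (T : Finset C) (f g : (R → C → Bool) → ℝ)
    (M : R → C → Bool) : avg S T (fun N => f N + g N) M = avg S T f M + avg S T g M :=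
  congrFun (Bip.avg_add S T f g) M

theorem avg_sub (S : Finset R) (T : Finset C) (f g : (R → C → Bool) → ℝ)
    (M : R → C → Bool) : avg S T (fun N => f N - g N) M = avg S T f M - avg S T g M :=
  congrFun (Bip.avg_sub S T f g) M

theorem avg_const_mul (S : Finset R) (T : Finset C) (c : ℝ) (f : (R → C → Bool) → ℝ)
    (M : R → C → Bool) : avg S T (fun N => c * f N) M = c * avg S T f M :=
  congrFun (Bip.avg_const_mul S T c f) M

/-- A function which is constant on classes is its own average. -/
theorem avg_of_invariant {S : Finset R} {T : Finset C} {g : (R → C → Bool) → ℝ}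
    (hg : ∀ M M', Rel S T M M' → g M' = g M) (M : R → C → Bool) : avg S T g M = g M :=
  congrFun (Bip.avg_of_invariant S T (fun M M' h => (hg M M' h).symm)) M

/-- The averaging operator is symmetric. -/
theorem sum_avg_mul (S : Finset R) (T : Finset C) (f g : (R → C → Bool) → ℝ) :
    ∑ M, avg S T f M * g M = ∑ M, f M * avg S T g M :=
  Bip.avg_symm S T f g

/-- Averaging preserves sums over any union of classes. -/
theorem sum_filter_avg (S : Finset R) (T : Finset C) (A : (R → C → Bool) → Prop)
    (hA : ∀ M M', Rel S T M M' → (A M ↔ A M')) (f : (R → C → Bool) → ℝ) :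
    ∑ M ∈ univ.filter A, avg S T f M = ∑ M ∈ univ.filter A, f M :=
  Bip.sum_filter_avg S T A hA f

/-- Jensen's inequality for the square. -/
theorem avg_sq_le (S : Finset R) (T : Finset C) (f : (R → C → Bool) → ℝ)
    (M : R → C → Bool) : avg S T f M ^ 2 ≤ avg S T (fun N => f N ^ 2) M :=
  Bip.avg_sq_le S T f M

theorem avg_avg_of_subset {p t : Finset R} (h : p ⊆ t) (T : Finset C)
    (f : (R → C → Bool) → ℝ) (M : R → C → Bool) :
    avg p T (avg t T f) M = avg t T f M :=
  congrFun (Bip.avg_avg_of_subset h (Finset.Subset.refl T) f) M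

theorem avg_avg_of_subset' {p t : Finset R} (h : p ⊆ t) (T : Finset C)
    (f : (R → C → Bool) → ℝ) (M : R → C → Bool) :
    avg t T (avg p T f) M = avg t T f M :=
  congrFun (Bip.avg_avg_of_subset' h (Finset.Subset.refl T) f) M

/-- Transport of an average along an involution which respects the classes. -/
theorem avg_comp_invol (S : Finset R) (T : Finset C)
    (σ : (R → C → Bool) → (R → C → Bool)) (hinv : ∀ M, σ (σ M) = M)
    (hrel : ∀ M M', Rel S T M M' → Rel S T (σ M) (σ M'))
    (f : (R → C → Bool) → ℝ) (M : R → C → Bool) :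
    avg S T (fun N => f (σ N)) M = avg S T f (σ M) :=
  Bip.avg_comp_of_involutive S T σ hinv hrel f M

/-- The averaging operator as a linear map. -/
noncomputable def avgLin (S : Finset R) (T : Finset C) :
    ((R → C → Bool) → ℝ) →ₗ[ℝ] ((R → C → Bool) → ℝ) :=
  Bip.avgLin S T

theorem avgLin_apply (S : Finset R) (T : Finset C) (f : (R → C → Bool) → ℝ) :
    avgLin S T f = avg S T f := rfl

end Vale.Agent.Lib.P335.Bip.Three
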