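import Vale.Agent.Lib.P335.Bip.ThreeAvg

/-!
# P335 / bipartite core: the contraction estimate behind the gradient argument
-/

namespace Vale.Agent.Lib.P335.Bip.Three

open Finset
open scoped Classical

variable {R C : Type*} [Fintype R] [Fintype C]

/-- Let `mv u` be a property which is constant on the classes of the block `(t.erase u) × T`,
with at most two rows `u ∈ t` having the property at any matrix.  If the average of `g` over
the class of `M` vanishes whenever `mv u M` fails, then
`∑ M, (∑ u ∈ t, avg (t.erase u) T g M) ^ 2 ≤ 4 * ∑ M, g M ^ 2`. -/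
theorem contraction (t : Finset R) (T : Finset C) (mv : R → (R → C → Bool) → Prop)
    (hmv : ∀ u ∈ t, ∀ M M', Rel (t.erase u) T M M' → (mv u M ↔ mv u M'))
    (hcard : ∀ M, (t.filter (fun u => mv u M)).card ≤ 2)
    (g : (R → C → Bool) → ℝ)
    (hg : ∀ u ∈ t, ∀ M, ¬ mv u M → avg (t.erase u) T g M = 0) :
    ∑ M, (∑ u ∈ t, avg (t.erase u) T g M) ^ 2 ≤ 4 * ∑ M, g M ^ 2 := by
  have key : ∀ M, (∑ u ∈ t, avg (t.erase u) T g M) ^ 2
      ≤ 2 * ∑ u ∈ t, (if mv u M then avg (t.erase u) T (fun N => g N ^ 2) M else 0) := by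
    intro M
    have h1 : ∑ u ∈ t, avg (t.erase u) T g M
        = ∑ u ∈ t.filter (fun u => mv u M), avg (t.erase u) T g M := by
      symm
      apply Finset.sum_filter_of_ne
      intro u hu hne
      by_contra hcon
      exact hne (hg u hu M hcon)
    rw [h1, ← Finset.sum_filter]
    have h2 := sq_sum_le_card_mul_sum_sq (s := t.filter (fun u => mv u M))
      (f := fun u => avg (t.erase u) T g M)
    have h3 : ((t.filter (fun u => mv u M)).card : ℝ) ≤ 2 := by exact_mod_cast hcard M
    have h4 : ∑ u ∈ t.filter (fun u => mv u M), avg (t.erase u) T g M ^ 2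
        ≤ ∑ u ∈ t.filter (fun u => mv u M), avg (t.erase u) T (fun N => g N ^ 2) M :=
      Finset.sum_le_sum (fun u _ => avg_sq_le (t.erase u) T g M)
    have h5 : 0 ≤ ∑ u ∈ t.filter (fun u => mv u M), avg (t.erase u) T g M ^ 2 :=
      Finset.sum_nonneg (fun u _ => sq_nonneg _)
    calc (∑ u ∈ t.filter (fun u => mv u M), avg (t.erase u) T g M) ^ 2
        ≤ ((t.filter (fun u => mv u M)).card : ℝ)
            * ∑ u ∈ t.filter (fun u => mv u M), avg (t.erase u) T g M ^ 2 := h2
      _ ≤ 2 * ∑ u ∈ t.filter (fun u => mv u M), avg (t.erase u) T g M ^ 2 :=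
          mul_le_mul_of_nonneg_right h3 h5
      _ ≤ 2 * ∑ u ∈ t.filter (fun u => mv u M), avg (t.erase u) T (fun N => g N ^ 2) M :=
          mul_le_mul_of_nonneg_left h4 (by norm_num)
  calc ∑ M, (∑ u ∈ t, avg (t.erase u) T g M) ^ 2
      ≤ ∑ M, 2 * ∑ u ∈ t, (if mv u M then avg (t.erase u) T (fun N => g N ^ 2) M else 0) :=
        Finset.sum_le_sum (fun M _ => key M)
    _ = 2 * ∑ u ∈ t, ∑ M, (if mv u M then avg (t.erase u) T (fun N => g N ^ 2) M else 0) := by
        rw [← Finset.mul_sum, Finset.sum_comm]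
    _ = 2 * ∑ u ∈ t, ∑ M, (if mv u M then g M ^ 2 else 0) := by
        congr 1
        apply Finset.sum_congr rfl
        intro u hu
        rw [← Finset.sum_filter, ← Finset.sum_filter]
        exact sum_filter_avg (t.erase u) T (mv u) (hmv u hu) (fun N => g N ^ 2)
    _ = 2 * ∑ M, ∑ u ∈ t, (if mv u M then g M ^ 2 else 0) := by rw [Finset.sum_comm]
    _ = 2 * ∑ M, ((t.filter (fun u => mv u M)).card : ℝ) * g M ^ 2 := by
        congr 1
        apply Finset.sum_congr rfl
        intro M _
        rw [← Finset.sum_filter, Finset.sum_const, nsmul_eq_mul]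
    _ ≤ 2 * ∑ M, 2 * g M ^ 2 := by
        apply mul_le_mul_of_nonneg_left _ (by norm_num)
        apply Finset.sum_le_sum
        intro M _
        apply mul_le_mul_of_nonneg_right _ (sq_nonneg _)
        exact_mod_cast hcard M
    _ = 4 * ∑ M, g M ^ 2 := by rw [← Finset.mul_sum]; ring

end Vale.Agent.Lib.P335.Bip.Three
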