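import Vale.Agent.Lib.P335.Bip.ThreeTau
import Vale.Agent.Lib.P335.Bip.ThreeContract

/-!
# P335 / bipartite core: eigenfunctions which are not invariant under a column transposition
-/

namespace Vale.Agent.Lib.P335.Bip.Three

open Finset
open scoped Classical

variable {R C : Type*} [Fintype R] [Fintype C]

/-- The average of the `tau`-gradient of `φ` is the `tau`-gradient of the average. -/
theorem threecaseone_avg_grad (t : Finset R) (T : Finset C) {x y : C}
    (hx : x ∈ T) (hy : y ∈ T) (φ : (R → C → Bool) → ℝ) {u : R} (hu : u ∈ t)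
    (M : R → C → Bool) :
    avg (t.erase u) T (fun N => φ (tau t x y N) - φ N) M
      = avg (t.erase u) T φ (tau t x y M) - avg (t.erase u) T φ M := by
  rw [avg_sub (t.erase u) T (fun N => φ (tau t x y N)) φ M,
    avg_comp_invol (t.erase u) T (tau t x y) (tau_invol t x y)
      (fun M M' h => tau_rel_erase t T hx hy hu h) φ M]

/-- If `∑ u ∈ t, avg (t.erase u) T φ = 3 * lam * φ` and `φ` is changed by some `tau t x y`,
then `lam ≤ 2 / 3`. -/
theorem eig_le_of_tau_moves (t : Finset R) (ht : t.card = 3) (T : Finset C) {x y : C}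
    (hx : x ∈ T) (hy : y ∈ T) (φ : (R → C → Bool) → ℝ) (lam : ℝ)
    (heig : ∀ M, ∑ u ∈ t, avg (t.erase u) T φ M = 3 * lam * φ M)
    (hmove : ∃ M, φ (tau t x y M) ≠ φ M) : lam ≤ 2 / 3 := by
  have h1 : ∀ M, ∑ u ∈ t, avg (t.erase u) T (fun N => φ (tau t x y N) - φ N) M
      = 3 * lam * (φ (tau t x y M) - φ M) := by
    intro M
    rw [Finset.sum_congr rfl (fun u hu => threecaseone_avg_grad t T hx hy φ hu M),
      Finset.sum_sub_distrib, heig, heig]
    ring
  have h2 : ∀ u ∈ t, ∀ M, ¬ Moved t x y u M →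
      avg (t.erase u) T (fun N => φ (tau t x y N) - φ N) M = 0 := by
    intro u hu M hM
    rw [threecaseone_avg_grad t T hx hy φ hu M,
      avg_eq_of_rel φ (rel_tau_erase t T hx hy hu M hM)]
    ring
  have h3 := contraction t T (Moved t x y)
    (fun u hu M M' h => moved_iff_of_rel t T x y hu h) (moved_card_le t ht x y)
    (fun N => φ (tau t x y N) - φ N) h2
  have h4 : ∑ M, (∑ u ∈ t, avg (t.erase u) T (fun N => φ (tau t x y N) - φ N) M) ^ 2
      = 9 * lam ^ 2 * ∑ M : R → C → Bool, (φ (tau t x y M) - φ M) ^ 2 := by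
    rw [Finset.mul_sum]
    refine Finset.sum_congr rfl (fun M _ => ?_)
    rw [h1 M]
    ring
  rw [h4] at h3
  have hS : 0 < ∑ M : R → C → Bool, (φ (tau t x y M) - φ M) ^ 2 := by
    obtain ⟨M0, hM0⟩ := hmove
    have h5 : 0 < (φ (tau t x y M0) - φ M0) ^ 2 := by
      have : φ (tau t x y M0) - φ M0 ≠ 0 := sub_ne_zero.mpr hM0
      positivity
    exact lt_of_lt_of_le h5
      (Finset.single_le_sum (f := fun M : R → C → Bool => (φ (tau t x y M) - φ M) ^ 2)
        (fun M _ => sq_nonneg _) (Finset.mem_univ M0))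
  by_contra hcon
  push Not at hcon
  nlinarith [mul_pos hS (sub_pos.mpr hcon)]

end Vale.Agent.Lib.P335.Bip.Three
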