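import Vale.Agent.Lib.P335.Bip.ThreeMixSum

/-!
# P335 / bipartite core: eigenfunctions which are invariant under all column transpositions
-/

namespace Vale.Agent.Lib.P335.Bip.Three

open Finset
open scoped Classical

variable {R C : Type*} [Fintype R] [Fintype C]

/-- If `∑ u ∈ t, avg (t.erase u) T φ = 3 * lam * φ`, `φ` is invariant under every `tau t a b`
with `a, b ∈ T`, and some mixed switch changes `φ`, then `lam ≤ 2 / 3`. -/
theorem eig_le_of_tau_fixed (t : Finset R) (ht : t.card = 3) (T : Finset C)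
    (φ : (R → C → Bool) → ℝ) (lam : ℝ)
    (heig : ∀ M, ∑ u ∈ t, avg (t.erase u) T φ M = 3 * lam * φ M)
    (hτ : ∀ a ∈ T, ∀ b ∈ T, ∀ N, φ (tau t a b N) = φ N)
    (hmix : ∃ M M', MixedStep t T M M' ∧ φ M' ≠ φ M) : lam ≤ 2 / 3 := by
  obtain ⟨M1, M1', hstep1, hne1⟩ := hmix
  let P : Finset ((R → C → Bool) × (R → C → Bool)) :=
    (Finset.univ ×ˢ Finset.univ).filter (fun q => MixedStep t T q.1 q.2)
  have hmemP : ∀ N N', MixedStep t T N N' → (N, N') ∈ P := by
    intro N N' hNN
    simp only [P, Finset.mem_filter, Finset.mem_product, Finset.mem_univ, and_self, true_and]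
    exact hNN
  have hPne : P.Nonempty := ⟨(M1, M1'), hmemP M1 M1' hstep1⟩
  obtain ⟨q0, hq0P, hq0max⟩ :=
    Finset.exists_max_image P (fun q => |φ q.2 - φ q.1|) hPne
  have hq0step : MixedStep t T q0.1 q0.2 := by
    have h1 := hq0P
    simp only [P, Finset.mem_filter, Finset.mem_product, Finset.mem_univ, and_self,
      true_and] at h1
    exact h1
  set L : ℝ := |φ q0.2 - φ q0.1| with hLdef
  have hL : ∀ N N', MixedStep t T N N' → |φ N' - φ N| ≤ L := by
    intro N N' hNN
    exact hq0max (N, N') (hmemP N N' hNN)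
  have hLpos : 0 < L := by
    have h1 : 0 < |φ M1' - φ M1| := abs_pos.mpr (sub_ne_zero.mpr hne1)
    exact lt_of_lt_of_le h1 (hL M1 M1' hstep1)
  have hsum := sum_avg_mixed_le t ht T φ L hτ hL hq0step
  rw [heig q0.2, heig q0.1] at hsum
  have h2 : 3 * lam * φ q0.2 - 3 * lam * φ q0.1 = 3 * lam * (φ q0.2 - φ q0.1) := by ring
  rw [h2, abs_mul, ← hLdef] at hsum
  have h3 : |3 * lam| ≤ 2 := by
    by_contra hcon
    push Not at hcon
    have h4 : 2 * L < |3 * lam| * L := mul_lt_mul_of_pos_right hcon hLpos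
    linarith
  have h5 : 3 * lam ≤ 2 := le_trans (le_abs_self _) h3
  linarith

end Vale.Agent.Lib.P335.Bip.Three
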