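import Vale.Agent.Lib.P335.Bip.Defs

/-!
# P335 / bipartite core: definitions for the three-row inequality

Column transpositions on the rows of a block, mixed switches, and the parametrization of a
two-row class by a set of columns.
-/

namespace Vale.Agent.Lib.P335.Bip.Three

open Finset
open scoped Classical

variable {R C : Type*} [Fintype R] [Fintype C]

/-- Number of ones of column `c` in the rows of `t`. -/
noncomputable def res (t : Finset R) (M : R → C → Bool) (c : C) : ℕ :=
  (t.filter (fun u => M u c = true)).card

/-- Swap the columns `x` and `y` on the rows of `t`. -/
noncomputable def colSwap (t : Finset R) (x y : C) (M : R → C → Bool) : R → C → Bool :=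
  fun a b => if a ∈ t then (if b = x then M a y else if b = y then M a x else M a b) else M a b

/-- The column transposition on the rows of `t`, performed only when the two columns have the
same number of ones in the rows of `t` (so that all margins are preserved). -/
noncomputable def tau (t : Finset R) (x y : C) (M : R → C → Bool) : R → C → Bool :=
  if res t M x = res t M y then colSwap t x y M else M

/-- Row `u` is changed by `tau t x y` at `M`. -/
def Moved (t : Finset R) (x y : C) (u : R) (M : R → C → Bool) : Prop :=
  res t M x = res t M y ∧ M u x ≠ M u y

/-- A mixed switch on three distinct rows `i, j, k` of `t`: column `x` has its only one (among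
the three rows) in row `i`, column `y` has its only zero in row `i`, and the switch is made on
rows `i, j`. -/
def MixedStep (t : Finset R) (T : Finset C) (M M' : R → C → Bool) : Prop :=
  ∃ i ∈ t, ∃ j ∈ t, ∃ k ∈ t, i ≠ j ∧ i ≠ k ∧ j ≠ k ∧ ∃ x ∈ T, ∃ y ∈ T,
    M i x = true ∧ M j x = false ∧ M k x = false ∧
    M i y = false ∧ M j y = true ∧ M k y = true ∧
    M' = switchMat M i j x y

/-- The columns of `T` in which rows `j` and `k` differ. -/
noncomputable def freeCols (T : Finset C) (M : R → C → Bool) (j k : R) : Finset C :=
  T.filter (fun c => M j c ≠ M k c)

/-- The number of free columns in which row `j` has the one. -/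
noncomputable def freeCount (T : Finset C) (M : R → C → Bool) (j k : R) : ℕ :=
  ((freeCols T M j k).filter (fun c => M j c = true)).card

/-- The matrix which agrees with `M` except that on the columns of `F` row `j` is the indicator
of `J` and row `k` is the indicator of the complement of `J`. -/
noncomputable def twoRow (M : R → C → Bool) (j k : R) (F J : Finset C) : R → C → Bool :=
  fun a b =>
    if b ∈ F then (if a = j then decide (b ∈ J) else if a = k then decide (b ∉ J) else M a b)
    else M a b

end Vale.Agent.Lib.P335.Bip.Three
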