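import Vale.Agent.Lib.P335.Bip.ThreeSteps
import Vale.Agent.Lib.P335.Bip.ThreeAvg

/-!
# P335 / bipartite core: a nonzero function with vanishing class average is changed by a
column transposition or by a mixed switch
-/

namespace Vale.Agent.Lib.P335.Bip.Three

open Finset
open scoped Classical

variable {R C : Type*} [Fintype R] [Fintype C]

theorem exists_tau_or_mixed (t : Finset R) (ht : t.card = 3) (T : Finset C)
    (hconn : ∀ M M' : R → C → Bool, Rel t T M M' →
      Relation.ReflTransGen (SwitchStep t T) M M')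
    (φ : (R → C → Bool) → ℝ) (hφ : φ ≠ 0) (havg : ∀ M, avg t T φ M = 0) :
    (∃ x ∈ T, ∃ y ∈ T, ∃ M, φ (tau t x y M) ≠ φ M) ∨
      (∃ M M', MixedStep t T M M' ∧ φ M' ≠ φ M) := by
  by_contra hcon
  rw [not_or] at hcon
  obtain ⟨h1, h2⟩ := hcon
  have htau : ∀ x ∈ T, ∀ y ∈ T, ∀ M, φ (tau t x y M) = φ M := by
    intro x hx y hy M
    by_contra hne
    exact h1 ⟨x, hx, y, hy, M, hne⟩
  have hmix : ∀ M M', MixedStep t T M M' → φ M' = φ M := by
    intro M M' hM
    by_contra hne
    exact h2 ⟨M, M', hM, hne⟩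
  have hstep : ∀ M M', SwitchStep t T M M' → φ M' = φ M := by
    intro M M' hs
    rcases switchStep_cases t ht T hs with ⟨x, hx, y, hy, rfl⟩ | hm
    · exact htau x hx y hy M
    · exact hmix M M' hm
  have hgen : ∀ M M', Relation.ReflTransGen (SwitchStep t T) M M' → φ M' = φ M := by
    intro M M' hr
    induction hr with
    | refl => rfl
    | tail _ hbc ih => rw [hstep _ _ hbc, ih]
  have hrel : ∀ M M', Rel t T M M' → φ M' = φ M :=
    fun M M' hr => hgen M M' (hconn M M' hr)
  apply hφ
  funext M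
  have h3 := avg_of_invariant hrel M
  rw [havg M] at h3
  rw [← h3]
  rfl

end Vale.Agent.Lib.P335.Bip.Three
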