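import Vale.Agent.Lib.P335.Bip.ThreeDefs

/-!
# P335 / bipartite core: the free columns of rows `j, k` after a mixed switch on rows `i, j`
-/

namespace Vale.Agent.Lib.P335.Bip.Three

open Finset
open scoped Classical

variable {R C : Type*} [Fintype R] [Fintype C]

omit [Fintype R] [Fintype C] in
/-- A row different from the two switched rows is unchanged. -/
theorem threefree_other (M : R → C → Bool) {i j k : R} (hik : i ≠ k) (hjk : j ≠ k) (x y c : C) :
    switchMat M i j x y k c = M k c := by
  unfold switchMat
  rw [if_neg (fun h => hik h.1.symm), if_neg (fun h => hik h.1.symm),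
    if_neg (fun h => hjk h.1.symm), if_neg (fun h => hjk h.1.symm)]

omit [Fintype R] [Fintype C] in
theorem threefree_jx (M : R → C → Bool) {i j : R} (hij : i ≠ j) (x y : C) :
    switchMat M i j x y j x = true := by
  unfold switchMat
  rw [if_neg (fun h => hij h.1.symm), if_neg (fun h => hij h.1.symm), if_pos ⟨rfl, rfl⟩]

omit [Fintype R] [Fintype C] in
theorem threefree_jy (M : R → C → Bool) {i j : R} (hij : i ≠ j) {x y : C} (hxy : x ≠ y) :
    switchMat M i j x y j y = false := by
  unfold switchMat
  rw [if_neg (fun h => hij h.1.symm), if_neg (fun h => hij h.1.symm),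
    if_neg (fun h => hxy h.2.symm), if_pos ⟨rfl, rfl⟩]

omit [Fintype R] [Fintype C] in
theorem threefree_jc (M : R → C → Bool) (i j : R) {x y c : C} (hcx : c ≠ x) (hcy : c ≠ y) :
    switchMat M i j x y j c = M j c := by
  unfold switchMat
  rw [if_neg (fun h => hcx h.2), if_neg (fun h => hcy h.2), if_neg (fun h => hcx h.2),
    if_neg (fun h => hcy h.2)]

theorem freeCols_switch (T : Finset C) (M : R → C → Bool) {i j k : R}
    (hij : i ≠ j) (hik : i ≠ k) (hjk : j ≠ k) {x y : C} (hxT : x ∈ T) (hyT : y ∈ T)
    (hx : M i x = true ∧ M j x = false ∧ M k x = false)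
    (hy : M i y = false ∧ M j y = true ∧ M k y = true) :
    x ∉ freeCols T M j k ∧ y ∉ freeCols T M j k ∧ x ≠ y ∧
      freeCols T (switchMat M i j x y) j k = insert x (insert y (freeCols T M j k)) ∧
      freeCount T (switchMat M i j x y) j k = freeCount T M j k + 1 := by
  have hxF : x ∉ freeCols T M j k := by
    intro h
    rw [freeCols, mem_filter] at h
    exact h.2 (by rw [hx.2.1, hx.2.2])
  have hyF : y ∉ freeCols T M j k := by
    intro h
    rw [freeCols, mem_filter] at h
    exact h.2 (by rw [hy.2.1, hy.2.2])
  have hxy : x ≠ y := by
    intro h
    have h1 := hx.1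
    rw [h, hy.1] at h1
    exact Bool.false_ne_true h1
  have hcols : freeCols T (switchMat M i j x y) j k
      = insert x (insert y (freeCols T M j k)) := by
    ext c
    rw [mem_insert, mem_insert]
    unfold freeCols
    rw [mem_filter, mem_filter, threefree_other M hik hjk x y c]
    by_cases hcx : c = x
    · subst hcx
      rw [threefree_jx M hij c y, hx.2.2]
      constructor
      · intro _
        exact Or.inl rfl
      · intro _
        exact ⟨hxT, by simp⟩
    · by_cases hcy : c = y
      · subst hcy
        rw [threefree_jy M hij hxy, hy.2.2]
        constructor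
        · intro _
          exact Or.inr (Or.inl rfl)
        · intro _
          exact ⟨hyT, by simp⟩
      · rw [threefree_jc M i j hcx hcy]
        constructor
        · intro h
          exact Or.inr (Or.inr h)
        · rintro (h | h | h)
          · exact absurd h hcx
          · exact absurd h hcy
          · exact h
  refine ⟨hxF, hyF, hxy, hcols, ?_⟩
  unfold freeCount
  rw [hcols]
  have hfilter : (insert x (insert y (freeCols T M j k))).filter
      (fun c => switchMat M i j x y j c = true)
      = insert x ((freeCols T M j k).filter (fun c => M j c = true)) := by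
    ext c
    rw [mem_filter, mem_insert, mem_insert, mem_insert, mem_filter]
    by_cases hcx : c = x
    · subst hcx
      rw [threefree_jx M hij c y]
      constructor
      · intro _
        exact Or.inl rfl
      · intro _
        exact ⟨Or.inl rfl, rfl⟩
    · by_cases hcy : c = y
      · subst hcy
        rw [threefree_jy M hij hxy]
        constructor
        · intro h
          exact absurd h.2 Bool.false_ne_true
        · rintro (h | h)
          · exact absurd h hcx
          · exact absurd h.1 hyF
      · rw [threefree_jc M i j hcx hcy]
        constructor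
        · rintro ⟨h | h | h, h2⟩
          · exact absurd h hcx
          · exact absurd h hcy
          · exact Or.inr ⟨h, h2⟩
        · rintro (h | h)
          · exact absurd h hcx
          · exact ⟨Or.inr (Or.inr h.1), h.2⟩
  rw [hfilter, card_insert_of_notMem]
  intro h
  rw [mem_filter] at h
  exact hxF h.1

end Vale.Agent.Lib.P335.Bip.Three
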