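import Vale.Agent.Lib.P335.Bip.ThreeRow
import Vale.Agent.Lib.P335.Bip.PairPoincare

namespace Vale.Agent.Lib.P335.Bip

open Finset
open scoped Classical

variable {R C : Type*} [Fintype R] [Fintype C]

/-- The three-row inequality for all index types, from switch connectivity. -/
theorem threeRowHyp_of_connHyp (hc : ConnHyp R C) : ThreeRowHyp R C :=
  fun t ht T f => Three.three_row_of_connected t ht T (fun M M' h => hc t T M M' h) f

end Vale.Agent.Lib.P335.Bip
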