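import Vale.Agent.Lib.P335.Bip.ThreeDefs

/-!
# P335 / bipartite core: the two-row class after a mixed switch, pairs of the first two kinds

Setting: rows `i, j, k` are distinct and `t = {i, j, k}`; at `M` the column `x` has its only
one in row `i` and the column `y` has its only zero in row `i`; `F` is the set of free columns
of rows `j, k` at `M`.  For `J ⊆ F` the matrices `twoRow (switchMat M i j x y) j k F' (insert x J)`
and `twoRow (switchMat M i j x y) j k F' (insert y J)`, with `F' = insert x (insert y F)`, are
obtained from `twoRow M j k F J` by one mixed switch.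
-/

namespace Vale.Agent.Lib.P335.Bip.Three

open Finset
open scoped Classical

variable {R C : Type*} [Fintype R] [Fintype C]

omit [Fintype R] [Fintype C] in
/-- The matrix identity for the pair `J`, `insert x J`: one switch on the rows `i, j`. -/
theorem threemixa_eq_x {i j k : R} (hij : i ≠ j) (hik : i ≠ k) {x y : C}
    (M : R → C → Bool) (F J : Finset C)
    (hx : M i x = true ∧ M j x = false ∧ M k x = false)
    (hy : M i y = false ∧ M j y = true ∧ M k y = true)
    (hxy : x ≠ y) (hxF : x ∉ F) (hyF : y ∉ F) (hyJ : y ∉ J) :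
    twoRow (switchMat M i j x y) j k (insert x (insert y F)) (insert x J) =
      switchMat (twoRow M j k F J) i j x y := by
  funext a b
  unfold twoRow switchMat
  by_cases hbx : b = x
  · subst hbx
    by_cases hai : a = i
    · subst hai
      simp [hij, hik]
    · by_cases haj : a = j
      · subst haj
        simp [hai]
      · by_cases hak : a = k
        · subst hak
          simp [hxF, hx.2.2, hai, haj]
        · simp [hai, haj, hak, hxF]
  · by_cases hby : b = y
    · subst hby
      by_cases hai : a = i
      · subst hai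
        simp [hij, hik, hbx]
      · by_cases haj : a = j
        · subst haj
          simp [hbx, hyJ, hai]
        · by_cases hak : a = k
          · subst hak
            simp [hyF, hy.2.2, hai, haj, hbx, hyJ]
          · simp [hai, haj, hak, hyF, hbx]
    · by_cases hbF : b ∈ F
      · simp [hbx, hby, hbF]
      · simp [hbx, hby, hbF]

omit [Fintype R] [Fintype C] in
/-- The matrix identity for the pair `J`, `insert y J`: one switch on the rows `i, k`. -/
theorem threemixa_eq_y {i j k : R} (hij : i ≠ j) (hik : i ≠ k) (hjk : j ≠ k) {x y : C}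
    (M : R → C → Bool) (F J : Finset C)
    (hx : M i x = true ∧ M j x = false ∧ M k x = false)
    (hy : M i y = false ∧ M j y = true ∧ M k y = true)
    (hxy : x ≠ y) (hxF : x ∉ F) (hyF : y ∉ F) (hxJ : x ∉ J) :
    twoRow (switchMat M i j x y) j k (insert x (insert y F)) (insert y J) =
      switchMat (twoRow M j k F J) i k x y := by
  funext a b
  unfold twoRow switchMat
  by_cases hbx : b = x
  · subst hbx
    by_cases hai : a = i
    · subst hai
      simp [hij, hik]
    · by_cases haj : a = j
      · subst haj
        simp [hai, hxy, hxJ, hxF, hx.2.1, hjk]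
      · by_cases hak : a = k
        · subst hak
          simp [hxF, hai, haj, hxy, hxJ]
        · simp [hai, haj, hak, hxF]
  · by_cases hby : b = y
    · subst hby
      by_cases hai : a = i
      · subst hai
        simp [hij, hik, hbx]
      · by_cases haj : a = j
        · subst haj
          simp [hbx, hai, hyF, hy.2.1, hjk]
        · by_cases hak : a = k
          · subst hak
            simp [hyF, hai, haj, hbx]
          · simp [hai, haj, hak, hyF, hbx]
    · by_cases hbF : b ∈ F
      · simp [hbx, hby, hbF]
      · simp [hbx, hby, hbF]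

omit [Fintype R] [Fintype C] in
/-- The columns `x`, `y` are different, and neither is a free column of the rows `j, k`. -/
theorem threemixa_facts {i j k : R} {x y : C} (T : Finset C) (M : R → C → Bool)
    (hx : M i x = true ∧ M j x = false ∧ M k x = false)
    (hy : M i y = false ∧ M j y = true ∧ M k y = true) :
    x ≠ y ∧ x ∉ freeCols T M j k ∧ y ∉ freeCols T M j k := by
  refine ⟨?_, ?_, ?_⟩
  · intro h
    have h1 := hx.1
    rw [h, hy.1] at h1
    exact Bool.false_ne_true h1
  · unfold freeCols
    rw [Finset.mem_filter]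
    rintro ⟨_, h⟩
    exact h (by rw [hx.2.1, hx.2.2])
  · unfold freeCols
    rw [Finset.mem_filter]
    rintro ⟨_, h⟩
    exact h (by rw [hy.2.1, hy.2.2])

omit [Fintype R] [Fintype C] in
/-- Entries of the two-row matrix in a column outside `F`. -/
theorem threemixa_twoRow_not_mem (M : R → C → Bool) (j k : R) (F J : Finset C) (a : R) {b : C}
    (hb : b ∉ F) : twoRow M j k F J a b = M a b := by
  unfold twoRow
  rw [if_neg hb]

theorem mix_insert_x (t : Finset R) (T : Finset C) {i j k : R}
    (hij : i ≠ j) (hik : i ≠ k) (hjk : j ≠ k) (ht : t = {i, j, k})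
    {x y : C} (hxT : x ∈ T) (hyT : y ∈ T) (M : R → C → Bool)
    (hx : M i x = true ∧ M j x = false ∧ M k x = false)
    (hy : M i y = false ∧ M j y = true ∧ M k y = true)
    (φ : (R → C → Bool) → ℝ) (L : ℝ)
    (hL : ∀ N N', MixedStep t T N N' → |φ N' - φ N| ≤ L)
    (J : Finset C) (hJ : J ⊆ freeCols T M j k) :
    |φ (twoRow (switchMat M i j x y) j k (insert x (insert y (freeCols T M j k))) (insert x J))
        - φ (twoRow M j k (freeCols T M j k) J)| ≤ L := by
  obtain ⟨hxy, hxF, hyF⟩ := threemixa_facts (i := i) T M hx hy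
  have hyJ : y ∉ J := fun h => hyF (hJ h)
  rw [threemixa_eq_x hij hik M (freeCols T M j k) J hx hy hxy hxF hyF hyJ]
  apply hL
  have hi : i ∈ t := by rw [ht]; simp
  have hj : j ∈ t := by rw [ht]; simp
  have hk : k ∈ t := by rw [ht]; simp
  refine ⟨i, hi, j, hj, k, hk, hij, hik, hjk, x, hxT, y, hyT, ?_, ?_, ?_, ?_, ?_, ?_, rfl⟩
  · rw [threemixa_twoRow_not_mem M j k _ J i hxF]
    exact hx.1
  · rw [threemixa_twoRow_not_mem M j k _ J j hxF]
    exact hx.2.1
  · rw [threemixa_twoRow_not_mem M j k _ J k hxF]
    exact hx.2.2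
  · rw [threemixa_twoRow_not_mem M j k _ J i hyF]
    exact hy.1
  · rw [threemixa_twoRow_not_mem M j k _ J j hyF]
    exact hy.2.1
  · rw [threemixa_twoRow_not_mem M j k _ J k hyF]
    exact hy.2.2

theorem mix_insert_y (t : Finset R) (T : Finset C) {i j k : R}
    (hij : i ≠ j) (hik : i ≠ k) (hjk : j ≠ k) (ht : t = {i, j, k})
    {x y : C} (hxT : x ∈ T) (hyT : y ∈ T) (M : R → C → Bool)
    (hx : M i x = true ∧ M j x = false ∧ M k x = false)
    (hy : M i y = false ∧ M j y = true ∧ M k y = true)
    (φ : (R → C → Bool) → ℝ) (L : ℝ)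
    (hL : ∀ N N', MixedStep t T N N' → |φ N' - φ N| ≤ L)
    (J : Finset C) (hJ : J ⊆ freeCols T M j k) :
    |φ (twoRow (switchMat M i j x y) j k (insert x (insert y (freeCols T M j k))) (insert y J))
        - φ (twoRow M j k (freeCols T M j k) J)| ≤ L := by
  obtain ⟨hxy, hxF, hyF⟩ := threemixa_facts (i := i) T M hx hy
  have hxJ : x ∉ J := fun h => hxF (hJ h)
  rw [threemixa_eq_y hij hik hjk M (freeCols T M j k) J hx hy hxy hxF hyF hxJ]
  apply hL
  have hi : i ∈ t := by rw [ht]; simp
  have hj : j ∈ t := by rw [ht]; simp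
  have hk : k ∈ t := by rw [ht]; simp
  refine ⟨i, hi, k, hk, j, hj, hik, hij, hjk.symm, x, hxT, y, hyT, ?_, ?_, ?_, ?_, ?_, ?_, rfl⟩
  · rw [threemixa_twoRow_not_mem M j k _ J i hxF]
    exact hx.1
  · rw [threemixa_twoRow_not_mem M j k _ J k hxF]
    exact hx.2.2
  · rw [threemixa_twoRow_not_mem M j k _ J j hxF]
    exact hx.2.1
  · rw [threemixa_twoRow_not_mem M j k _ J i hyF]
    exact hy.1
  · rw [threemixa_twoRow_not_mem M j k _ J k hyF]
    exact hy.2.2
  · rw [threemixa_twoRow_not_mem M j k _ J j hyF]
    exact hy.2.1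

end Vale.Agent.Lib.P335.Bip.Three
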