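import Vale.Agent.Lib.P335.Bip.ThreeDefs

/-!
# P335 / bipartite core: the two-row class after a mixed switch, pairs of the third kind

Setting as in `ThreeMixA`.  For `J ⊆ F` and `z ∈ J` the matrix
`twoRow (switchMat M i j x y) j k F' (insert x (insert y (J.erase z)))` is obtained from
`twoRow M j k F J` by a column transposition `tau` followed by one mixed switch.
-/

namespace Vale.Agent.Lib.P335.Bip.Three

open Finset
open scoped Classical

variable {R C : Type*} [Fintype R] [Fintype C]

omit [Fintype R] [Fintype C] in
/-- The residual column sum on three distinct rows. -/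
private lemma threemixb_res {t : Finset R} {i j k : R} (hij : i ≠ j) (hik : i ≠ k)
    (hjk : j ≠ k) (ht : t = {i, j, k}) (N : R → C → Bool) (c : C) :
    res t N c = (if N i c = true then 1 else 0) + (if N j c = true then 1 else 0)
      + (if N k c = true then 1 else 0) := by
  subst ht
  unfold res
  rw [Finset.card_filter, Finset.sum_insert (by simp [hij, hik]),
    Finset.sum_insert (by simp [hjk]), Finset.sum_singleton, add_assoc]

theorem mix_erase (t : Finset R) (T : Finset C) {i j k : R}
    (hij : i ≠ j) (hik : i ≠ k) (hjk : j ≠ k) (ht : t = {i, j, k})
    {x y : C} (hxT : x ∈ T) (hyT : y ∈ T) (M : R → C → Bool)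
    (hx : M i x = true ∧ M j x = false ∧ M k x = false)
    (hy : M i y = false ∧ M j y = true ∧ M k y = true)
    (φ : (R → C → Bool) → ℝ) (L : ℝ)
    (hτ : ∀ a ∈ T, ∀ b ∈ T, ∀ N, φ (tau t a b N) = φ N)
    (hL : ∀ N N', MixedStep t T N N' → |φ N' - φ N| ≤ L)
    (J : Finset C) (hJ : J ⊆ freeCols T M j k) (z : C) (hz : z ∈ J) :
    |φ (twoRow (switchMat M i j x y) j k (insert x (insert y (freeCols T M j k)))
          (insert x (insert y (J.erase z))))
        - φ (twoRow M j k (freeCols T M j k) J)| ≤ L := by
  have _hR : Fintype R := inferInstance
  have _hC : Fintype C := inferInstance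
  obtain ⟨hx1, hx2, hx3⟩ := hx
  obtain ⟨hy1, hy2, hy3⟩ := hy
  have hzF : z ∈ freeCols T M j k := hJ hz
  have hzT : z ∈ T := by
    have h := hzF
    unfold freeCols at h
    exact (mem_filter.mp h).1
  have hxF : x ∉ freeCols T M j k := by
    unfold freeCols
    rw [mem_filter]
    rintro ⟨_, h⟩
    exact h (by rw [hx2, hx3])
  have hyF : y ∉ freeCols T M j k := by
    unfold freeCols
    rw [mem_filter]
    rintro ⟨_, h⟩
    exact h (by rw [hy2, hy3])
  have hzx : z ≠ x := fun h => hxF (h ▸ hzF)
  have hzy : z ≠ y := fun h => hyF (h ▸ hzF)
  have hxy : x ≠ y := by
    intro h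
    have h1 := hx1
    rw [h, hy1] at h1
    exact Bool.false_ne_true h1
  have hxz : x ≠ z := hzx.symm
  have hyz : y ≠ z := hzy.symm
  have hyx : y ≠ x := hxy.symm
  have hji : j ≠ i := hij.symm
  have hki : k ≠ i := hik.symm
  have hkj : k ≠ j := hjk.symm
  have hxJ : x ∉ J := fun h => hxF (hJ h)
  have hyJ : y ∉ J := fun h => hyF (hJ h)
  have hmem : ∀ a, a ∈ t ↔ a = i ∨ a = j ∨ a = k := by
    intro a
    rw [ht]
    simp
  have hit : i ∈ t := (hmem i).mpr (Or.inl rfl)
  have hjt : j ∈ t := (hmem j).mpr (Or.inr (Or.inl rfl))
  have hkt : k ∈ t := (hmem k).mpr (Or.inr (Or.inr rfl))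
  obtain ⟨F, hF⟩ : ∃ F, F = freeCols T M j k := ⟨_, rfl⟩
  rw [← hF] at hzF hxF hyF ⊢
  clear hF hJ
  obtain ⟨N, hN⟩ : ∃ N, N = twoRow M j k F J := ⟨_, rfl⟩
  obtain ⟨N', hN'⟩ : ∃ N', N' = twoRow (switchMat M i j x y) j k (insert x (insert y F))
      (insert x (insert y (J.erase z))) := ⟨_, rfl⟩
  rw [← hN, ← hN']
  have hNx : ∀ a, N a x = M a x := by
    intro a
    rw [hN]
    unfold twoRow
    rw [if_neg hxF]
  have hNy : ∀ a, N a y = M a y := by
    intro a
    rw [hN]
    unfold twoRow
    rw [if_neg hyF]
  have hNiz : N i z = M i z := by
    rw [hN]
    unfold twoRow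
    rw [if_pos hzF, if_neg hij, if_neg hik]
  have hNjz : N j z = true := by
    rw [hN]
    unfold twoRow
    rw [if_pos hzF, if_pos rfl]
    exact decide_eq_true hz
  have hNkz : N k z = false := by
    rw [hN]
    unfold twoRow
    rw [if_pos hzF, if_neg hkj, if_pos rfl]
    exact decide_eq_false (fun h => h hz)
  have hcs : ∀ (s : Finset R) (c d : C) (P : R → C → Bool) (a : R) (b : C),
      colSwap s c d P a b
        = if a ∈ s then (if b = c then P a d else if b = d then P a c else P a b) else P a b :=
    fun _ _ _ _ _ _ => rfl
  cases hMiz : M i z with
  | false =>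
    have hres : res t N x = res t N z := by
      rw [threemixb_res hij hik hjk ht, threemixb_res hij hik hjk ht, hNx, hNx, hNx, hx1,
        hx2, hx3, hNiz, hMiz, hNjz, hNkz]
      rfl
    have htau : tau t x z N = colSwap t x z N := by
      unfold tau
      rw [if_pos hres]
    have hid : N' = switchMat (colSwap t x z N) i k z y := by
      funext a b
      rw [hN', hN]
      by_cases hbx : b = x
      · rw [hbx]
        by_cases hai : a = i
        · rw [hai]
          simp [twoRow, switchMat, *]
        · by_cases haj : a = j
          · rw [haj]
            simp [twoRow, switchMat, *]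
          · by_cases hak : a = k
            · rw [hak]
              simp [twoRow, switchMat, *]
            · have hat : a ∉ t := by
                rw [hmem]
                exact fun h => h.elim hai (fun h' => h'.elim haj hak)
              simp [twoRow, switchMat, *]
      · by_cases hby : b = y
        · rw [hby]
          by_cases hai : a = i
          · rw [hai]
            simp [twoRow, switchMat, *]
          · by_cases haj : a = j
            · rw [haj]
              simp [twoRow, switchMat, *]
            · by_cases hak : a = k
              · rw [hak]
                simp [twoRow, switchMat, *]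
              · have hat : a ∉ t := by
                  rw [hmem]
                  exact fun h => h.elim hai (fun h' => h'.elim haj hak)
                simp [twoRow, switchMat, *]
        · by_cases hbz : b = z
          · rw [hbz]
            by_cases hai : a = i
            · rw [hai]
              simp [twoRow, switchMat, *]
            · by_cases haj : a = j
              · rw [haj]
                simp [twoRow, switchMat, *]
              · by_cases hak : a = k
                · rw [hak]
                  simp [twoRow, switchMat, *]
                · have hat : a ∉ t := by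
                    rw [hmem]
                    exact fun h => h.elim hai (fun h' => h'.elim haj hak)
                  simp [twoRow, switchMat, *]
          · by_cases hbF : b ∈ F
            · simp [twoRow, switchMat, *]
            · simp [twoRow, switchMat, *]
    have hstep : MixedStep t T (colSwap t x z N) N' := by
      refine ⟨i, hit, k, hkt, j, hjt, hik, hij, hkj, z, hzT, y, hyT, ?_, ?_, ?_, ?_, ?_, ?_,
        hid⟩
      · unfold colSwap
        rw [if_pos hit, if_neg hzx, if_pos rfl, hNx, hx1]
      · unfold colSwap
        rw [if_pos hkt, if_neg hzx, if_pos rfl, hNx, hx3]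
      · unfold colSwap
        rw [if_pos hjt, if_neg hzx, if_pos rfl, hNx, hx2]
      · unfold colSwap
        rw [if_pos hit, if_neg hyx, if_neg hyz, hNy, hy1]
      · unfold colSwap
        rw [if_pos hkt, if_neg hyx, if_neg hyz, hNy, hy3]
      · unfold colSwap
        rw [if_pos hjt, if_neg hyx, if_neg hyz, hNy, hy2]
    have hfin := hL _ _ hstep
    rw [← htau, hτ x hxT z hzT N] at hfin
    exact hfin
  | true =>
    have hres : res t N y = res t N z := by
      rw [threemixb_res hij hik hjk ht, threemixb_res hij hik hjk ht, hNy, hNy, hNy, hy1,
        hy2, hy3, hNiz, hMiz, hNjz, hNkz]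
      rfl
    have htau : tau t y z N = colSwap t y z N := by
      unfold tau
      rw [if_pos hres]
    have hid : N' = switchMat (colSwap t y z N) i j x z := by
      funext a b
      rw [hN', hN]
      by_cases hbx : b = x
      · rw [hbx]
        by_cases hai : a = i
        · rw [hai]
          simp [twoRow, switchMat, *]
        · by_cases haj : a = j
          · rw [haj]
            simp [twoRow, switchMat, *]
          · by_cases hak : a = k
            · rw [hak]
              simp [twoRow, switchMat, *]
            · have hat : a ∉ t := by
                rw [hmem]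
                exact fun h => h.elim hai (fun h' => h'.elim haj hak)
              simp [twoRow, switchMat, *]
      · by_cases hby : b = y
        · rw [hby]
          by_cases hai : a = i
          · rw [hai]
            simp [twoRow, switchMat, *]
          · by_cases haj : a = j
            · rw [haj]
              simp [twoRow, switchMat, *]
            · by_cases hak : a = k
              · rw [hak]
                simp [twoRow, switchMat, *]
              · have hat : a ∉ t := by
                  rw [hmem]
                  exact fun h => h.elim hai (fun h' => h'.elim haj hak)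
                simp [twoRow, switchMat, *]
        · by_cases hbz : b = z
          · rw [hbz]
            by_cases hai : a = i
            · rw [hai]
              simp [twoRow, switchMat, *]
            · by_cases haj : a = j
              · rw [haj]
                simp [twoRow, switchMat, *]
              · by_cases hak : a = k
                · rw [hak]
                  simp [twoRow, switchMat, *]
                · have hat : a ∉ t := by
                    rw [hmem]
                    exact fun h => h.elim hai (fun h' => h'.elim haj hak)
                  simp [twoRow, switchMat, *]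
          · by_cases hbF : b ∈ F
            · simp [twoRow, switchMat, *]
            · simp [twoRow, switchMat, *]
    have hstep : MixedStep t T (colSwap t y z N) N' := by
      refine ⟨i, hit, j, hjt, k, hkt, hij, hik, hjk, x, hxT, z, hzT, ?_, ?_, ?_, ?_, ?_, ?_,
        hid⟩
      · unfold colSwap
        rw [if_pos hit, if_neg hxy, if_neg hxz, hNx, hx1]
      · unfold colSwap
        rw [if_pos hjt, if_neg hxy, if_neg hxz, hNx, hx2]
      · unfold colSwap
        rw [if_pos hkt, if_neg hxy, if_neg hxz, hNx, hx3]
      · unfold colSwap
        rw [if_pos hit, if_neg hzy, if_pos rfl, hNy, hy1]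
      · unfold colSwap
        rw [if_pos hjt, if_neg hzy, if_pos rfl, hNy, hy2]
      · unfold colSwap
        rw [if_pos hkt, if_neg hzy, if_pos rfl, hNy, hy3]
    have hfin := hL _ _ hstep
    rw [← htau, hτ y hyT z hzT N] at hfin
    exact hfin

end Vale.Agent.Lib.P335.Bip.Three
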