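import Vale.Agent.Lib.P335.Bip.ThreeDefs

/-!
# P335 / bipartite core: the two-row class after a mixed switch, pairs of the fourth kind

Setting as in `ThreeMixA`.  For `J ⊆ F` and `z ∈ F \ J` the matrix
`twoRow (switchMat M i j x y) j k F' (insert z J)` is obtained from `twoRow M j k F J` by a
column transposition `tau` followed by one mixed switch.
-/

namespace Vale.Agent.Lib.P335.Bip.Three

open Finset
open scoped Classical

variable {R C : Type*} [Fintype R] [Fintype C]

omit [Fintype R] [Fintype C] in
/-- The number of ones of a column in three distinct rows. -/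
theorem threemixc_res {i j k : R} (hij : i ≠ j) (hik : i ≠ k) (hjk : j ≠ k)
    (N : R → C → Bool) (c : C) :
    res ({i, j, k} : Finset R) N c =
      (if N i c = true then 1 else 0) + ((if N j c = true then 1 else 0)
        + (if N k c = true then 1 else 0)) := by
  unfold res
  by_cases h1 : N i c = true <;> by_cases h2 : N j c = true <;> by_cases h3 : N k c = true <;>
    simp [Finset.filter_insert, Finset.filter_singleton, h1, h2, h3, hij, hik, hjk]

theorem mix_insert_free (t : Finset R) (T : Finset C) {i j k : R}
    (hij : i ≠ j) (hik : i ≠ k) (hjk : j ≠ k) (ht : t = {i, j, k})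
    {x y : C} (hxT : x ∈ T) (hyT : y ∈ T) (M : R → C → Bool)
    (hx : M i x = true ∧ M j x = false ∧ M k x = false)
    (hy : M i y = false ∧ M j y = true ∧ M k y = true)
    (φ : (R → C → Bool) → ℝ) (L : ℝ)
    (hτ : ∀ a ∈ T, ∀ b ∈ T, ∀ N, φ (tau t a b N) = φ N)
    (hL : ∀ N N', MixedStep t T N N' → |φ N' - φ N| ≤ L)
    (J : Finset C) (hJ : J ⊆ freeCols T M j k) (z : C) (hz : z ∈ freeCols T M j k \ J) :
    |φ (twoRow (switchMat M i j x y) j k (insert x (insert y (freeCols T M j k))) (insert z J))
        - φ (twoRow M j k (freeCols T M j k) J)| ≤ L := by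
  subst ht
  obtain ⟨hix, hjx, hkx⟩ := hx
  obtain ⟨hiy, hjy, hky⟩ := hy
  have hzF : z ∈ freeCols T M j k := (Finset.mem_sdiff.mp hz).1
  have hzJ : z ∉ J := (Finset.mem_sdiff.mp hz).2
  have hzT : z ∈ T := (Finset.mem_filter.mp hzF).1
  have hxF : x ∉ freeCols T M j k := by simp [freeCols, hjx, hkx]
  have hyF : y ∉ freeCols T M j k := by simp [freeCols, hjy, hky]
  have hxJ : x ∉ J := fun h => hxF (hJ h)
  have hyJ : y ∉ J := fun h => hyF (hJ h)
  have hzx : z ≠ x := fun h => hxF (h ▸ hzF)
  have hzy : z ≠ y := fun h => hyF (h ▸ hzF)
  have hxy : x ≠ y := by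
    intro h
    rw [h, hiy] at hix
    exact Bool.false_ne_true hix
  have hji : j ≠ i := hij.symm
  have hki : k ≠ i := hik.symm
  have hkj : k ≠ j := hjk.symm
  have hxz : x ≠ z := hzx.symm
  have hyz : y ≠ z := hzy.symm
  have hyx : y ≠ x := hxy.symm
  set F := freeCols T M j k with hF
  set N := twoRow M j k F J with hN
  -- entries of N in the three special columns
  have hNix : N i x = true := by simp [hN, twoRow, hxF, hix]
  have hNjx : N j x = false := by simp [hN, twoRow, hxF, hjx]
  have hNkx : N k x = false := by simp [hN, twoRow, hxF, hkx]
  have hNiy : N i y = false := by simp [hN, twoRow, hyF, hiy]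
  have hNjy : N j y = true := by simp [hN, twoRow, hyF, hjy]
  have hNky : N k y = true := by simp [hN, twoRow, hyF, hky]
  have hNiz : N i z = M i z := by simp [hN, twoRow, hzF, hij, hik]
  have hNjz : N j z = false := by simp [hN, twoRow, hzF, hzJ]
  have hNkz : N k z = true := by simp [hN, twoRow, hzF, hzJ, hkj]
  have hit : i ∈ ({i, j, k} : Finset R) := by simp
  have hjt : j ∈ ({i, j, k} : Finset R) := by simp
  have hkt : k ∈ ({i, j, k} : Finset R) := by simp
  cases hMiz : M i z with
  | false =>
    rw [hMiz] at hNiz
    have hres : res ({i, j, k} : Finset R) N x = res ({i, j, k} : Finset R) N z := by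
      rw [threemixc_res hij hik hjk, threemixc_res hij hik hjk]
      simp [hNix, hNjx, hNkx, hNiz, hNjz, hNkz]
    have htau : tau ({i, j, k} : Finset R) x z N = colSwap ({i, j, k} : Finset R) x z N := by
      unfold tau
      rw [if_pos hres]
    have hmat : twoRow (switchMat M i j x y) j k (insert x (insert y F)) (insert z J)
        = switchMat (tau ({i, j, k} : Finset R) x z N) i j z y := by
      rw [htau]
      funext a b
      by_cases hbx : b = x
      · subst hbx
        by_cases hai : a = i
        · subst hai
          simp [twoRow, switchMat, colSwap, hij, hik, hxz, hxy, hNiz]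
        · by_cases haj : a = j
          · subst haj
            simp [twoRow, switchMat, colSwap, hji, hjk, hxz, hxy, hxJ, hNjz]
          · by_cases hak : a = k
            · subst hak
              simp [twoRow, switchMat, colSwap, hki, hkj, hxz, hxy, hxJ, hNkz]
            · simp [twoRow, switchMat, colSwap, hai, haj, hak, hxz, hxy, hN, hxF]
      · by_cases hby : b = y
        · subst hby
          by_cases hai : a = i
          · subst hai
            simp [twoRow, switchMat, hij, hik, hyz, hyx]
          · by_cases haj : a = j
            · subst haj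
              simp [twoRow, switchMat, hji, hyz, hyx, hyJ]
            · by_cases hak : a = k
              · subst hak
                simp [twoRow, switchMat, colSwap, hki, hkj, hyz, hyx, hyJ, hNky]
              · simp [twoRow, switchMat, colSwap, hai, haj, hak, hyz, hyx, hN, hyF]
        · by_cases hbz : b = z
          · subst hbz
            by_cases hai : a = i
            · subst hai
              simp [twoRow, switchMat, hij, hik, hzx, hzy, hzF, hMiz]
            · by_cases haj : a = j
              · subst haj
                simp [twoRow, switchMat, hji, hzx, hzy, hzF]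
              · by_cases hak : a = k
                · subst hak
                  simp [twoRow, switchMat, colSwap, hki, hkj, hzx, hzy, hzF, hNkx]
                · simp [twoRow, switchMat, colSwap, hai, haj, hak, hzx, hzy, hN, hzF]
          · simp [twoRow, switchMat, colSwap, hbx, hby, hbz, hN]
    have hstep : MixedStep ({i, j, k} : Finset R) T (tau ({i, j, k} : Finset R) x z N)
        (twoRow (switchMat M i j x y) j k (insert x (insert y F)) (insert z J)) := by
      refine ⟨i, hit, j, hjt, k, hkt, hij, hik, hjk, z, hzT, y, hyT, ?_, ?_, ?_, ?_, ?_, ?_, hmat⟩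
      · rw [htau]; simp [colSwap, hzx, hNix]
      · rw [htau]; simp [colSwap, hzx, hNjx]
      · rw [htau]; simp [colSwap, hzx, hNkx]
      · rw [htau]; simp [colSwap, hyx, hyz, hNiy]
      · rw [htau]; simp [colSwap, hyx, hyz, hNjy]
      · rw [htau]; simp [colSwap, hyx, hyz, hNky]
    have h1 := hL _ _ hstep
    rw [hτ x hxT z hzT N] at h1
    exact h1
  | true =>
    rw [hMiz] at hNiz
    have hres : res ({i, j, k} : Finset R) N y = res ({i, j, k} : Finset R) N z := by
      rw [threemixc_res hij hik hjk, threemixc_res hij hik hjk]
      simp [hNiy, hNjy, hNky, hNiz, hNjz, hNkz]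
    have htau : tau ({i, j, k} : Finset R) y z N = colSwap ({i, j, k} : Finset R) y z N := by
      unfold tau
      rw [if_pos hres]
    have hmat : twoRow (switchMat M i j x y) j k (insert x (insert y F)) (insert z J)
        = switchMat (tau ({i, j, k} : Finset R) y z N) i k x z := by
      rw [htau]
      funext a b
      by_cases hbx : b = x
      · subst hbx
        by_cases hai : a = i
        · subst hai
          simp [twoRow, switchMat, hij, hik, hxy]
        · by_cases haj : a = j
          · subst haj
            simp [twoRow, switchMat, colSwap, hji, hjk, hxz, hxy, hxJ, hNjx]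
          · by_cases hak : a = k
            · subst hak
              simp [twoRow, switchMat, hki, hkj, hxz, hxy, hxJ]
            · simp [twoRow, switchMat, colSwap, hai, haj, hak, hxz, hxy, hN, hxF]
      · by_cases hby : b = y
        · subst hby
          by_cases hai : a = i
          · subst hai
            simp [twoRow, switchMat, colSwap, hij, hik, hyz, hyx, hNiz]
          · by_cases haj : a = j
            · subst haj
              simp [twoRow, switchMat, colSwap, hji, hjk, hyz, hyx, hyJ, hNjz]
            · by_cases hak : a = k
              · subst hak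
                simp [twoRow, switchMat, colSwap, hki, hkj, hyz, hyx, hyJ, hNkz]
              · simp [twoRow, switchMat, colSwap, hai, haj, hak, hyz, hyx, hN, hyF]
        · by_cases hbz : b = z
          · subst hbz
            by_cases hai : a = i
            · subst hai
              simp [twoRow, switchMat, hij, hik, hzx, hzy, hzF, hMiz]
            · by_cases haj : a = j
              · subst haj
                simp [twoRow, switchMat, colSwap, hji, hjk, hzx, hzy, hzF, hNjy]
              · by_cases hak : a = k
                · subst hak
                  simp [twoRow, switchMat, hki, hkj, hzx, hzy, hzF]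
                · simp [twoRow, switchMat, colSwap, hai, haj, hak, hzx, hzy, hN, hzF]
          · simp [twoRow, switchMat, colSwap, hbx, hby, hbz, hN]
    have hstep : MixedStep ({i, j, k} : Finset R) T (tau ({i, j, k} : Finset R) y z N)
        (twoRow (switchMat M i j x y) j k (insert x (insert y F)) (insert z J)) := by
      refine ⟨i, hit, k, hkt, j, hjt, hik, hij, hkj, x, hxT, z, hzT, ?_, ?_, ?_, ?_, ?_, ?_, hmat⟩
      · rw [htau]; simp [colSwap, hxy, hxz, hNix]
      · rw [htau]; simp [colSwap, hxy, hxz, hNkx]
      · rw [htau]; simp [colSwap, hxy, hxz, hNjx]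
      · rw [htau]; simp [colSwap, hzy, hNiy]
      · rw [htau]; simp [colSwap, hzy, hNky]
      · rw [htau]; simp [colSwap, hzy, hNjy]
    have h1 := hL _ _ hstep
    rw [hτ y hyT z hzT N] at h1
    exact h1

end Vale.Agent.Lib.P335.Bip.Three
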