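import Vale.Agent.Lib.P335.Bip.ThreePair

/-!
# P335 / bipartite core: a mixed switch changes the sum of the three pair averages by at most
twice the Lipschitz constant
-/

namespace Vale.Agent.Lib.P335.Bip.Three

open Finset
open scoped Classical

variable {R C : Type*} [Fintype R] [Fintype C]

/-- Counting the true values of a Boolean function is invariant under a bijection. -/
lemma threemixsum_card_filter_equiv {α : Type*} [Fintype α] (e : α ≃ α) (f : α → Bool) :
    (univ.filter (fun a => f (e a) = true)).card = (univ.filter (fun a => f a = true)).card := by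
  refine Finset.card_bij (fun a _ => e a) ?_ ?_ ?_
  · intro a ha
    simpa using ha
  · intro a _ b _ h
    exact e.injective h
  · intro b hb
    refine ⟨e.symm b, ?_, ?_⟩
    · simpa using hb
    · simp

omit [Fintype R] [Fintype C] in
/-- On the two switched rows the switch permutes the two columns. -/
lemma threemixsum_switch_row {M : R → C → Bool} {i i' : R} {x y : C} (hi : i ≠ i')
    (hx : x ≠ y) (h1 : M i x = true) (h2 : M i' x = false) (h3 : M i y = false)
    (h4 : M i' y = true) (a : R) (b : C) :
    switchMat M i i' x y a b = if a = i ∨ a = i' then M a (Equiv.swap x y b) else M a b := by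
  unfold switchMat
  by_cases ha : a = i
  · subst ha
    by_cases hb : b = x
    · subst hb
      simp [h3]
    · by_cases hb' : b = y
      · subst hb'
        simp [hb, h1]
      · simp [hb, hb', Equiv.swap_apply_of_ne_of_ne hb hb']
  · by_cases ha' : a = i'
    · subst ha'
      by_cases hb : b = x
      · subst hb
        simp [ha, h4]
      · by_cases hb' : b = y
        · subst hb'
          simp [ha, hb, h2]
        · simp [ha, hb, hb', Equiv.swap_apply_of_ne_of_ne hb hb']
    · simp [ha, ha']

omit [Fintype R] [Fintype C] in
/-- On the two switched columns the switch permutes the two rows. -/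
lemma threemixsum_switch_col {M : R → C → Bool} {i i' : R} {x y : C} (hi : i ≠ i')
    (hx : x ≠ y) (h1 : M i x = true) (h2 : M i' x = false) (h3 : M i y = false)
    (h4 : M i' y = true) (a : R) (b : C) :
    switchMat M i i' x y a b = if b = x ∨ b = y then M (Equiv.swap i i' a) b else M a b := by
  unfold switchMat
  by_cases hb : b = x
  · subst hb
    by_cases ha : a = i
    · subst ha
      simp [h2]
    · by_cases ha' : a = i'
      · subst ha'
        simp [ha, h1]
      · simp [ha, ha', Equiv.swap_apply_of_ne_of_ne ha ha']
  · by_cases hb' : b = y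
    · subst hb'
      by_cases ha : a = i
      · subst ha
        simp [hb, h4]
      · by_cases ha' : a = i'
        · subst ha'
          simp [ha, hb, h3]
        · simp [ha, ha', hb, Equiv.swap_apply_of_ne_of_ne ha ha']
    · simp [hb, hb']

/-- A switch on rows `i, j` and columns `x, y` of `T` stays in the class of the block
`{i, j} × T`. -/
theorem rel_switchMat (T : Finset C) {i j : R} (hij : i ≠ j) {x y : C} (hxT : x ∈ T)
    (hyT : y ∈ T) (M : R → C → Bool) (h1 : M i x = true) (h2 : M j x = false)
    (h3 : M i y = false) (h4 : M j y = true) : Rel {i, j} T M (switchMat M i j x y) := by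
  have hxy : x ≠ y := by
    rintro rfl
    rw [h1] at h3
    exact Bool.noConfusion h3
  refine ⟨?_, ?_, ?_⟩
  · intro a b hab
    rw [threemixsum_switch_row hij hxy h1 h2 h3 h4 a b]
    by_cases ha : a = i ∨ a = j
    · rw [if_pos ha]
      have hb : b ≠ x ∧ b ≠ y := by
        constructor
        · rintro rfl
          apply hab
          simp only [Finset.mem_insert, Finset.mem_singleton]
          exact ⟨ha, hxT⟩
        · rintro rfl
          apply hab
          simp only [Finset.mem_insert, Finset.mem_singleton]
          exact ⟨ha, hyT⟩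
      rw [Equiv.swap_apply_of_ne_of_ne hb.1 hb.2]
    · rw [if_neg ha]
  · intro a
    unfold rowSum
    by_cases ha : a = i ∨ a = j
    · have hrow : ∀ b, switchMat M i j x y a b = M a (Equiv.swap x y b) := by
        intro b
        rw [threemixsum_switch_row hij hxy h1 h2 h3 h4 a b, if_pos ha]
      simp only [hrow]
      exact threemixsum_card_filter_equiv (Equiv.swap x y) (fun b => M a b)
    · have hrow : ∀ b, switchMat M i j x y a b = M a b := by
        intro b
        rw [threemixsum_switch_row hij hxy h1 h2 h3 h4 a b, if_neg ha]
      simp only [hrow]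
  · intro b
    unfold colSum
    by_cases hb : b = x ∨ b = y
    · have hcol : ∀ a, switchMat M i j x y a b = M (Equiv.swap i j a) b := by
        intro a
        rw [threemixsum_switch_col hij hxy h1 h2 h3 h4 a b, if_pos hb]
      simp only [hcol]
      exact threemixsum_card_filter_equiv (Equiv.swap i j) (fun a => M a b)
    · have hcol : ∀ a, switchMat M i j x y a b = M a b := by
        intro a
        rw [threemixsum_switch_col hij hxy h1 h2 h3 h4 a b, if_neg hb]
      simp only [hcol]

omit [Fintype R] [Fintype C] in
/-- Switching back restores the matrix. -/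
lemma threemixsum_switch_back {M : R → C → Bool} {i j : R} {x y : C} (hij : i ≠ j)
    (hxy : x ≠ y) (h1 : M i x = true) (h2 : M j x = false) (h3 : M i y = false)
    (h4 : M j y = true) : switchMat (switchMat M i j x y) j i x y = M := by
  funext a b
  unfold switchMat
  by_cases ha : a = i
  · subst ha
    by_cases hb : b = x
    · subst hb
      simp [hij, h1]
    · by_cases hb' : b = y
      · subst hb'
        simp [hij, hb, h3]
      · simp [hb, hb']
  · by_cases ha' : a = j
    · subst ha'
      by_cases hb : b = x
      · subst hb
        simp [h2]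
      · by_cases hb' : b = y
        · subst hb'
          simp [hb, h4]
        · simp [hb, hb']
    · simp [ha, ha']

theorem sum_avg_mixed_le (t : Finset R) (ht : t.card = 3) (T : Finset C)
    (φ : (R → C → Bool) → ℝ) (L : ℝ)
    (hτ : ∀ a ∈ T, ∀ b ∈ T, ∀ N, φ (tau t a b N) = φ N)
    (hL : ∀ N N', MixedStep t T N N' → |φ N' - φ N| ≤ L)
    {M M' : R → C → Bool} (h : MixedStep t T M M') :
    |∑ u ∈ t, avg (t.erase u) T φ M' - ∑ u ∈ t, avg (t.erase u) T φ M| ≤ 2 * L := by
  obtain ⟨i, hi, j, hj, k, hk, hij, hik, hjk, x, hxT, y, hyT, h1, h2, h3, h4, h5, h6, rfl⟩ := h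
  have hxy : x ≠ y := by
    rintro rfl
    rw [h1] at h4
    exact Bool.noConfusion h4
  have hni : i ∉ ({j, k} : Finset R) := by simp [hij, hik]
  have hnj : j ∉ ({k} : Finset R) := by simpa using hjk
  have htE : t = {i, j, k} := by
    symm
    apply Finset.eq_of_subset_of_card_le
    · intro a ha
      simp only [Finset.mem_insert, Finset.mem_singleton] at ha
      rcases ha with rfl | rfl | rfl <;> assumption
    · rw [ht, Finset.card_insert_of_notMem hni, Finset.card_insert_of_notMem hnj,
        Finset.card_singleton]
  subst htE
  have e_i : ({i, j, k} : Finset R).erase i = {j, k} := by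
    ext a
    simp only [Finset.mem_erase, Finset.mem_insert, Finset.mem_singleton]
    constructor
    · rintro ⟨hne, h | h | h⟩
      · exact absurd h hne
      · exact Or.inl h
      · exact Or.inr h
    · rintro (h | h)
      · exact ⟨by rw [h]; exact hij.symm, Or.inr (Or.inl h)⟩
      · exact ⟨by rw [h]; exact hik.symm, Or.inr (Or.inr h)⟩
  have e_j : ({i, j, k} : Finset R).erase j = {i, k} := by
    ext a
    simp only [Finset.mem_erase, Finset.mem_insert, Finset.mem_singleton]
    constructor
    · rintro ⟨hne, h | h | h⟩
      · exact Or.inl h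
      · exact absurd h hne
      · exact Or.inr h
    · rintro (h | h)
      · exact ⟨by rw [h]; exact hij, Or.inl h⟩
      · exact ⟨by rw [h]; exact hjk.symm, Or.inr (Or.inr h)⟩
  have e_k : ({i, j, k} : Finset R).erase k = {i, j} := by
    ext a
    simp only [Finset.mem_erase, Finset.mem_insert, Finset.mem_singleton]
    constructor
    · rintro ⟨hne, h | h | h⟩
      · exact Or.inl h
      · exact Or.inr h
      · exact absurd h hne
    · rintro (h | h)
      · exact ⟨by rw [h]; exact hik, Or.inl h⟩
      · exact ⟨by rw [h]; exact hjk, Or.inr (Or.inl h)⟩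
  have hsum : ∀ N : R → C → Bool,
      ∑ u ∈ ({i, j, k} : Finset R), avg (({i, j, k} : Finset R).erase u) T φ N
        = avg {j, k} T φ N + avg {i, k} T φ N + avg {i, j} T φ N := by
    intro N
    rw [Finset.sum_insert hni, Finset.sum_insert hnj, Finset.sum_singleton, e_i, e_j, e_k]
    ring
  rw [hsum, hsum]
  -- term `k`: the switch stays in the class of the block of rows `i, j`
  have hk0 : avg {i, j} T φ (switchMat M i j x y) = avg {i, j} T φ M :=
    avg_eq_of_rel φ (rel_switchMat T hij hxT hyT M h1 h2 h4 h5)
  -- term `i`
  have hi0 : |avg {j, k} T φ (switchMat M i j x y) - avg {j, k} T φ M| ≤ L :=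
    avg_pair_mixed_le ({i, j, k} : Finset R) T hij hik hjk rfl hxT hyT M ⟨h1, h2, h3⟩
      ⟨h4, h5, h6⟩ φ L hτ hL
  -- term `j`: the reversed switch
  have hM'jx : switchMat M i j x y j x = true := by
    unfold switchMat; simp [hij.symm]
  have hM'ix : switchMat M i j x y i x = false := by
    unfold switchMat; simp
  have hM'kx : switchMat M i j x y k x = false := by
    unfold switchMat; simp [hik.symm, hjk.symm, h3]
  have hM'jy : switchMat M i j x y j y = false := by
    unfold switchMat; simp [hij.symm, hxy.symm]
  have hM'iy : switchMat M i j x y i y = true := by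
    unfold switchMat; simp [hxy.symm]
  have hM'ky : switchMat M i j x y k y = true := by
    unfold switchMat; simp [hik.symm, hjk.symm, h6]
  have hj0 : |avg {i, k} T φ (switchMat (switchMat M i j x y) j i x y)
      - avg {i, k} T φ (switchMat M i j x y)| ≤ L :=
    avg_pair_mixed_le ({i, j, k} : Finset R) T hij.symm hjk hik (Finset.insert_comm i j {k})
      hxT hyT (switchMat M i j x y) ⟨hM'jx, hM'ix, hM'kx⟩ ⟨hM'jy, hM'iy, hM'ky⟩ φ L hτ hL
  rw [threemixsum_switch_back hij hxy h1 h2 h4 h5] at hj0
  rw [hk0]
  rw [abs_le] at hi0 hj0 ⊢
  constructor <;> linarith [hi0.1, hi0.2, hj0.1, hj0.2]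

end Vale.Agent.Lib.P335.Bip.Three
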