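import Vale.Agent.Lib.P335.Bip.ThreeDefs
import Vale.Agent.Lib.P335.Bip.ThreeAvg

/-!
# P335 / bipartite core: parametrization of a two-row class by subsets of the free columns
-/

namespace Vale.Agent.Lib.P335.Bip.Three

open Finset
open scoped Classical

variable {R C : Type*} [Fintype R] [Fintype C]

theorem freeCount_le (T : Finset C) (M : R → C → Bool) (j k : R) :
    freeCount T M j k ≤ (freeCols T M j k).card := by
  unfold freeCount
  exact Finset.card_filter_le _ _

omit [Fintype R] [Fintype C] in
private theorem threetworow_pair_card (M : R → C → Bool) {j k : R} (hjk : j ≠ k) (b : C) :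
    (({j, k} : Finset R).filter (fun a => M a b = true)).card
      = (M j b).toNat + (M k b).toNat := by
  rw [Finset.filter_insert, Finset.filter_singleton]
  cases hj : M j b <;> cases hk : M k b <;> simp [hjk]

omit [Fintype C] in
private theorem threetworow_col_iff {M N : R → C → Bool} {j k : R} (hjk : j ≠ k) (b : C)
    (hout : ∀ a, a ≠ j → a ≠ k → N a b = M a b) :
    colSum N b = colSum M b ↔
      (N j b).toNat + (N k b).toNat = (M j b).toNat + (M k b).toNat := by
  rw [Bip.colSum_split {j, k} N b, Bip.colSum_split {j, k} M b,
    threetworow_pair_card N hjk b, threetworow_pair_card M hjk b]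
  have hc : (({j, k} : Finset R)ᶜ.filter (fun a => N a b = true))
      = (({j, k} : Finset R)ᶜ.filter (fun a => M a b = true)) := by
    apply Finset.filter_congr
    intro a ha
    rw [Finset.mem_compl, Finset.mem_insert, Finset.mem_singleton] at ha
    push Not at ha
    rw [hout a ha.1 ha.2]
  rw [hc]
  omega

omit [Fintype R] in
private theorem threetworow_rowSum_split (F : Finset C) (M : R → C → Bool) (a : R) :
    rowSum M a = (F.filter (fun c => M a c = true)).card
      + (Fᶜ.filter (fun c => M a c = true)).card := by
  unfold rowSum
  rw [← Finset.card_union_of_disjoint]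
  · congr 1
    ext c
    simp only [mem_filter, mem_univ, true_and, mem_union, mem_compl]
    tauto
  · rw [Finset.disjoint_left]
    intro c hc hc'
    simp only [mem_filter, mem_compl] at hc hc'
    exact hc'.1 hc.1

private theorem threetworow_rel (T : Finset C) (M : R → C → Bool) {j k : R} (hjk : j ≠ k)
    {J : Finset C} (hJ : J ⊆ freeCols T M j k) (hcard : J.card = freeCount T M j k) :
    Rel {j, k} T M (twoRow M j k (freeCols T M j k) J) := by
  have hFT : ∀ b, b ∈ freeCols T M j k → b ∈ T := fun b hb => (Finset.mem_filter.mp hb).1
  have hFne : ∀ b, b ∈ freeCols T M j k → M j b ≠ M k b :=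
    fun b hb => (Finset.mem_filter.mp hb).2
  have hkj : k ≠ j := fun h => hjk h.symm
  have hNj : ∀ b, b ∈ freeCols T M j k →
      twoRow M j k (freeCols T M j k) J j b = decide (b ∈ J) := by
    intro b hb
    simp [twoRow, hb]
  have hNk : ∀ b, b ∈ freeCols T M j k →
      twoRow M j k (freeCols T M j k) J k b = decide (b ∉ J) := by
    intro b hb
    simp [twoRow, hb, hkj]
  have hNo : ∀ a b, a ≠ j → a ≠ k → twoRow M j k (freeCols T M j k) J a b = M a b := by
    intro a b ha1 ha2
    simp [twoRow, ha1, ha2]
  have hNF : ∀ a b, b ∉ freeCols T M j k →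
      twoRow M j k (freeCols T M j k) J a b = M a b := by
    intro a b hb
    simp [twoRow, hb]
  refine ⟨?_, ?_, ?_⟩
  · intro a b hab
    by_cases hb : b ∈ freeCols T M j k
    · have haj : a ≠ j := by
        intro h
        exact hab ⟨by rw [h]; simp, hFT b hb⟩
      have hak : a ≠ k := by
        intro h
        exact hab ⟨by rw [h]; simp, hFT b hb⟩
      exact hNo a b haj hak
    · exact hNF a b hb
  · intro a
    by_cases haj : a = j
    · rw [haj, threetworow_rowSum_split (freeCols T M j k) _ j,
        threetworow_rowSum_split (freeCols T M j k) M j]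
      have h1 : (freeCols T M j k).filter
          (fun c => twoRow M j k (freeCols T M j k) J j c = true) = J := by
        ext c
        simp only [mem_filter]
        constructor
        · rintro ⟨hc, h⟩
          rw [hNj c hc] at h
          simpa using h
        · intro hc
          refine ⟨hJ hc, ?_⟩
          rw [hNj c (hJ hc)]
          simpa using hc
      have h2 : (freeCols T M j k)ᶜ.filter
          (fun c => twoRow M j k (freeCols T M j k) J j c = true)
          = (freeCols T M j k)ᶜ.filter (fun c => M j c = true) := by
        apply Finset.filter_congr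
        intro c hc
        rw [hNF j c (Finset.mem_compl.mp hc)]
      rw [h1, h2, hcard]
      rfl
    · by_cases hak : a = k
      · rw [hak, threetworow_rowSum_split (freeCols T M j k) _ k,
          threetworow_rowSum_split (freeCols T M j k) M k]
        have h1 : (freeCols T M j k).filter
            (fun c => twoRow M j k (freeCols T M j k) J k c = true)
            = freeCols T M j k \ J := by
          ext c
          simp only [mem_filter, mem_sdiff]
          constructor
          · rintro ⟨hc, h⟩
            rw [hNk c hc] at h
            exact ⟨hc, by simpa using h⟩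
          · rintro ⟨hc, hcJ⟩
            refine ⟨hc, ?_⟩
            rw [hNk c hc]
            simpa using hcJ
        have h2 : (freeCols T M j k)ᶜ.filter
            (fun c => twoRow M j k (freeCols T M j k) J k c = true)
            = (freeCols T M j k)ᶜ.filter (fun c => M k c = true) := by
          apply Finset.filter_congr
          intro c hc
          rw [hNF k c (Finset.mem_compl.mp hc)]
        have h3 : (freeCols T M j k).filter (fun c => M k c = true)
            = freeCols T M j k \ (freeCols T M j k).filter (fun c => M j c = true) := by
          ext c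
          simp only [mem_filter, mem_sdiff, not_and]
          constructor
          · rintro ⟨hc, h⟩
            exact ⟨hc, fun _ hj => hFne c hc (hj.trans h.symm)⟩
          · rintro ⟨hc, h⟩
            refine ⟨hc, ?_⟩
            have h4 := hFne c hc
            have h5 := h hc
            revert h4 h5
            cases M j c <;> cases M k c <;> simp
        rw [h1, h2, h3, Finset.card_sdiff_of_subset hJ,
          Finset.card_sdiff_of_subset (Finset.filter_subset _ _), hcard]
        rfl
      · exact Bip.rowSum_congr (fun c => hNo a c haj hak)
  · intro b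
    by_cases hb : b ∈ freeCols T M j k
    · rw [threetworow_col_iff hjk b (fun a h1 h2 => hNo a b h1 h2), hNj b hb, hNk b hb]
      have h4 := hFne b hb
      revert h4
      by_cases hbJ : b ∈ J <;> cases M j b <;> cases M k b <;> simp [hbJ]
    · unfold colSum
      congr 1
      ext a
      simp [hNF a b hb]

private theorem threetworow_of_rel (T : Finset C) (M : R → C → Bool) {j k : R} (hjk : j ≠ k)
    {N : R → C → Bool} (h : Rel {j, k} T M N) :
    ∃ J, J ⊆ freeCols T M j k ∧ J.card = freeCount T M j k ∧
      twoRow M j k (freeCols T M j k) J = N := by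
  obtain ⟨hout, hrow, hcol⟩ := h
  have hkj : k ≠ j := fun h => hjk h.symm
  have hNo : ∀ a b, a ≠ j → a ≠ k → N a b = M a b := by
    intro a b h1 h2
    apply hout
    rintro ⟨ha, -⟩
    rw [Finset.mem_insert, Finset.mem_singleton] at ha
    rcases ha with ha | ha
    · exact h1 ha
    · exact h2 ha
  have hNT : ∀ a b, b ∉ T → N a b = M a b := fun a b hb => hout a b (fun h => hb h.2)
  have hsum : ∀ b, (N j b).toNat + (N k b).toNat = (M j b).toNat + (M k b).toNat := fun b =>
    (threetworow_col_iff hjk b (fun a h1 h2 => hNo a b h1 h2)).mp (hcol b)
  have hmemF : ∀ b, b ∈ freeCols T M j k ↔ b ∈ T ∧ M j b ≠ M k b :=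
    fun b => Finset.mem_filter
  have hFk : ∀ b, b ∈ freeCols T M j k → N k b = !N j b := by
    intro b hb
    have h1 := ((hmemF b).mp hb).2
    have h2 := hsum b
    revert h1 h2
    cases N j b <;> cases N k b <;> cases M j b <;> cases M k b <;> simp
  have hnF : ∀ b, b ∉ freeCols T M j k → N j b = M j b ∧ N k b = M k b := by
    intro b hb
    by_cases hT : b ∈ T
    · have h1 : M j b = M k b := by
        by_contra hne
        exact hb ((hmemF b).mpr ⟨hT, hne⟩)
      have h2 := hsum b
      revert h1 h2
      cases N j b <;> cases N k b <;> cases M j b <;> cases M k b <;> simp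
    · exact ⟨hNT j b hT, hNT k b hT⟩
  refine ⟨(freeCols T M j k).filter (fun b => N j b = true), Finset.filter_subset _ _, ?_, ?_⟩
  · have hr := hrow j
    rw [threetworow_rowSum_split (freeCols T M j k) N j,
      threetworow_rowSum_split (freeCols T M j k) M j] at hr
    have h2 : (freeCols T M j k)ᶜ.filter (fun c => N j c = true)
        = (freeCols T M j k)ᶜ.filter (fun c => M j c = true) := by
      apply Finset.filter_congr
      intro c hc
      rw [(hnF c (Finset.mem_compl.mp hc)).1]
    rw [h2] at hr
    unfold freeCount
    omega
  · funext a b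
    by_cases hb : b ∈ freeCols T M j k
    · by_cases haj : a = j
      · rw [haj]
        simp [twoRow, hb]
      · by_cases hak : a = k
        · rw [hak]
          simp [twoRow, hb, hkj, hFk b hb]
        · simp [twoRow, hb, haj, hak, hNo a b haj hak]
    · have h1 : twoRow M j k (freeCols T M j k)
          ((freeCols T M j k).filter (fun b => N j b = true)) a b = M a b := by
        simp [twoRow, hb]
      rw [h1]
      by_cases haj : a = j
      · rw [haj]
        exact (hnF b hb).1.symm
      · by_cases hak : a = k
        · rw [hak]
          exact (hnF b hb).2.symm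
        · exact (hNo a b haj hak).symm

omit [Fintype R] [Fintype C] in
private theorem threetworow_injOn (M : R → C → Bool) (j k : R) (F : Finset C) :
    ∀ J ⊆ F, ∀ J' ⊆ F, twoRow M j k F J = twoRow M j k F J' → J = J' := by
  intro J hJ J' hJ' h
  ext b
  by_cases hb : b ∈ F
  · have h1 := congrFun (congrFun h j) b
    simp only [twoRow, hb, if_true] at h1
    simpa using h1
  · exact ⟨fun hbJ => absurd (hJ hbJ) hb, fun hbJ => absurd (hJ' hbJ) hb⟩

private theorem threetworow_cls_eq (T : Finset C) (M : R → C → Bool) {j k : R} (hjk : j ≠ k) :
    cls {j, k} T M = ((freeCols T M j k).powersetCard (freeCount T M j k)).image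
      (twoRow M j k (freeCols T M j k)) := by
  ext N
  rw [mem_cls, Finset.mem_image]
  constructor
  · intro h
    obtain ⟨J, hJ, hc, hN⟩ := threetworow_of_rel T M hjk h
    exact ⟨J, Finset.mem_powersetCard.mpr ⟨hJ, hc⟩, hN⟩
  · rintro ⟨J, hJ, rfl⟩
    rw [Finset.mem_powersetCard] at hJ
    exact threetworow_rel T M hjk hJ.1 hJ.2

/-- The average over a two-row class is the average over the subsets `J` of the free columns
of the prescribed size. -/
theorem avg_pair_eq (T : Finset C) (M : R → C → Bool) {j k : R} (hjk : j ≠ k)
    (f : (R → C → Bool) → ℝ) :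
    avg {j, k} T f M
      = (∑ J ∈ (freeCols T M j k).powersetCard (freeCount T M j k),
            f (twoRow M j k (freeCols T M j k) J))
          / (((freeCols T M j k).powersetCard (freeCount T M j k)).card : ℝ) := by
  have hinj : ∀ J ∈ (freeCols T M j k).powersetCard (freeCount T M j k),
      ∀ J' ∈ (freeCols T M j k).powersetCard (freeCount T M j k),
      twoRow M j k (freeCols T M j k) J = twoRow M j k (freeCols T M j k) J' → J = J' := by
    intro J hJ J' hJ' h
    exact threetworow_injOn M j k _ J (Finset.mem_powersetCard.mp hJ).1 J'
      (Finset.mem_powersetCard.mp hJ').1 h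
  show (∑ M' ∈ cls {j, k} T M, f M') / ((cls {j, k} T M).card : ℝ) = _
  rw [threetworow_cls_eq T M hjk, Finset.sum_image hinj, Finset.card_image_of_injOn]
  intro J hJ J' hJ' h
  exact hinj J (Finset.mem_coe.mp hJ) J' (Finset.mem_coe.mp hJ') h

end Vale.Agent.Lib.P335.Bip.Three
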