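import Vale.Agent.Lib.P335.Bip.JCoupling
import Vale.Agent.Lib.P335.Bip.ThreeTwoRow
import Vale.Agent.Lib.P335.Bip.ThreeFree
import Vale.Agent.Lib.P335.Bip.ThreeMixA
import Vale.Agent.Lib.P335.Bip.ThreeMixB
import Vale.Agent.Lib.P335.Bip.ThreeMixC

/-!
# P335 / bipartite core: a mixed switch on rows `i, j` changes the average over the class of
rows `j, k` by at most the Lipschitz constant
-/

namespace Vale.Agent.Lib.P335.Bip.Three

open Finset
open scoped Classical

variable {R C : Type*} [Fintype R] [Fintype C]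

theorem avg_pair_mixed_le (t : Finset R) (T : Finset C) {i j k : R}
    (hij : i ≠ j) (hik : i ≠ k) (hjk : j ≠ k) (ht : t = {i, j, k})
    {x y : C} (hxT : x ∈ T) (hyT : y ∈ T) (M : R → C → Bool)
    (hx : M i x = true ∧ M j x = false ∧ M k x = false)
    (hy : M i y = false ∧ M j y = true ∧ M k y = true)
    (φ : (R → C → Bool) → ℝ) (L : ℝ)
    (hτ : ∀ a ∈ T, ∀ b ∈ T, ∀ N, φ (tau t a b N) = φ N)
    (hL : ∀ N N', MixedStep t T N N' → |φ N' - φ N| ≤ L) :
    |avg {j, k} T φ (switchMat M i j x y) - avg {j, k} T φ M| ≤ L := by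
  obtain ⟨hxF, hyF, hxy, hF, hs⟩ := freeCols_switch T M hij hik hjk hxT hyT hx hy
  rw [avg_pair_eq T (switchMat M i j x y) hjk φ, avg_pair_eq T M hjk φ, hF, hs]
  exact J_coupling (freeCols T M j k) x y hxF hyF hxy (freeCount T M j k)
    (freeCount_le T M j k)
    (fun J => φ (twoRow M j k (freeCols T M j k) J))
    (fun J' => φ (twoRow (switchMat M i j x y) j k (insert x (insert y (freeCols T M j k))) J'))
    L
    (fun J hJ => mix_insert_x t T hij hik hjk ht hxT hyT M hx hy φ L hL J
      (Finset.mem_powersetCard.1 hJ).1)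
    (fun J hJ => mix_insert_y t T hij hik hjk ht hxT hyT M hx hy φ L hL J
      (Finset.mem_powersetCard.1 hJ).1)
    (fun J hJ z hz => mix_erase t T hij hik hjk ht hxT hyT M hx hy φ L hτ hL J
      (Finset.mem_powersetCard.1 hJ).1 z hz)
    (fun J hJ z hz => mix_insert_free t T hij hik hjk ht hxT hyT M hx hy φ L hτ hL J
      (Finset.mem_powersetCard.1 hJ).1 z hz)

end Vale.Agent.Lib.P335.Bip.Three
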