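import Vale.Agent.Lib.P335.Bip.Spectral
import Vale.Agent.Lib.P335.Bip.ThreeCaseOne
import Vale.Agent.Lib.P335.Bip.ThreeCaseTwo
import Vale.Agent.Lib.P335.Bip.ThreeDich
import Vale.Agent.Lib.P335.Bip.ThreeIndex

/-!
# P335 / bipartite core: the three-row inequality

For three rows `t` and any set of columns `T`, the three pair-averaging operators satisfy
`E_{p_1} + E_{p_2} + E_{p_3} ≤ 2 + E_t` as quadratic forms, provided the class of the block
`t × T` is connected by switches.
-/

namespace Vale.Agent.Lib.P335.Bip.Three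

open Finset
open scoped Classical

variable {R C : Type*} [Fintype R] [Fintype C]

/-- Every eigenvalue of `(1/3) ∑ u ∈ t, avg (t.erase u) T` on the functions with vanishing
class average is at most `2 / 3`. -/
theorem eig_le (t : Finset R) (ht : t.card = 3) (T : Finset C)
    (hconn : ∀ M M' : R → C → Bool, Rel t T M M' →
      Relation.ReflTransGen (SwitchStep t T) M M')
    (φ : (R → C → Bool) → ℝ) (lam : ℝ) (hφ : φ ≠ 0) (havg : ∀ M, avg t T φ M = 0)
    (heig : ∀ M, ∑ u ∈ t, avg (t.erase u) T φ M = 3 * lam * φ M) : lam ≤ 2 / 3 := by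
  by_cases hτ : ∀ a ∈ T, ∀ b ∈ T, ∀ N, φ (tau t a b N) = φ N
  · rcases exists_tau_or_mixed t ht T hconn φ hφ havg with ⟨x, hx, y, hy, M, hM⟩ | hmix
    · exact absurd (hτ x hx y hy M) hM
    · exact eig_le_of_tau_fixed t ht T φ lam heig hτ hmix
  · simp only [not_forall] at hτ
    obtain ⟨a, ha, b, hb, N, hN⟩ := hτ
    exact eig_le_of_tau_moves t ht T ha hb φ lam heig ⟨N, hN⟩

/-- The sum of the three pair-averaging operators, as a linear map. -/
noncomputable def Ksum (t : Finset R) (T : Finset C) :
    ((R → C → Bool) → ℝ) →ₗ[ℝ] ((R → C → Bool) → ℝ) :=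
  ∑ u ∈ t, avgLin (t.erase u) T

theorem Ksum_apply (t : Finset R) (T : Finset C) (f : (R → C → Bool) → ℝ)
    (M : R → C → Bool) : Ksum t T f M = ∑ u ∈ t, avg (t.erase u) T f M := by
  simp only [Ksum, LinearMap.sum_apply, Finset.sum_apply, avgLin_apply]

/-- The three-row inequality on functions with vanishing class average. -/
theorem three_row_zero (t : Finset R) (ht : t.card = 3) (T : Finset C)
    (hconn : ∀ M M' : R → C → Bool, Rel t T M M' →
      Relation.ReflTransGen (SwitchStep t T) M M')
    (f : (R → C → Bool) → ℝ) (hf : ∀ M, avg t T f M = 0) :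
    ∑ M, f M * ∑ u ∈ t, avg (t.erase u) T f M ≤ 2 * ∑ M, f M ^ 2 := by
  have hsymm : ∀ a b : (R → C → Bool) → ℝ,
      ∑ M, Ksum t T a M * b M = ∑ M, a M * Ksum t T b M := by
    intro a b
    simp only [Ksum_apply, Finset.sum_mul, Finset.mul_sum]
    rw [Finset.sum_comm, Finset.sum_comm (s := univ) (t := t)]
    exact Finset.sum_congr rfl fun u _ => sum_avg_mul (t.erase u) T a b
  have hinv : ∀ g : (R → C → Bool) → ℝ, avgLin t T g = 0 → avgLin t T (Ksum t T g) = 0 := by
    intro g hg
    have h1 : ∀ u ∈ t, avgLin t T (avgLin (t.erase u) T g) = avgLin t T g := by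
      intro u _
      funext M
      exact avg_avg_of_subset' (Finset.erase_subset u t) T g M
    rw [Ksum, LinearMap.sum_apply, map_sum, Finset.sum_congr rfl h1, hg]
    simp
  have heig : ∀ (φ : (R → C → Bool) → ℝ) (lam : ℝ), φ ≠ 0 → avgLin t T φ = 0 →
      Ksum t T φ = lam • φ → lam ≤ 2 := by
    intro φ lam hφ hφ0 hK
    have h1 : ∀ M, avg t T φ M = 0 := fun M => congrFun hφ0 M
    have h2 : ∀ M, ∑ u ∈ t, avg (t.erase u) T φ M = 3 * (lam / 3) * φ M := by
      intro M
      rw [← Ksum_apply, hK]
      simp only [Pi.smul_apply, smul_eq_mul]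
      ring
    have := eig_le t ht T hconn φ (lam / 3) hφ h1 h2
    linarith
  have key := spectral_bound (Ksum t T) (avgLin t T) 2 hsymm hinv heig f (funext hf)
  simpa only [Ksum_apply] using key

/-- The three-row inequality `I1`, assuming that the classes of the block `t × T` are
connected by switches. -/
theorem three_row_of_connected (t : Finset R) (ht : t.card = 3) (T : Finset C)
    (hconn : ∀ M M' : R → C → Bool, Rel t T M M' →
      Relation.ReflTransGen (SwitchStep t T) M M')
    (f : (R → C → Bool) → ℝ) :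
    ∑ p ∈ t.powersetCard 2, ∑ M, f M * avg p T f M
      ≤ 2 * ∑ M, f M ^ 2 + ∑ M, f M * avg t T f M := by
  rw [sum_powersetCard_two t ht (fun p => ∑ M, f M * avg p T f M)]
  have hee : ∀ M, avg t T (avg t T f) M = avg t T f M := fun M =>
    avg_of_invariant (fun M M' h => avg_eq_of_rel f h) M
  have hf0avg : ∀ M, avg t T (fun N => f N - avg t T f N) M = 0 := by
    intro M
    rw [avg_sub, hee]
    ring
  have h0 := three_row_zero t ht T hconn (fun N => f N - avg t T f N) hf0avg
  have hue : ∀ u ∈ t, ∀ M, avg (t.erase u) T f M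
      = avg (t.erase u) T (fun N => f N - avg t T f N) M + avg t T f M := by
    intro u _ M
    rw [avg_sub, avg_avg_of_subset (Finset.erase_subset u t) T f M]
    ring
  -- orthogonality relations
  have hfe : ∑ M, f M * avg t T f M = ∑ M, avg t T f M * avg t T f M := by
    have h1 := sum_avg_mul t T f (avg t T f)
    rw [h1]
    exact Finset.sum_congr rfl fun M _ => by rw [hee]
  have hcross : ∀ u ∈ t, ∑ M, avg t T f M
      * avg (t.erase u) T (fun N => f N - avg t T f N) M = 0 := by
    intro u _
    rw [← sum_avg_mul (t.erase u) T (avg t T f) (fun N => f N - avg t T f N)]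
    have h2 : ∀ M, avg (t.erase u) T (avg t T f) M * (f M - avg t T f M)
        = avg t T f M * f M - avg t T f M * avg t T f M := by
      intro M
      rw [avg_avg_of_subset (Finset.erase_subset u t) T f M]
      ring
    rw [Finset.sum_congr rfl fun M _ => h2 M, Finset.sum_sub_distrib, ← hfe]
    rw [sub_eq_zero]
    exact Finset.sum_congr rfl fun M _ => mul_comm _ _
  -- expand the left side
  have hexp : ∀ u ∈ t, ∑ M, f M * avg (t.erase u) T f M
      = ∑ M, (f M - avg t T f M) * avg (t.erase u) T (fun N => f N - avg t T f N) M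
        + ∑ M, avg t T f M * avg t T f M := by
    intro u hu
    have h3 : ∀ M, f M * avg (t.erase u) T f M
        = (f M - avg t T f M) * avg (t.erase u) T (fun N => f N - avg t T f N) M
          + avg t T f M * avg (t.erase u) T (fun N => f N - avg t T f N) M
          + f M * avg t T f M := by
      intro M
      rw [hue u hu M]
      ring
    rw [Finset.sum_congr rfl fun M _ => h3 M, Finset.sum_add_distrib, Finset.sum_add_distrib,
      hcross u hu, add_zero, hfe]
  rw [Finset.sum_congr rfl hexp, Finset.sum_add_distrib, Finset.sum_const, ht, Finset.sum_comm]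
  have h4 : ∑ M, ∑ u ∈ t, (f M - avg t T f M)
        * avg (t.erase u) T (fun N => f N - avg t T f N) M
      = ∑ M, (f M - avg t T f M)
        * ∑ u ∈ t, avg (t.erase u) T (fun N => f N - avg t T f N) M :=
    Finset.sum_congr rfl fun M _ => (Finset.mul_sum _ _ _).symm
  have h5 : ∑ M, (f M - avg t T f M) ^ 2
      = ∑ M, f M ^ 2 - ∑ M, avg t T f M * avg t T f M := by
    have h6 : ∀ M, (f M - avg t T f M) ^ 2
        = f M ^ 2 - 2 * (f M * avg t T f M) + avg t T f M * avg t T f M := fun M => by ring
    rw [Finset.sum_congr rfl fun M _ => h6 M, Finset.sum_add_distrib, Finset.sum_sub_distrib,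
      ← Finset.mul_sum, hfe]
    ring
  rw [h4]
  rw [h5] at h0
  rw [hfe]
  simp only [nsmul_eq_mul, Nat.cast_ofNat]
  linarith

end Vale.Agent.Lib.P335.Bip.Three
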