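import Vale.Agent.Lib.P335.Bip.ThreeDefs

/-!
# P335 / bipartite core: a switch on three rows is a column transposition or a mixed switch
-/

namespace Vale.Agent.Lib.P335.Bip.Three

open Finset
open scoped Classical

variable {R C : Type*} [Fintype R] [Fintype C]

/-- A three-element set containing two distinct elements `i`, `i'` is `{i, i', k}`. -/
theorem threesteps_third (t : Finset R) (ht : t.card = 3) {i i' : R} (hi : i ∈ t) (hi' : i' ∈ t)
    (hne : i ≠ i') : ∃ k ∈ t, k ≠ i ∧ k ≠ i' ∧ ∀ a, a ∈ t ↔ (a = i ∨ a = i' ∨ a = k) := by
  have h1 : (t.erase i).card = 2 := by
    rw [Finset.card_erase_of_mem hi, ht]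
  have hi'e : i' ∈ t.erase i := Finset.mem_erase.mpr ⟨Ne.symm hne, hi'⟩
  have h2 : ((t.erase i).erase i').card = 1 := by
    rw [Finset.card_erase_of_mem hi'e, h1]
  obtain ⟨k, hk⟩ := Finset.card_eq_one.mp h2
  have hkmem : k ∈ (t.erase i).erase i' := by
    rw [hk]
    exact Finset.mem_singleton_self k
  have hk1 := Finset.mem_erase.mp hkmem
  have hk2 := Finset.mem_erase.mp hk1.2
  refine ⟨k, hk2.2, hk2.1, hk1.1, ?_⟩
  intro a
  constructor
  · intro ha
    by_cases hai : a = i
    · exact Or.inl hai
    · by_cases hai' : a = i'
      · exact Or.inr (Or.inl hai')
      · have : a ∈ (t.erase i).erase i' :=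
          Finset.mem_erase.mpr ⟨hai', Finset.mem_erase.mpr ⟨hai, ha⟩⟩
        rw [hk] at this
        exact Or.inr (Or.inr (Finset.mem_singleton.mp this))
  · rintro (h | h | h)
    · rw [h]
      exact hi
    · rw [h]
      exact hi'
    · rw [h]
      exact hk2.2

/-- The switch written with the roles of the rows and of the columns exchanged. -/
theorem threesteps_switch_comm (M : R → C → Bool) {i i' : R} {x y : C} (hne : i ≠ i')
    (hxy : x ≠ y) : switchMat M i i' x y = switchMat M i' i y x := by
  have hne' : i' ≠ i := Ne.symm hne
  have hyx : y ≠ x := Ne.symm hxy
  funext a b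
  unfold switchMat
  by_cases hai : a = i
  · rw [hai]
    by_cases hbx : b = x
    · rw [hbx]
      simp [hne, hxy]
    · by_cases hby : b = y
      · rw [hby]
        simp [hne, hyx]
      · simp [hbx, hby]
  · by_cases hai' : a = i'
    · rw [hai']
      by_cases hbx : b = x
      · rw [hbx]
        simp [hne', hxy]
      · by_cases hby : b = y
        · rw [hby]
          simp [hne', hyx]
        · simp [hbx, hby]
    · simp [hai, hai']

/-- Number of ones of a column on `{i, i', k}` when row `i` has a one and row `i'` a zero. -/
theorem threesteps_res (t : Finset R) {i i' k : R} (hik : i ≠ k) (hi'k : i' ≠ k)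
    (hmem : ∀ a, a ∈ t ↔ (a = i ∨ a = i' ∨ a = k)) (M : R → C → Bool) (c : C)
    (h1 : M i c = true) (h0 : M i' c = false) :
    res t M c = if M k c = true then 2 else 1 := by
  unfold res
  by_cases hk : M k c = true
  · rw [if_pos hk]
    have : t.filter (fun u => M u c = true) = {i, k} := by
      ext a
      simp only [Finset.mem_filter, hmem, Finset.mem_insert, Finset.mem_singleton]
      constructor
      · rintro ⟨h | h | h, ha⟩
        · exact Or.inl h
        · rw [h, h0] at ha
          exact absurd ha (by simp)
        · exact Or.inr h
      · rintro (h | h)
        · exact ⟨Or.inl h, by rw [h]; exact h1⟩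
        · exact ⟨Or.inr (Or.inr h), by rw [h]; exact hk⟩
    rw [this, Finset.card_pair hik]
  · rw [if_neg hk]
    have : t.filter (fun u => M u c = true) = {i} := by
      ext a
      simp only [Finset.mem_filter, hmem, Finset.mem_singleton]
      constructor
      · rintro ⟨h | h | h, ha⟩
        · exact h
        · rw [h, h0] at ha
          exact absurd ha (by simp)
        · rw [h] at ha
          exact absurd ha hk
      · intro h
        exact ⟨Or.inl h, by rw [h]; exact h1⟩
    rw [this, Finset.card_singleton]

theorem switchStep_cases (t : Finset R) (ht : t.card = 3) (T : Finset C)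
    {M M' : R → C → Bool} (h : SwitchStep t T M M') :
    (∃ x ∈ T, ∃ y ∈ T, M' = tau t x y M) ∨ MixedStep t T M M' := by
  obtain ⟨i, hi, i', hi', x, hx, y, hy, hne, hxy, hix, hi'x, hiy, hi'y, hM'⟩ := h
  obtain ⟨k, hk, hki, hki', hmem⟩ := threesteps_third t ht hi hi' hne
  have hik : i ≠ k := Ne.symm hki
  have hi'k : i' ≠ k := Ne.symm hki'
  have hne' : i' ≠ i := Ne.symm hne
  have hyx : y ≠ x := Ne.symm hxy
  by_cases hkx : M k x = true
  · by_cases hky : M k y = true
    · -- same type: both columns have two ones
      left
      refine ⟨x, hx, y, hy, ?_⟩
      have hres : res t M x = res t M y := by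
        rw [threesteps_res t hik hi'k hmem M x hix hi'x,
          threesteps_res t hi'k hik (fun a => by rw [hmem a]; tauto) M y hi'y hiy,
          if_pos hkx, if_pos hky]
      rw [hM']
      unfold tau
      rw [if_pos hres]
      funext a b
      unfold switchMat colSwap
      by_cases hai : a = i
      · rw [hai]
        by_cases hbx : b = x
        · rw [hbx]
          simp [hi, hiy]
        · by_cases hby : b = y
          · rw [hby]
            simp [hi, hyx, hix]
          · simp [hbx, hby]
      · by_cases hai' : a = i'
        · rw [hai']
          by_cases hbx : b = x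
          · rw [hbx]
            simp [hi', hne', hi'y]
          · by_cases hby : b = y
            · rw [hby]
              simp [hi', hne', hyx, hi'x]
            · simp [hbx, hby]
        · by_cases hak : a = k
          · rw [hak]
            by_cases hbx : b = x
            · rw [hbx]
              simp [hk, hki, hki', hkx, hky]
            · by_cases hby : b = y
              · rw [hby]
                simp [hk, hki, hki', hyx, hkx, hky]
              · simp [hbx, hby]
          · have hat : a ∉ t := by
              rw [hmem]
              tauto
            simp [hai, hai', hat]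
    · -- column x has two ones, column y has one: mixed switch with rows exchanged
      right
      have hky' : M k y = false := by simpa using hky
      refine ⟨i', hi', i, hi, k, hk, hne', hi'k, hik, y, hy, x, hx, hi'y, hiy, hky', hi'x, hix,
        hkx, ?_⟩
      rw [hM']
      exact threesteps_switch_comm M hne hxy
  · have hkx' : M k x = false := by simpa using hkx
    by_cases hky : M k y = true
    · -- mixed switch
      right
      exact ⟨i, hi, i', hi', k, hk, hne, hik, hi'k, x, hx, y, hy, hix, hi'x, hkx', hiy, hi'y,
        hky, hM'⟩
    · -- same type: both columns have one one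
      left
      have hky' : M k y = false := by simpa using hky
      refine ⟨x, hx, y, hy, ?_⟩
      have hres : res t M x = res t M y := by
        rw [threesteps_res t hik hi'k hmem M x hix hi'x,
          threesteps_res t hi'k hik (fun a => by rw [hmem a]; tauto) M y hi'y hiy,
          if_neg hkx, if_neg hky]
      rw [hM']
      unfold tau
      rw [if_pos hres]
      funext a b
      unfold switchMat colSwap
      by_cases hai : a = i
      · rw [hai]
        by_cases hbx : b = x
        · rw [hbx]
          simp [hi, hiy]
        · by_cases hby : b = y
          · rw [hby]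
            simp [hi, hyx, hix]
          · simp [hbx, hby]
      · by_cases hai' : a = i'
        · rw [hai']
          by_cases hbx : b = x
          · rw [hbx]
            simp [hi', hne', hi'y]
          · by_cases hby : b = y
            · rw [hby]
              simp [hi', hne', hyx, hi'x]
            · simp [hbx, hby]
        · by_cases hak : a = k
          · rw [hak]
            by_cases hbx : b = x
            · rw [hbx]
              simp [hk, hki, hki', hkx', hky']
            · by_cases hby : b = y
              · rw [hby]
                simp [hk, hki, hki', hyx, hkx', hky']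
              · simp [hbx, hby]
          · have hat : a ∉ t := by
              rw [hmem]
              tauto
            simp [hai, hai', hat]

end Vale.Agent.Lib.P335.Bip.Three
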