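import Vale.Agent.Lib.P335.Bip.ThreeDefs
import Vale.Agent.Lib.P335.Bip.ThreeAvg

/-!
# P335 / bipartite core: the column transposition `tau`, first part
-/

namespace Vale.Agent.Lib.P335.Bip.Three

open Finset
open scoped Classical

variable {R C : Type*} [Fintype R] [Fintype C]

omit [Fintype R] [Fintype C] in
theorem threetaua_res_colSwap_left (t : Finset R) (x y : C) (M : R → C → Bool) :
    res t (colSwap t x y M) x = res t M y := by
  unfold res
  congr 1
  apply Finset.filter_congr
  intro u hu
  simp [colSwap, hu]

omit [Fintype R] [Fintype C] in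
theorem threetaua_res_colSwap_right (t : Finset R) (x y : C) (M : R → C → Bool) :
    res t (colSwap t x y M) y = res t M x := by
  unfold res
  congr 1
  apply Finset.filter_congr
  intro u hu
  by_cases hyx : y = x
  · subst hyx
    simp [colSwap, hu]
  · simp [colSwap, hu, hyx]

omit [Fintype R] [Fintype C] in
theorem threetaua_colSwap_colSwap (t : Finset R) (x y : C) (M : R → C → Bool) :
    colSwap t x y (colSwap t x y M) = M := by
  funext a b
  by_cases ha : a ∈ t
  · by_cases hbx : b = x
    · subst hbx
      by_cases hyb : y = b
      · subst hyb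
        simp [colSwap, ha]
      · simp [colSwap, ha, hyb]
    · by_cases hby : b = y
      · subst hby
        simp [colSwap, ha, hbx]
      · simp [colSwap, ha, hbx, hby]
  · simp [colSwap, ha]

omit [Fintype R] [Fintype C] in
theorem tau_invol (t : Finset R) (x y : C) (M : R → C → Bool) :
    tau t x y (tau t x y M) = M := by
  by_cases h : res t M x = res t M y
  · have h1 : tau t x y M = colSwap t x y M := if_pos h
    rw [h1]
    have h2 : res t (colSwap t x y M) x = res t (colSwap t x y M) y := by
      rw [threetaua_res_colSwap_left, threetaua_res_colSwap_right]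
      exact h.symm
    have h3 : tau t x y (colSwap t x y M) = colSwap t x y (colSwap t x y M) := if_pos h2
    rw [h3, threetaua_colSwap_colSwap]
  · have h1 : tau t x y M = M := if_neg h
    rw [h1, h1]

omit [Fintype C] in
theorem threetaua_colSum_split (s : Finset R) (M : R → C → Bool) (c : C) :
    colSum M c = (∑ a ∈ s, if M a c = true then 1 else 0)
      + ∑ a ∈ sᶜ, if M a c = true then 1 else 0 := by
  unfold colSum
  rw [Finset.card_filter, Finset.sum_add_sum_compl]

omit [Fintype R] [Fintype C] in
theorem threetaua_res_split (t : Finset R) {u : R} (hu : u ∈ t) (M : R → C → Bool) (c : C) :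
    res t M c = (if M u c = true then 1 else 0)
      + ∑ a ∈ t.erase u, if M a c = true then 1 else 0 := by
  unfold res
  rw [Finset.card_filter]
  exact (Finset.add_sum_erase t (fun a => if M a c = true then 1 else 0) hu).symm

/-- On a class of the block `(t.erase u) × T` the numbers of ones of a column in the rows of
`t` do not change. -/
theorem res_eq_of_rel_erase (t : Finset R) (T : Finset C) {u : R} (hu : u ∈ t)
    {M M' : R → C → Bool} (h : Rel (t.erase u) T M M') (c : C) : res t M' c = res t M c := by
  obtain ⟨h1, -, h3⟩ := h
  have hout : ∀ a, a ∉ t.erase u → M' a c = M a c := fun a ha => h1 a c (fun hh => ha hh.1)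
  have hcol := h3 c
  rw [threetaua_colSum_split (t.erase u) M' c, threetaua_colSum_split (t.erase u) M c] at hcol
  have hcompl : (∑ a ∈ (t.erase u)ᶜ, if M' a c = true then 1 else 0)
      = ∑ a ∈ (t.erase u)ᶜ, if M a c = true then 1 else 0 := by
    apply Finset.sum_congr rfl
    intro a ha
    rw [hout a (Finset.mem_compl.mp ha)]
  rw [hcompl] at hcol
  rw [threetaua_res_split t hu M' c, threetaua_res_split t hu M c,
    hout u (Finset.notMem_erase u t)]
  omega

/-- Being moved is constant on the classes of the block `(t.erase u) × T`. -/
theorem moved_iff_of_rel (t : Finset R) (T : Finset C) (x y : C)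
    {u : R} (hu : u ∈ t) {M M' : R → C → Bool} (h : Rel (t.erase u) T M M') :
    Moved t x y u M ↔ Moved t x y u M' := by
  have hx : M' u x = M u x := h.1 u x (fun hh => (Finset.notMem_erase u t) hh.1)
  have hy : M' u y = M u y := h.1 u y (fun hh => (Finset.notMem_erase u t) hh.1)
  unfold Moved
  rw [res_eq_of_rel_erase t T hu h x, res_eq_of_rel_erase t T hu h y, hx, hy]

omit [Fintype R] [Fintype C] in
/-- At most two of the three rows are moved. -/
theorem moved_card_le (t : Finset R) (ht : t.card = 3) (x y : C) (M : R → C → Bool) :
    (t.filter (fun u => Moved t x y u M)).card ≤ 2 := by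
  by_contra hcon
  push Not at hcon
  have hsub : t.filter (fun u => Moved t x y u M) ⊆ t := Finset.filter_subset _ _
  have hcard : t.card ≤ (t.filter (fun u => Moved t x y u M)).card := by omega
  have heq : t.filter (fun u => Moved t x y u M) = t :=
    Finset.eq_of_subset_of_card_le hsub hcard
  have hall : ∀ u ∈ t, Moved t x y u M := by
    intro u hu
    rw [← heq] at hu
    exact (Finset.mem_filter.mp hu).2
  have hne : t.Nonempty := by
    rw [← Finset.card_pos]
    omega
  obtain ⟨u0, hu0⟩ := hne
  have hres : res t M x = res t M y := (hall u0 hu0).1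
  have hsum : res t M x + res t M y = t.card := by
    unfold res
    rw [Finset.card_filter, Finset.card_filter, ← Finset.sum_add_distrib,
      Finset.card_eq_sum_ones]
    apply Finset.sum_congr rfl
    intro u hu
    have hm := (hall u hu).2
    cases hx : M u x <;> cases hy : M u y <;> simp_all
  omega

end Vale.Agent.Lib.P335.Bip.Three
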