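import Vale.Agent.Lib.P335.Bip.ThreeTauA

/-!
# P335 / bipartite core: the column transposition `tau` and the two-row classes
-/

namespace Vale.Agent.Lib.P335.Bip.Three

open Finset
open scoped Classical

variable {R C : Type*} [Fintype R] [Fintype C]

omit [Fintype R] [Fintype C] in
theorem threetaub_colSwap_apply (t : Finset R) (x y : C) (M : R → C → Bool) {a : R}
    (ha : a ∈ t) (b : C) : colSwap t x y M a b = M a (Equiv.swap x y b) := by
  unfold colSwap
  rw [if_pos ha, Equiv.swap_apply_def]
  split_ifs <;> rfl

omit [Fintype R] [Fintype C] in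
theorem threetaub_colSwap_notMem (t : Finset R) (x y : C) (M : R → C → Bool) {a : R}
    (ha : a ∉ t) (b : C) : colSwap t x y M a b = M a b := by
  unfold colSwap
  rw [if_neg ha]

omit [Fintype R] in
/-- Swapping two columns on some rows does not change the row sums. -/
theorem threetaub_rowSum (t : Finset R) (x y : C) (M : R → C → Bool) (a : R) :
    rowSum (colSwap t x y M) a = rowSum M a := by
  unfold rowSum
  by_cases ha : a ∈ t
  · apply Finset.card_equiv (Equiv.swap x y)
    intro b
    simp only [mem_filter, mem_univ, true_and]
    rw [threetaub_colSwap_apply t x y M ha]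
  · congr 1
    apply Finset.filter_congr
    intro b _
    rw [threetaub_colSwap_notMem t x y M ha]

omit [Fintype R] [Fintype C] in
theorem threetaub_res (t : Finset R) (x y : C) (M : R → C → Bool) (c : C) :
    res t (colSwap t x y M) c
      = if c = x then res t M y else if c = y then res t M x else res t M c := by
  unfold res
  split_ifs with h1 h2
  · congr 1
    apply Finset.filter_congr
    intro i hi
    rw [threetaub_colSwap_apply t x y M hi, h1, Equiv.swap_apply_left]
  · congr 1
    apply Finset.filter_congr
    intro i hi
    rw [threetaub_colSwap_apply t x y M hi, h2, Equiv.swap_apply_right]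
  · congr 1
    apply Finset.filter_congr
    intro i hi
    rw [threetaub_colSwap_apply t x y M hi, Equiv.swap_apply_of_ne_of_ne h1 h2]

omit [Fintype C] in
theorem threetaub_colSum_split (t : Finset R) (M : R → C → Bool) (c : C) :
    colSum M c = res t M c + (univ.filter (fun i => i ∉ t ∧ M i c = true)).card := by
  unfold colSum res
  rw [← Finset.card_filter_add_card_filter_not (fun i => i ∈ t)
    (s := univ.filter (fun i => M i c = true))]
  congr 1
  · congr 1
    ext i
    simp only [mem_filter, mem_univ, true_and]
    tauto
  · congr 1
    ext i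
    simp only [mem_filter, mem_univ, true_and]
    tauto

omit [Fintype C] in
/-- Swapping two columns with the same number of ones in the rows of `t` does not change the
column sums. -/
theorem threetaub_colSum (t : Finset R) (x y : C) (M : R → C → Bool)
    (h : res t M x = res t M y) (c : C) : colSum (colSwap t x y M) c = colSum M c := by
  rw [threetaub_colSum_split t (colSwap t x y M) c, threetaub_colSum_split t M c,
    threetaub_res]
  have h1 : (univ.filter (fun i => i ∉ t ∧ colSwap t x y M i c = true))
      = univ.filter (fun i => i ∉ t ∧ M i c = true) := by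
    apply Finset.filter_congr
    intro i _
    constructor
    · rintro ⟨hi, h2⟩
      rw [threetaub_colSwap_notMem t x y M hi] at h2
      exact ⟨hi, h2⟩
    · rintro ⟨hi, h2⟩
      rw [threetaub_colSwap_notMem t x y M hi]
      exact ⟨hi, h2⟩
  rw [h1]
  congr 1
  split_ifs with h2 h3
  · rw [h2, h]
  · rw [h3, h]
  · rfl

omit [Fintype C] in
theorem threetaub_swap_mem (T : Finset C) {x y : C} (hx : x ∈ T) (hy : y ∈ T) (j : C)
    (h : Equiv.swap x y j ∈ T) : j ∈ T := by
  by_cases h1 : j = x
  · rw [h1]
    exact hx
  · by_cases h2 : j = y
    · rw [h2]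
      exact hy
    · rwa [Equiv.swap_apply_of_ne_of_ne h1 h2] at h

/-- If row `u` is not moved, `tau` stays inside the class of the block `(t.erase u) × T`. -/
theorem rel_tau_erase (t : Finset R) (T : Finset C) {x y : C} (hx : x ∈ T) (hy : y ∈ T)
    {u : R} (hu : u ∈ t) (M : R → C → Bool) (h : ¬ Moved t x y u M) :
    Rel (t.erase u) T M (tau t x y M) := by
  have _hu := hu
  unfold tau
  by_cases hres : res t M x = res t M y
  · rw [if_pos hres]
    have hux : M u x = M u y := by
      by_contra hne
      exact h ⟨hres, hne⟩
    refine ⟨?_, fun i => threetaub_rowSum t x y M i, fun j => threetaub_colSum t x y M hres j⟩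
    intro i j hij
    by_cases hi : i ∈ t
    · rw [threetaub_colSwap_apply t x y M hi]
      by_cases hiu : i = u
      · rw [hiu]
        by_cases h1 : j = x
        · rw [h1, Equiv.swap_apply_left, hux]
        · by_cases h2 : j = y
          · rw [h2, Equiv.swap_apply_right, hux]
          · rw [Equiv.swap_apply_of_ne_of_ne h1 h2]
      · have hjT : j ∉ T := fun hj => hij ⟨Finset.mem_erase.mpr ⟨hiu, hi⟩, hj⟩
        have h1 : j ≠ x := fun hj => hjT (hj ▸ hx)
        have h2 : j ≠ y := fun hj => hjT (hj ▸ hy)
        rw [Equiv.swap_apply_of_ne_of_ne h1 h2]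
    · exact threetaub_colSwap_notMem t x y M hi j
  · rw [if_neg hres]
    exact rel_refl _ _ _

/-- `tau` maps classes of the block `(t.erase u) × T` to classes. -/
theorem tau_rel_erase (t : Finset R) (T : Finset C) {x y : C} (hx : x ∈ T) (hy : y ∈ T)
    {u : R} (hu : u ∈ t) {M M' : R → C → Bool} (h : Rel (t.erase u) T M M') :
    Rel (t.erase u) T (tau t x y M) (tau t x y M') := by
  have hrx := res_eq_of_rel_erase t T hu h x
  have hry := res_eq_of_rel_erase t T hu h y
  unfold tau
  by_cases hres : res t M x = res t M y
  · have hres' : res t M' x = res t M' y := by rw [hrx, hry, hres]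
    rw [if_pos hres, if_pos hres']
    refine ⟨?_, fun i => ?_, fun j => ?_⟩
    · intro i j hij
      by_cases hi : i ∈ t
      · rw [threetaub_colSwap_apply t x y M' hi, threetaub_colSwap_apply t x y M hi]
        apply h.1
        intro hc
        exact hij ⟨hc.1, threetaub_swap_mem T hx hy j hc.2⟩
      · rw [threetaub_colSwap_notMem t x y M' hi, threetaub_colSwap_notMem t x y M hi]
        exact h.1 i j hij
    · rw [threetaub_rowSum, threetaub_rowSum]
      exact h.2.1 i
    · rw [threetaub_colSum t x y M' hres', threetaub_colSum t x y M hres]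
      exact h.2.2 j
  · have hres' : ¬ res t M' x = res t M' y := by
      rw [hrx, hry]
      exact hres
    rw [if_neg hres, if_neg hres']
    exact h

end Vale.Agent.Lib.P335.Bip.Three
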